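import Mathlib
import Vale.Agent.P074.Defs

open MeasureTheory Set
open scoped ENNReal NNReal

namespace Vale.Agent.P074

variable {d : ℕ}

/-- coordinate box in `E d` -/
def boxE (lo hi : Fin d → ℝ) : Set (E d) := {x | ∀ i, lo i ≤ x i ∧ x i ≤ hi i}

theorem boxE_eq (lo hi : Fin d → ℝ) : boxE lo hi = (fun x : E d => WithLp.ofLp x) ⁻¹' Icc lo hi := by
  ext x
  simp only [boxE, mem_ofPred_eq, mem_preimage, mem_Icc, Pi.le_def]
  exact ⟨fun h => ⟨fun i => (h i).1, fun i => (h i).2⟩, fun h i => ⟨h.1 i, h.2 i⟩⟩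

theorem volume_boxE (lo hi : Fin d → ℝ) :
    volume (boxE lo hi) = ∏ i, ENNReal.ofReal (hi i - lo i) := by
  rw [boxE_eq, (PiLp.volume_preserving_ofLp (Fin d)).measure_preimage
    (measurableSet_Icc).nullMeasurableSet, Real.volume_Icc_pi]

/-- the cube `[-1,1]^d` -/
def cube (d : ℕ) : Set (E d) := boxE (fun _ => -1) (fun _ => 1)

theorem mem_cube {x : E d} : x ∈ cube d ↔ ∀ i, |x i| ≤ 1 := by
  simp only [cube, boxE, mem_ofPred_eq, abs_le]

theorem isClosed_boxE (lo hi : Fin d → ℝ) : IsClosed (boxE lo hi) := by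
  rw [boxE_eq]
  exact isClosed_Icc.preimage (PiLp.continuous_ofLp 2 _)

theorem isCompact_cube (d : ℕ) : IsCompact (cube d) := by
  apply Metric.isCompact_of_isClosed_isBounded (isClosed_boxE _ _)
  refine (Metric.isBounded_closedBall (x := (0 : E d)) (r := Real.sqrt d)).subset ?_
  intro x hx
  replace hx : x ∈ cube d := hx
  rw [mem_cube] at hx
  rw [mem_closedBall_zero_iff, EuclideanSpace.norm_eq]
  apply Real.sqrt_le_sqrt
  calc ∑ i, ‖x i‖ ^ 2 ≤ ∑ _i : Fin d, (1 : ℝ) := by
        apply Finset.sum_le_sum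
        intro i _
        rw [Real.norm_eq_abs]
        have := hx i
        have h0 := abs_nonneg (x i)
        nlinarith
    _ = d := by simp

theorem convex_cube (d : ℕ) : Convex ℝ (cube d) := by
  intro x hx y hy a b ha hb hab
  rw [mem_cube] at *
  intro i
  have h1 := abs_le.1 (hx i)
  have h2 := abs_le.1 (hy i)
  simp only [PiLp.add_apply, PiLp.smul_apply, smul_eq_mul]
  rw [abs_le]
  constructor <;> nlinarith

theorem interior_cube_nonempty (d : ℕ) : (interior (cube d)).Nonempty := by
  refine ⟨0, ?_⟩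
  rw [mem_interior]
  refine ⟨Metric.ball 0 1, ?_, Metric.isOpen_ball, by simp⟩
  intro x hx
  rw [mem_ball_zero_iff] at hx
  rw [mem_cube]
  intro i
  have := PiLp.norm_apply_le x i
  rw [Real.norm_eq_abs] at this
  linarith

theorem volume_cube (d : ℕ) : volume (cube d) = 2 ^ d := by
  rw [cube, volume_boxE]
  simp only [Finset.prod_const, Finset.card_univ, Fintype.card_fin]
  norm_num

theorem volume_cube_ne_zero (d : ℕ) : volume (cube d) ≠ 0 := by
  rw [volume_cube]; positivity

theorem volume_cube_ne_top (d : ℕ) : volume (cube d) ≠ ∞ := by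
  rw [volume_cube]; exact ENNReal.pow_ne_top (by norm_num)

instance isProb_unif_cube (d : ℕ) : IsProbabilityMeasure (unif (cube d)) := by
  constructor
  rw [unif, Measure.smul_apply, Measure.restrict_apply MeasurableSet.univ, univ_inter, smul_eq_mul,
    ENNReal.inv_mul_cancel (volume_cube_ne_zero d) (volume_cube_ne_top d)]

theorem unif_compl (d : ℕ) : unif (cube d) (cube d)ᶜ = 0 := by
  have hm : MeasurableSet (cube d) := (isClosed_boxE _ _).measurableSet
  rw [unif, Measure.smul_apply, Measure.restrict_apply hm.compl,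
    compl_inter_self, measure_empty, smul_zero]

/-- hyperplanes are null -/
theorem hyper_null (v : E d) (hv : v ≠ 0) (c : ℝ) :
    volume {x : E d | inner ℝ v x = c} = 0 := by
  let L : E d →ₗ[ℝ] ℝ := (innerSL ℝ v).toLinearMap
  let S : AffineSubspace ℝ (E d) :=
    { carrier := {x | L x = c}
      smul_vsub_vadd_mem' := by
        intro t p1 p2 p3 h1 h2 h3
        simp only [mem_ofPred_eq] at *
        simp only [vsub_eq_sub, vadd_eq_add, map_add, map_smul, map_sub, h1, h2, h3]
        simp }
  have : S ≠ ⊤ := by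
    intro h
    have h1 : (0 : E d) ∈ S := by rw [h]; trivial
    have h2 : v ∈ S := by rw [h]; trivial
    have h1' : L 0 = c := h1
    have h2' : L v = c := h2
    rw [map_zero] at h1'
    rw [← h1'] at h2'
    have h3 : (inner ℝ v v : ℝ) = 0 := h2'
    exact hv (inner_self_eq_zero.1 h3)
  exact Measure.addHaar_affineSubspace volume S this

/-- coordinatewise measure preserving maps -/
theorem coord_mp (f : Fin d → ℝ → ℝ) (hf : ∀ i, MeasurePreserving (f i) volume volume) :
    MeasurePreserving (fun x : E d => (WithLp.toLp 2 (fun i => f i (x i)) : E d))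
      volume volume := by
  have h1 := PiLp.volume_preserving_ofLp (Fin d)
  have h2 : MeasurePreserving (fun (x : Fin d → ℝ) (i : Fin d) => f i (x i)) volume volume :=
    volume_preserving_pi (fun i => hf i)
  have h3 := PiLp.volume_preserving_toLp (Fin d)
  exact h3.comp (h2.comp h1)

end Vale.Agent.P074
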