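import Mathlib
import Vale.Agent.P074.Defs
import Vale.Agent.P074.Cube

open MeasureTheory Set
open scoped ENNReal NNReal

namespace Vale.Agent.P074

variable {d : ℕ} {Ω : Type} [Fintype Ω]

section
variable [Nonempty Ω]

/-- maximum of finitely many affine functions -/
noncomputable def phi (P : Ω → E d) (ψ : Ω → ℝ) (x : E d) : ℝ :=
  Finset.univ.sup' Finset.univ_nonempty (fun ω => inner ℝ x (P ω) - ψ ω)

/-- Laguerre cell -/
def cell (P : Ω → E d) (ψ : Ω → ℝ) (ω : Ω) : Set (E d) :=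
  {x | ∀ η, inner ℝ x (P η) - ψ η ≤ inner ℝ x (P ω) - ψ ω}

theorem le_phi (P : Ω → E d) (ψ : Ω → ℝ) (x : E d) (ω : Ω) :
    inner ℝ x (P ω) - ψ ω ≤ phi P ψ x :=
  Finset.le_sup' (fun ω => inner ℝ x (P ω) - ψ ω) (Finset.mem_univ ω)

theorem phi_le {P : Ω → E d} {ψ : Ω → ℝ} {x : E d} {c : ℝ}
    (h : ∀ ω, inner ℝ x (P ω) - ψ ω ≤ c) : phi P ψ x ≤ c :=
  Finset.sup'_le _ _ (fun ω _ => h ω)

theorem phi_eq_of_mem {P : Ω → E d} {ψ : Ω → ℝ} {x : E d} {ω : Ω} (h : x ∈ cell P ψ ω) :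
    phi P ψ x = inner ℝ x (P ω) - ψ ω :=
  le_antisymm (phi_le h) (le_phi P ψ x ω)

theorem exists_mem_cell (P : Ω → E d) (ψ : Ω → ℝ) (x : E d) : ∃ ω, x ∈ cell P ψ ω := by
  obtain ⟨ω, hω⟩ := Finite.exists_max (fun ω => inner ℝ x (P ω) - ψ ω)
  exact ⟨ω, hω⟩

theorem isClosed_cell (P : Ω → E d) (ψ : Ω → ℝ) (ω : Ω) : IsClosed (cell P ψ ω) := by
  have : cell P ψ ω = ⋂ η, {x | inner ℝ x (P η) - ψ η ≤ inner ℝ x (P ω) - ψ ω} := by
    ext x; simp [cell]
  rw [this]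
  exact isClosed_iInter fun η => isClosed_le (by fun_prop) (by fun_prop)

theorem measurableSet_cell (P : Ω → E d) (ψ : Ω → ℝ) (ω : Ω) : MeasurableSet (cell P ψ ω) :=
  (isClosed_cell P ψ ω).measurableSet

theorem phi_lip {P : Ω → E d} {R : ℝ} (hP : ∀ ω, ‖P ω‖ ≤ R) (ψ : Ω → ℝ) (x y : E d) :
    |phi P ψ x - phi P ψ y| ≤ R * ‖x - y‖ := by
  have key : ∀ x y : E d, phi P ψ x - phi P ψ y ≤ R * ‖x - y‖ := by
    intro x y
    obtain ⟨ω, hω⟩ := exists_mem_cell P ψ x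
    rw [phi_eq_of_mem hω]
    have h1 := le_phi P ψ y ω
    have h2 : inner ℝ x (P ω) - inner ℝ y (P ω) ≤ ‖x - y‖ * ‖P ω‖ := by
      rw [← inner_sub_left]; exact real_inner_le_norm _ _
    have h3 : ‖x - y‖ * ‖P ω‖ ≤ ‖x - y‖ * R := by gcongr; exact hP ω
    linarith
  rw [abs_le]
  refine ⟨?_, key x y⟩
  have := key y x
  rw [norm_sub_rev] at this
  linarith

theorem continuous_phi (P : Ω → E d) (ψ : Ω → ℝ) : Continuous (phi P ψ) := by
  obtain ⟨ω₀, hω₀⟩ := Finite.exists_max (fun ω => ‖P ω‖)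
  have : LipschitzWith ⟨‖P ω₀‖, norm_nonneg _⟩ (phi P ψ) := by
    apply LipschitzWith.of_dist_le_mul
    intro x y
    rw [Real.dist_eq, dist_eq_norm]
    exact phi_lip hω₀ ψ x y
  exact this.continuous

theorem phi_lip' (P : Ω → E d) (ψ ψ' : Ω → ℝ) (x : E d) :
    |phi P ψ x - phi P ψ' x| ≤ ‖ψ - ψ'‖ := by
  have key : ∀ ψ ψ' : Ω → ℝ, phi P ψ x - phi P ψ' x ≤ ‖ψ - ψ'‖ := by
    intro ψ ψ'
    obtain ⟨ω, hω⟩ := exists_mem_cell P ψ x
    rw [phi_eq_of_mem hω]
    have h1 := le_phi P ψ' x ω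
    have h2 := norm_le_pi_norm (ψ - ψ') ω
    rw [Pi.sub_apply, Real.norm_eq_abs] at h2
    have h3 := (abs_le.1 h2).1
    linarith
  rw [abs_le]
  refine ⟨?_, key ψ ψ'⟩
  have := key ψ' ψ
  rw [norm_sub_rev] at this
  linarith

theorem cell_inter_null {P : Ω → E d} (hP : Function.Injective P) (ψ : Ω → ℝ) {ω η : Ω}
    (h : ω ≠ η) : volume (cell P ψ ω ∩ cell P ψ η) = 0 := by
  refine measure_mono_null ?_ (hyper_null (P ω - P η) (sub_ne_zero.2 (hP.ne h)) (ψ ω - ψ η))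
  rintro x ⟨h1, h2⟩
  have h1' := h1 η
  have h2' := h2 ω
  simp only [mem_ofPred_eq]
  rw [inner_sub_left, real_inner_comm x (P ω), real_inner_comm x (P η)]
  linarith

end

/-- measurable selection of an index from a finite measurable cover -/
theorem exists_select {α : Type*} [MeasurableSpace α] (S : Ω → Set α)
    (hS : ∀ ω, MeasurableSet (S ω)) (h : ∀ x, ∃ ω, x ∈ S ω) :
    ∃ q : α → Ω, (∀ ω, MeasurableSet (q ⁻¹' {ω})) ∧ ∀ x, x ∈ S (q x) := by
  classical
  let e := Fintype.equivFin Ω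
  have hne : ∀ x, (Finset.univ.filter (fun i => x ∈ S (e.symm i))).Nonempty := by
    intro x
    obtain ⟨ω, hω⟩ := h x
    exact ⟨e ω, by simp [hω]⟩
  let q : α → Ω := fun x => e.symm ((Finset.univ.filter (fun i => x ∈ S (e.symm i))).min' (hne x))
  have hq : ∀ x, x ∈ S (q x) := by
    intro x
    have := Finset.min'_mem _ (hne x)
    rw [Finset.mem_filter] at this
    exact this.2
  refine ⟨q, ?_, hq⟩
  intro ω
  have : q ⁻¹' {ω} = S ω ∩ ⋂ i ∈ {i | i < e ω}, (S (e.symm i))ᶜ := by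
    ext x
    simp only [mem_preimage, mem_singleton_iff, mem_inter_iff, mem_iInter, mem_ofPred_eq,
      mem_compl_iff]
    constructor
    · intro hx
      refine ⟨hx ▸ hq x, ?_⟩
      intro i hi hxi
      have h1 := Finset.min'_le (Finset.univ.filter (fun i => x ∈ S (e.symm i))) i
        (by simp [hxi])
      have h2 : e ω = (Finset.univ.filter (fun i => x ∈ S (e.symm i))).min' (hne x) := by
        rw [← hx]; simp [q]
      rw [← h2] at h1
      exact absurd hi (not_lt.2 h1)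
    · rintro ⟨h1, h2⟩
      have h3 : (Finset.univ.filter (fun i => x ∈ S (e.symm i))).min' (hne x) = e ω := by
        apply le_antisymm
        · exact Finset.min'_le _ _ (by simp [h1])
        · apply Finset.le_min'
          intro i hi
          rw [Finset.mem_filter] at hi
          by_contra hc
          exact h2 i (not_le.1 hc) hi.2
      simp only [q]
      rw [h3]; simp
  rw [this]
  exact (hS ω).inter (MeasurableSet.biInter (Set.to_countable _) fun i _ => (hS _).compl)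

end Vale.Agent.P074
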