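import Mathlib
import Vale.Agent.P074.Defs
import Vale.Agent.P074.Cells

open MeasureTheory Set
open scoped ENNReal NNReal

namespace Vale.Agent.P074

variable {d : ℕ} {Ω : Type} [Fintype Ω] [Nonempty Ω]

/-- the (dual) Kantorovich functional -/
noncomputable def Jf (σ : Measure (E d)) (P : Ω → E d) (m : Ω → ℝ) (ψ : Ω → ℝ) : ℝ :=
  ∫ x, phi P ψ x ∂σ + ∑ ω, m ω * ψ ω

variable {σ : Measure (E d)} {a : ℝ}

theorem ae_ball (hσ : σ (Metric.closedBall 0 a)ᶜ = 0) : ∀ᵐ x ∂σ, ‖x‖ ≤ a := by
  have : ∀ᵐ x ∂σ, x ∈ Metric.closedBall (0 : E d) a := by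
    rw [ae_iff]; exact hσ
  filter_upwards [this] with x hx
  simpa using hx

variable [IsProbabilityMeasure σ]

theorem integrable_cont' (hσ : σ (Metric.closedBall 0 a)ᶜ = 0)
    {F : Type*} [NormedAddCommGroup F] [SecondCountableTopologyEither (E d) F]
    {f : E d → F} (hf : Continuous f) :
    Integrable f σ := by
  obtain ⟨C, hC⟩ := (isCompact_closedBall (0 : E d) a).exists_bound_of_continuousOn hf.continuousOn
  refine Integrable.of_bound hf.aestronglyMeasurable C ?_
  filter_upwards [ae_ball hσ] with x hx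
  exact hC x (by simpa using hx)

theorem integrable_phi (hσ : σ (Metric.closedBall 0 a)ᶜ = 0) (P : Ω → E d) (ψ : Ω → ℝ) :
    Integrable (phi P ψ) σ := integrable_cont' hσ (continuous_phi P ψ)

theorem continuous_Jf (hσ : σ (Metric.closedBall 0 a)ᶜ = 0) (P : Ω → E d) (m : Ω → ℝ) :
    Continuous (Jf σ P m) := by
  have h1 : Continuous (fun ψ : Ω → ℝ => ∫ x, phi P ψ x ∂σ) := by
    have : LipschitzWith 1 (fun ψ : Ω → ℝ => ∫ x, phi P ψ x ∂σ) := by
      apply LipschitzWith.of_dist_le_mul
      intro ψ ψ'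
      rw [Real.dist_eq, dist_eq_norm, NNReal.coe_one, one_mul,
        ← integral_sub (integrable_phi hσ P ψ) (integrable_phi hσ P ψ')]
      have h := norm_integral_le_of_norm_le_const (μ := σ) (C := ‖ψ - ψ'‖)
        (f := fun x => phi P ψ x - phi P ψ' x)
        (Filter.Eventually.of_forall fun x => by
          rw [Real.norm_eq_abs]; exact phi_lip' P ψ ψ' x)
      simpa using h
    exact this.continuous
  have h2 : Continuous (fun ψ : Ω → ℝ => ∑ ω, m ω * ψ ω) := by fun_prop
  exact h1.add h2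

theorem phi_shift (P : Ω → E d) (ψ : Ω → ℝ) (c : ℝ) (x : E d) :
    phi P (fun ω => ψ ω - c) x = phi P ψ x + c := by
  apply le_antisymm
  · refine phi_le fun ω => ?_
    have := le_phi P ψ x ω
    linarith
  · obtain ⟨ω, hω⟩ := exists_mem_cell P ψ x
    rw [phi_eq_of_mem hω]
    have := le_phi P (fun ω => ψ ω - c) x ω
    linarith

theorem Jf_shift (hσ : σ (Metric.closedBall 0 a)ᶜ = 0) (P : Ω → E d) {m : Ω → ℝ}
    (hm1 : ∑ ω, m ω = 1) (ψ : Ω → ℝ) (c : ℝ) :
    Jf σ P m (fun ω => ψ ω - c) = Jf σ P m ψ := by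
  rw [Jf, Jf]
  simp only [phi_shift]
  rw [integral_add (integrable_phi hσ P ψ) (integrable_const c)]
  simp only [mul_sub, Finset.sum_sub_distrib, ← Finset.sum_mul, hm1, integral_const,
    probReal_univ, one_smul]
  ring

theorem exists_min_Jf (hσ : σ (Metric.closedBall 0 a)ᶜ = 0) (ha : 0 ≤ a) (P : Ω → E d)
    {m : Ω → ℝ} (hm : ∀ ω, 0 < m ω) (hm1 : ∑ ω, m ω = 1) :
    ∃ ψ, ∀ ψ', Jf σ P m ψ ≤ Jf σ P m ψ' := by
  obtain ⟨ω₀, hR⟩ := Finite.exists_max (fun ω => ‖P ω‖)
  set R := ‖P ω₀‖ with hRdef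
  have hR0 : 0 ≤ R := norm_nonneg _
  set t : ℝ := ∑ ω, 2 * a * R / m ω with ht
  have htω : ∀ ω, 2 * a * R ≤ m ω * t := by
    intro ω
    have h1 : 2 * a * R / m ω ≤ t :=
      Finset.single_le_sum (f := fun ω => 2 * a * R / m ω)
        (fun η _ => by have := hm η; positivity) (Finset.mem_univ ω)
    rw [div_le_iff₀ (hm ω)] at h1
    linarith
  have ht0 : 0 ≤ t := Finset.sum_nonneg fun ω _ => by have := hm ω; positivity
  have hcomp : IsCompact (Icc (0 : Ω → ℝ) (fun _ => t)) := isCompact_Icc
  obtain ⟨ψ, hψ, hmin⟩ := hcomp.exists_isMinOn ⟨0, by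
    rw [mem_Icc]; exact ⟨le_rfl, fun _ => ht0⟩⟩ (continuous_Jf hσ P m).continuousOn
  refine ⟨ψ, fun ψ' => ?_⟩
  have hip : ∀ᵐ x ∂σ, ∀ ω, |inner ℝ x (P ω)| ≤ a * R := by
    filter_upwards [ae_ball hσ] with x hx ω
    exact (abs_real_inner_le_norm _ _).trans (by gcongr; exact hR ω)
  have hJ0 : Jf σ P m ψ ≤ a * R := by
    refine (hmin (a := 0) (by rw [mem_Icc]; exact ⟨le_rfl, fun _ => ht0⟩)).trans ?_
    rw [Jf]
    simp only [Pi.zero_apply, mul_zero, Finset.sum_const_zero, add_zero]
    have : ∫ x, phi P 0 x ∂σ ≤ ∫ _x, a * R ∂σ := by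
      apply integral_mono_ae (integrable_phi hσ P 0) (integrable_const _)
      filter_upwards [hip] with x hx
      refine phi_le fun ω => ?_
      have h3 := (abs_le.1 (hx ω)).2
      simpa using h3
    simpa using this
  obtain ⟨ω₁, hω₁⟩ := Finite.exists_min ψ'
  rw [← Jf_shift hσ P hm1 ψ' (ψ' ω₁)]
  set ψ'' : Ω → ℝ := fun ω => ψ' ω - ψ' ω₁ with hψ''
  have h0 : ∀ ω, 0 ≤ ψ'' ω := fun ω => sub_nonneg.2 (hω₁ ω)
  have h1 : ψ'' ω₁ = 0 := sub_self _
  by_cases hc : ∀ ω, ψ'' ω ≤ t
  · exact hmin (a := ψ'') (by rw [mem_Icc]; exact ⟨h0, hc⟩)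
  · push Not at hc
    obtain ⟨ω₂, hω₂⟩ := hc
    refine hJ0.trans ?_
    rw [Jf]
    have e1 : -(a * R) ≤ ∫ x, phi P ψ'' x ∂σ := by
      have : ∫ x, (-(a * R)) ∂σ ≤ ∫ x, phi P ψ'' x ∂σ := by
        apply integral_mono_ae (integrable_const _) (integrable_phi hσ P ψ'')
        filter_upwards [hip] with x hx
        have h2 := le_phi P ψ'' x ω₁
        rw [h1] at h2
        have h3 := (abs_le.1 (hx ω₁)).1
        linarith
      simpa using this
    have e2 : m ω₂ * t ≤ ∑ ω, m ω * ψ'' ω := by
      refine le_trans ?_ (Finset.single_le_sum (f := fun ω => m ω * ψ'' ω)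
        (fun η _ => mul_nonneg (hm η).le (h0 η)) (Finset.mem_univ ω₂))
      exact mul_le_mul_of_nonneg_left hω₂.le (hm ω₂).le
    have e3 := htω ω₂
    linarith


/-- finite Brenier theorem: cells with prescribed masses -/
theorem finite_brenier (hσ : σ (Metric.closedBall 0 a)ᶜ = 0) (ha : 0 ≤ a) (hac : σ ≪ volume)
    {P : Ω → E d} (hP : Function.Injective P)
    {m : Ω → ℝ} (hm : ∀ ω, 0 < m ω) (hm1 : ∑ ω, m ω = 1) :
    ∃ ψ, ∀ ω, σ.real (cell P ψ ω) = m ω := by
  classical
  obtain ⟨ψ, hψ⟩ := exists_min_Jf hσ ha P hm hm1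
  refine ⟨ψ, ?_⟩
  have hle : ∀ ω, σ.real (cell P ψ ω) ≤ m ω := by
    intro ω
    -- shifted cells
    let C : ℝ → Set (E d) := fun t =>
      {x | ∀ η, η ≠ ω → inner ℝ x (P η) - ψ η ≤ inner ℝ x (P ω) - ψ ω - t}
    have hCm : ∀ t, MeasurableSet (C t) := by
      intro t
      have : C t = ⋂ η, {x | η ≠ ω → inner ℝ x (P η) - ψ η ≤ inner ℝ x (P ω) - ψ ω - t} := by
        ext x; simp [C]
      rw [this]
      refine MeasurableSet.iInter fun η => ?_
      by_cases h : η = ω
      · simp [h]
      · simp only [ne_eq, h, not_false_eq_true, forall_const]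
        exact (isClosed_le (by fun_prop) (by fun_prop)).measurableSet
    have h1 : ∀ t, 0 < t → σ.real (C t) ≤ m ω := by
      intro t ht
      have hJ := hψ (Function.update ψ ω (ψ ω + t))
      rw [Jf, Jf] at hJ
      have e1 : ∑ η, m η * Function.update ψ ω (ψ ω + t) η = ∑ η, m η * ψ η + m ω * t := by
        have : ∀ η, m η * Function.update ψ ω (ψ ω + t) η =
            m η * ψ η + (if η = ω then m ω * t else 0) := by
          intro η
          by_cases h : η = ω
          · subst h; simp; ring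
          · simp [h]
        simp only [this, Finset.sum_add_distrib, Finset.sum_ite_eq', Finset.mem_univ, if_true]
      rw [e1] at hJ
      have e2 : ∫ x, phi P (Function.update ψ ω (ψ ω + t)) x ∂σ ≤
          ∫ x, (phi P ψ x - (C t).indicator (fun _ => t) x) ∂σ := by
        apply integral_mono (integrable_phi hσ _ _)
        · exact (integrable_phi hσ _ _).sub ((integrable_const t).indicator (hCm t))
        · intro x
          simp only
          by_cases hx : x ∈ C t
          · rw [indicator_of_mem hx]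
            refine phi_le fun η => ?_
            by_cases h : η = ω
            · subst h
              have := le_phi P ψ x η
              simp only [Function.update_self]
              linarith
            · have h1 := hx η h
              have h2 := le_phi P ψ x ω
              simp only [Function.update_of_ne h]
              linarith
          · rw [indicator_of_notMem hx, sub_zero]
            refine phi_le fun η => ?_
            by_cases h : η = ω
            · subst h
              have := le_phi P ψ x η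
              simp only [Function.update_self]
              linarith
            · have h2 := le_phi P ψ x η
              simp only [Function.update_of_ne h]
              linarith
      rw [integral_sub (integrable_phi hσ _ _) ((integrable_const t).indicator (hCm t)),
        integral_indicator (hCm t), setIntegral_const, smul_eq_mul] at e2
      have e3 : σ.real (C t) * t ≤ m ω * t := by linarith
      exact le_of_mul_le_mul_right e3 ht
    have hmono : Monotone (fun n : ℕ => C (1 / ((n : ℝ) + 1))) := by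
      intro n k hnk x hx η hη
      have h1 := hx η hη
      have h2 : 1 / ((k : ℝ) + 1) ≤ 1 / ((n : ℝ) + 1) := by
        gcongr
      linarith
    have h2 : σ.real (⋃ n : ℕ, C (1 / ((n : ℝ) + 1))) ≤ m ω := by
      rw [measureReal_def]
      refine ENNReal.toReal_le_of_le_ofReal (hm ω).le ?_
      rw [hmono.measure_iUnion]
      refine iSup_le fun n => ?_
      have := h1 (1 / ((n : ℝ) + 1)) (by positivity)
      rw [← ofReal_measureReal]
      exact ENNReal.ofReal_le_ofReal this
    refine le_trans ?_ h2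
    rw [measureReal_def, measureReal_def]
    refine ENNReal.toReal_mono (measure_ne_top _ _) (measure_mono_ae ?_)
    have hnull : ∀ᵐ x ∂σ, ∀ η, η ≠ ω → x ∉ cell P ψ ω ∩ cell P ψ η := by
      rw [ae_all_iff]
      intro η
      by_cases h : η = ω
      · simp [h]
      · have := hac (cell_inter_null hP ψ (Ne.symm h))
        have h3 : ∀ᵐ x ∂σ, x ∉ cell P ψ ω ∩ cell P ψ η := measure_eq_zero_iff_ae_notMem.1 this
        filter_upwards [h3] with x hx _
        exact hx
    filter_upwards [hnull] with x hx hxc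
    have hstrict : ∀ η, η ≠ ω → inner ℝ x (P η) - ψ η < inner ℝ x (P ω) - ψ ω := by
      intro η hη
      refine lt_of_le_of_ne (hxc η) fun heq => hx η hη ⟨hxc, ?_⟩
      intro ζ
      rw [heq]
      exact hxc ζ
    -- choose n
    obtain ⟨n, hn⟩ : ∃ n : ℕ, ∀ η, η ≠ ω →
        1 / ((n : ℝ) + 1) ≤ (inner ℝ x (P ω) - ψ ω) - (inner ℝ x (P η) - ψ η) := by
      let g : Ω → ℝ := fun η => if η = ω then 1 else
        (inner ℝ x (P ω) - ψ ω) - (inner ℝ x (P η) - ψ η)
      obtain ⟨η₀, hη₀⟩ := Finite.exists_min g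
      have hg0 : 0 < g η₀ := by
        by_cases h : η₀ = ω
        · simp [g, h]
        · simp only [g, h, if_false]
          have := hstrict η₀ h
          linarith
      obtain ⟨n, hn⟩ := exists_nat_one_div_lt hg0
      refine ⟨n, fun η hη => ?_⟩
      have := hη₀ η
      simp only [g, hη, if_false] at this hn hη₀
      exact hn.le.trans this
    change x ∈ ⋃ n : ℕ, C (1 / ((n : ℝ) + 1))
    rw [mem_iUnion]
    refine ⟨n, fun η hη => ?_⟩
    have := hn η hη
    linarith
  have hsum : (1 : ℝ) ≤ ∑ ω, σ.real (cell P ψ ω) := by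
    have h1 : (univ : Set (E d)) ⊆ ⋃ ω ∈ (Finset.univ : Finset Ω), cell P ψ ω := by
      intro x _
      obtain ⟨ω, hω⟩ := exists_mem_cell P ψ x
      simp only [Finset.mem_univ, iUnion_true, mem_iUnion]
      exact ⟨ω, hω⟩
    have h2 := measureReal_mono (μ := σ) h1 (measure_ne_top _ _)
    have h3 := measureReal_biUnion_finset_le (μ := σ) (Finset.univ : Finset Ω) (cell P ψ)
    rw [probReal_univ] at h2
    exact h2.trans h3
  have heq : ∑ ω, σ.real (cell P ψ ω) = ∑ ω, m ω := by
    apply le_antisymm (Finset.sum_le_sum fun ω _ => hle ω)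
    rw [hm1]; exact hsum
  intro ω
  exact (Finset.sum_eq_sum_iff_of_le (fun ω _ => hle ω)).1 heq ω (Finset.mem_univ ω)

end Vale.Agent.P074
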