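import Mathlib

open MeasureTheory Set
open scoped ENNReal NNReal

namespace Vale.Agent.P074

/-- one-dimensional Brunn-Minkowski inequality (midpoints), compact case -/
theorem bm1_compact {A B C : Set ℝ} (hA : IsCompact A) (hB : IsCompact B)
    (hAne : A.Nonempty) (hBne : B.Nonempty)
    (h : ∀ a ∈ A, ∀ b ∈ B, (a + b) / 2 ∈ C) : volume A + volume B ≤ 2 * volume C := by
  obtain ⟨a1, ha1, ha1'⟩ := hA.exists_isGreatest hAne
  obtain ⟨b0, hb0, hb0'⟩ := hB.exists_isLeast hBne
  set A' : Set ℝ := (fun x => x + (-b0)) ⁻¹' A with hA'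
  set B' : Set ℝ := (fun x => x + (-a1)) ⁻¹' B with hB'
  have hmA : volume A' = volume A := measure_preimage_add_right _ _ _
  have hmB : volume B' = volume B := measure_preimage_add_right _ _ _
  have hB'm : MeasurableSet B' := hB.isClosed.measurableSet.preimage (by fun_prop)
  have hC : volume ((fun x => (1 / 2 : ℝ) * x) ⁻¹' C) = 2 * volume C := by
    rw [Real.volume_preimage_mul_left (by norm_num)]
    norm_num
  have hint : volume (A' ∩ B') = 0 := by
    refine measure_mono_null (t := {a1 + b0}) ?_ (by simp)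
    rintro x ⟨hx1, hx2⟩
    have h1 := ha1' hx1
    have h2 := hb0' hx2
    simp only at h1 h2
    rw [mem_singleton_iff]
    linarith
  rw [← hmA, ← hmB, ← measure_union_add_inter A' hB'm, hint, add_zero, ← hC]
  apply measure_mono
  rintro x (hx | hx)
  · have := h _ hx b0 hb0
    simp only [mem_preimage]
    convert this using 1
    ring
  · have := h a1 ha1 _ hx
    simp only [mem_preimage]
    convert this using 1
    ring

/-- one-dimensional Brunn-Minkowski inequality (midpoints) -/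
theorem bm1 {A B C : Set ℝ} (hA : MeasurableSet A) (hB : MeasurableSet B)
    (hAne : A.Nonempty) (hBne : B.Nonempty)
    (h : ∀ a ∈ A, ∀ b ∈ B, (a + b) / 2 ∈ C) : volume A + volume B ≤ 2 * volume C := by
  obtain ⟨a, ha⟩ := hAne
  obtain ⟨b, hb⟩ := hBne
  have key : ∀ K₁ ⊆ A, IsCompact K₁ → ∀ K₂ ⊆ B, IsCompact K₂ →
      volume K₁ + volume K₂ ≤ 2 * volume C := by
    intro K₁ h1 hc1 K₂ h2 hc2
    have hc1' : IsCompact (insert a K₁) := hc1.insert a
    have hc2' : IsCompact (insert b K₂) := hc2.insert b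
    have := bm1_compact hc1' hc2' ⟨a, mem_insert _ _⟩ ⟨b, mem_insert _ _⟩ (C := C) (by
      intro x hx y hy
      exact h x (insert_subset ha h1 hx) y (insert_subset hb h2 hy))
    exact (add_le_add (measure_mono (subset_insert _ _)) (measure_mono (subset_insert _ _))).trans
      this
  rw [hA.measure_eq_iSup_isCompact, hB.measure_eq_iSup_isCompact]
  simp only [iSup_and']
  exact ENNReal.biSup_add_biSup_le' ⟨∅, empty_subset _, isCompact_empty⟩
    ⟨∅, empty_subset _, isCompact_empty⟩ (fun K₁ h1 K₂ h2 => key K₁ h1.1 h1.2 K₂ h2.1 h2.2)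

/-- normalised one-dimensional Prekopa-Leindler -/
theorem pl1_norm {F G H : ℝ → ℝ} (hF : Measurable F) (hG : Measurable G) (hH : Measurable H)
    (hF0 : ∀ x, 0 ≤ F x) (hG0 : ∀ x, 0 ≤ G x) (hH0 : ∀ x, 0 ≤ H x)
    (hF1 : ∀ x, F x ≤ 1) (hG1 : ∀ x, G x ≤ 1)
    (hFs : ∀ t < 1, ∃ x, t < F x) (hGs : ∀ t < 1, ∃ x, t < G x)
    (h : ∀ t, 0 < t → t < 1 → ∀ x y, t < F x → t < G y → t < H ((x + y) / 2)) :
    (∫⁻ x, ENNReal.ofReal (F x)) + (∫⁻ x, ENNReal.ofReal (G x)) ≤
      2 * ∫⁻ x, ENNReal.ofReal (H x) := by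
  rw [lintegral_eq_lintegral_meas_lt volume (Filter.Eventually.of_forall hF0) hF.aemeasurable,
    lintegral_eq_lintegral_meas_lt volume (Filter.Eventually.of_forall hG0) hG.aemeasurable,
    lintegral_eq_lintegral_meas_lt volume (Filter.Eventually.of_forall hH0) hH.aemeasurable]
  refine (le_lintegral_add _ _).trans ?_
  rw [← lintegral_const_mul' _ _ (by norm_num)]
  refine setLIntegral_mono' measurableSet_Ioi ?_
  intro t ht
  rw [mem_Ioi] at ht
  rcases lt_or_ge t 1 with h1 | h1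
  · refine bm1 (measurableSet_lt measurable_const hF) (measurableSet_lt measurable_const hG)
      (hFs t h1) (hGs t h1) ?_
    intro x hx y hy
    exact h t ht h1 x y hx hy
  · have e1 : {a | t < F a} = ∅ := by
      ext a
      simp only [mem_ofPred_eq, mem_empty_iff_false, iff_false, not_lt]
      exact (hF1 a).trans h1
    have e2 : {a | t < G a} = ∅ := by
      ext a
      simp only [mem_ofPred_eq, mem_empty_iff_false, iff_false, not_lt]
      exact (hG1 a).trans h1
    rw [e1, e2]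
    simp

theorem ennreal_amgm (a b : ℝ≥0∞) : 4 * (a * b) ≤ (a + b) ^ 2 := by
  rcases eq_or_ne a ∞ with ha | ha
  · subst ha; simp
  rcases eq_or_ne b ∞ with hb | hb
  · subst hb; simp
  lift a to ℝ≥0 using ha
  lift b to ℝ≥0 using hb
  norm_cast
  have : (4 * (a * b) : ℝ) ≤ ((a : ℝ) + b) ^ 2 := by nlinarith [sq_nonneg ((a : ℝ) - b)]
  exact_mod_cast this

/-- bounded one-dimensional Prekopa-Leindler -/
theorem pl1_bdd {f g h : ℝ → ℝ≥0∞} (hf : Measurable f) (hg : Measurable g) (hh : Measurable h)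
    (hfb : ⨆ x, f x ≠ ∞) (hgb : ⨆ x, g x ≠ ∞)
    (H : ∀ x y, f x * g y ≤ h ((x + y) / 2) ^ 2) :
    (∫⁻ x, f x) * (∫⁻ x, g x) ≤ (∫⁻ x, h x) ^ 2 := by
  set M := ⨆ x, f x with hM
  set N := ⨆ x, g x with hN
  rcases eq_or_ne M 0 with hM0 | hM0
  · have : ∀ x, f x = 0 := fun x => le_antisymm (hM0 ▸ le_iSup f x) bot_le
    simp [this]
  rcases eq_or_ne N 0 with hN0 | hN0
  · have : ∀ x, g x = 0 := fun x => le_antisymm (hN0 ▸ le_iSup g x) bot_le
    simp [this]
  set s : ℝ≥0∞ := (M * N) ^ (1 / 2 : ℝ) with hs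
  have hMN0 : M * N ≠ 0 := mul_ne_zero hM0 hN0
  have hMNt : M * N ≠ ∞ := ENNReal.mul_ne_top hfb hgb
  have hs2 : s ^ 2 = M * N := by
    rw [hs, ← ENNReal.rpow_natCast, ← ENNReal.rpow_mul]
    norm_num
  have hs0 : s ≠ 0 := by
    intro h0
    rw [h0] at hs2
    exact hMN0 (by rw [← hs2]; simp)
  have hst : s ≠ ∞ := by
    intro h0
    rw [h0] at hs2
    exact hMNt (by rw [← hs2]; simp)
  have hfM : ∀ x, f x / M ≤ 1 := fun x =>
    ENNReal.div_le_of_le_mul (by rw [one_mul]; exact le_iSup f x)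
  have hgN : ∀ x, g x / N ≤ 1 := fun x =>
    ENNReal.div_le_of_le_mul (by rw [one_mul]; exact le_iSup g x)
  have hofF : ∀ x, ENNReal.ofReal (f x / M).toReal = f x / M := fun x =>
    ENNReal.ofReal_toReal (ne_top_of_le_ne_top ENNReal.one_ne_top (hfM x))
  have hofG : ∀ x, ENNReal.ofReal (g x / N).toReal = g x / N := fun x =>
    ENNReal.ofReal_toReal (ne_top_of_le_ne_top ENNReal.one_ne_top (hgN x))
  have hofH : ∀ x, ENNReal.ofReal (min (h x / s) 1).toReal = min (h x / s) 1 := fun x =>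
    ENNReal.ofReal_toReal (ne_top_of_le_ne_top ENNReal.one_ne_top (min_le_right _ _))
  have key := pl1_norm (F := fun x => (f x / M).toReal) (G := fun x => (g x / N).toReal)
    (H := fun x => (min (h x / s) 1).toReal)
    (hf.div_const _).ennreal_toReal (hg.div_const _).ennreal_toReal
    ((hh.div_const _).min measurable_const).ennreal_toReal
    (fun _ => ENNReal.toReal_nonneg) (fun _ => ENNReal.toReal_nonneg)
    (fun _ => ENNReal.toReal_nonneg)
    (fun x => ENNReal.toReal_le_of_le_ofReal zero_le_one (by simpa using hfM x))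
    (fun x => ENNReal.toReal_le_of_le_ofReal zero_le_one (by simpa using hgN x)) ?_ ?_ ?_
  · simp only [hofF, hofG, hofH] at key
    have k1 : (∫⁻ x, f x) / M + (∫⁻ x, g x) / N ≤ 2 * ((∫⁻ x, h x) / s) := by
      refine le_trans (le_of_eq ?_) (key.trans ?_)
      · simp only [div_eq_mul_inv]
        rw [lintegral_mul_const _ hf, lintegral_mul_const _ hg]
      · gcongr
        rw [div_eq_mul_inv, ← lintegral_mul_const _ hh]
        refine lintegral_mono fun x => ?_
        rw [← div_eq_mul_inv]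
        exact min_le_left _ _
    have k2 : 4 * (((∫⁻ x, f x) / M) * ((∫⁻ x, g x) / N)) ≤ 4 * ((∫⁻ x, h x) / s) ^ 2 := by
      refine (ennreal_amgm _ _).trans ?_
      calc _ ≤ (2 * ((∫⁻ x, h x) / s)) ^ 2 := by gcongr
        _ = _ := by rw [mul_pow]; norm_num
    have k3 : ((∫⁻ x, f x) / M) * ((∫⁻ x, g x) / N) ≤ ((∫⁻ x, h x) / s) ^ 2 := by
      rwa [ENNReal.mul_le_mul_iff_right (by norm_num) (by norm_num)] at k2
    calc (∫⁻ x, f x) * (∫⁻ x, g x)
        = (M * N) * (((∫⁻ x, f x) / M) * ((∫⁻ x, g x) / N)) := by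
          rw [mul_mul_mul_comm, ENNReal.mul_div_cancel hM0 hfb, ENNReal.mul_div_cancel hN0 hgb]
      _ ≤ (M * N) * ((∫⁻ x, h x) / s) ^ 2 := by gcongr
      _ = (s * ((∫⁻ x, h x) / s)) ^ 2 := by rw [← hs2, mul_pow]
      _ = _ := by rw [ENNReal.mul_div_cancel hs0 hst]
  · intro t ht
    rcases lt_or_ge t 0 with h0 | h0
    · exact ⟨0, lt_of_lt_of_le h0 ENNReal.toReal_nonneg⟩
    have : ENNReal.ofReal t * M < M := by
      conv_rhs => rw [← one_mul M]
      rw [ENNReal.mul_lt_mul_iff_left hM0 hfb]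
      rw [← ENNReal.ofReal_one]
      exact (ENNReal.ofReal_lt_ofReal_iff zero_lt_one).2 ht
    obtain ⟨x, hx⟩ := lt_iSup_iff.1 (this.trans_eq hM)
    refine ⟨x, ?_⟩
    rw [← ENNReal.ofReal_lt_iff_lt_toReal h0 (ne_top_of_le_ne_top ENNReal.one_ne_top (hfM x))]
    exact (ENNReal.lt_div_iff_mul_lt (Or.inl hM0) (Or.inl hfb)).2 hx
  · intro t ht
    rcases lt_or_ge t 0 with h0 | h0
    · exact ⟨0, lt_of_lt_of_le h0 ENNReal.toReal_nonneg⟩
    have : ENNReal.ofReal t * N < N := by
      conv_rhs => rw [← one_mul N]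
      rw [ENNReal.mul_lt_mul_iff_left hN0 hgb]
      rw [← ENNReal.ofReal_one]
      exact (ENNReal.ofReal_lt_ofReal_iff zero_lt_one).2 ht
    obtain ⟨x, hx⟩ := lt_iSup_iff.1 (this.trans_eq hN)
    refine ⟨x, ?_⟩
    rw [← ENNReal.ofReal_lt_iff_lt_toReal h0 (ne_top_of_le_ne_top ENNReal.one_ne_top (hgN x))]
    exact (ENNReal.lt_div_iff_mul_lt (Or.inl hN0) (Or.inl hgb)).2 hx
  · intro t ht0 ht1 x y hx hy
    rw [← ENNReal.ofReal_lt_iff_lt_toReal ht0.le
      (ne_top_of_le_ne_top ENNReal.one_ne_top (hfM x)),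
      ENNReal.lt_div_iff_mul_lt (Or.inl hM0) (Or.inl hfb)] at hx
    rw [← ENNReal.ofReal_lt_iff_lt_toReal ht0.le
      (ne_top_of_le_ne_top ENNReal.one_ne_top (hgN y)),
      ENNReal.lt_div_iff_mul_lt (Or.inl hN0) (Or.inl hgb)] at hy
    rw [← ENNReal.ofReal_lt_iff_lt_toReal ht0.le
      (ne_top_of_le_ne_top ENNReal.one_ne_top (min_le_right _ _)), lt_min_iff]
    refine ⟨?_, ?_⟩
    · rw [ENNReal.lt_div_iff_mul_lt (Or.inl hs0) (Or.inl hst)]
      by_contra hc
      push Not at hc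
      refine absurd (pow_le_pow_left' hc 2) (not_le.2 ?_)
      calc (ENNReal.ofReal t * s) ^ 2 = (ENNReal.ofReal t * M) * (ENNReal.ofReal t * N) := by
            rw [mul_pow, hs2]; ring
        _ < f x * g y := ENNReal.mul_lt_mul hx hy
        _ ≤ _ := H x y
    · rw [← ENNReal.ofReal_one]
      exact (ENNReal.ofReal_lt_ofReal_iff zero_lt_one).2 ht1

/-- one-dimensional Prekopa-Leindler -/
theorem pl1 {f g h : ℝ → ℝ≥0∞} (hf : Measurable f) (hg : Measurable g) (hh : Measurable h)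
    (H : ∀ x y, f x * g y ≤ h ((x + y) / 2) ^ 2) :
    (∫⁻ x, f x) * (∫⁻ x, g x) ≤ (∫⁻ x, h x) ^ 2 := by
  have trunc : ∀ f : ℝ → ℝ≥0∞, Measurable f →
      ∫⁻ x, f x = ⨆ k : ℕ, ∫⁻ x, min (f x) k := by
    intro f hf
    rw [← lintegral_iSup]
    · refine lintegral_congr fun x => ?_
      apply le_antisymm
      · rcases eq_or_ne (f x) ∞ with h0 | h0
        · rw [h0]
          simp only [le_top, inf_of_le_right]
          rw [ENNReal.iSup_natCast]
        · obtain ⟨n, hn⟩ := ENNReal.exists_nat_gt h0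
          refine le_iSup_of_le n ?_
          rw [min_eq_left hn.le]
      · exact iSup_le fun k => min_le_left _ _
    · intro k; exact hf.min measurable_const
    · intro k l hkl x
      simp only
      gcongr
  rw [trunc f hf, trunc g hg, ENNReal.iSup_mul]
  refine iSup_le fun k => ?_
  rw [ENNReal.mul_iSup]
  refine iSup_le fun l => ?_
  refine pl1_bdd (hf.min measurable_const) (hg.min measurable_const) hh ?_ ?_ ?_
  · exact ne_top_of_le_ne_top (ENNReal.natCast_ne_top k) (iSup_le fun x => min_le_right _ _)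
  · exact ne_top_of_le_ne_top (ENNReal.natCast_ne_top l) (iSup_le fun x => min_le_right _ _)
  · intro x y
    refine le_trans ?_ (H x y)
    gcongr
    · exact min_le_left _ _
    · exact min_le_left _ _

end Vale.Agent.P074
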