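import Mathlib
import Vale.Agent.P074.Defs
import Vale.Agent.P074.PL1

open MeasureTheory Set
open scoped ENNReal NNReal

namespace Vale.Agent.P074

/-- Prekopa-Leindler in `ℝ^n` -/
theorem pl_pi (n : ℕ) : ∀ {f g h : (Fin n → ℝ) → ℝ≥0∞}, Measurable f → Measurable g →
    Measurable h → (∀ x y, f x * g y ≤ h ((1 / 2 : ℝ) • (x + y)) ^ 2) →
    (∫⁻ x, f x) * (∫⁻ x, g x) ≤ (∫⁻ x, h x) ^ 2 := by
  induction n with
  | zero =>
    intro f g h hf hg hh H
    simp only [lintegral_unique, Measure.volume_pi_eq_dirac (ι := Fin 0) (x := default)]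
    simp only [measure_univ, mul_one]
    have := H (@default _ Unique.instInhabited) (@default _ Unique.instInhabited)
    rwa [Subsingleton.elim ((1 / 2 : ℝ) • (@default (Fin 0 → ℝ) Unique.instInhabited +
      @default _ Unique.instInhabited)) (@default _ Unique.instInhabited)] at this
  | succ n ih =>
    intro f g h hf hg hh H
    have mp := (volume_preserving_piFinSuccAbove (fun _ : Fin (n + 1) => ℝ) 0).symm
    have e : ⇑(MeasurableEquiv.piFinSuccAbove (fun _ : Fin (n + 1) => ℝ) 0).symm =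
        fun p => (Fin.cons p.1 p.2 : Fin (n + 1) → ℝ) := by
      ext p i
      simp [MeasurableEquiv.piFinSuccAbove_symm_apply, Fin.insertNthEquiv]
    rw [e] at mp
    have conv : ∀ f : (Fin (n + 1) → ℝ) → ℝ≥0∞, Measurable f →
        ∫⁻ x, f x = ∫⁻ s : ℝ, ∫⁻ x : Fin n → ℝ, f (Fin.cons s x) := by
      intro f hf
      rw [← mp.lintegral_comp hf, Measure.volume_eq_prod, lintegral_prod]
      exact (hf.comp mp.measurable).aemeasurable
    have hcons : Measurable (fun p : ℝ × (Fin n → ℝ) => (Fin.cons p.1 p.2 : Fin (n + 1) → ℝ)) :=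
      mp.measurable
    rw [conv f hf, conv g hg, conv h hh]
    apply pl1
    · exact Measurable.lintegral_prod_right' (f := fun p : ℝ × (Fin n → ℝ) =>
        f (Fin.cons p.1 p.2)) (hf.comp hcons)
    · exact Measurable.lintegral_prod_right' (f := fun p : ℝ × (Fin n → ℝ) =>
        g (Fin.cons p.1 p.2)) (hg.comp hcons)
    · exact Measurable.lintegral_prod_right' (f := fun p : ℝ × (Fin n → ℝ) =>
        h (Fin.cons p.1 p.2)) (hh.comp hcons)
    · intro s t
      have hs : ∀ s : ℝ, Measurable (fun x : Fin n → ℝ => (Fin.cons s x : Fin (n + 1) → ℝ)) :=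
        fun s => hcons.comp (measurable_const.prodMk measurable_id)
      apply ih (hf.comp (hs s)) (hg.comp (hs t)) (hh.comp (hs _))
      intro x y
      refine (H _ _).trans (le_of_eq ?_)
      congr 2
      ext i
      refine Fin.cases ?_ (fun j => ?_) i
      · simp; ring
      · simp; ring

/-- Prekopa-Leindler in Euclidean space -/
theorem pl_E {d : ℕ} {f g h : E d → ℝ≥0∞} (hf : Measurable f) (hg : Measurable g)
    (hh : Measurable h) (H : ∀ x y, f x * g y ≤ h ((1 / 2 : ℝ) • (x + y)) ^ 2) :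
    (∫⁻ x, f x) * (∫⁻ x, g x) ≤ (∫⁻ x, h x) ^ 2 := by
  have mp := PiLp.volume_preserving_toLp (Fin d)
  rw [← mp.lintegral_comp hf, ← mp.lintegral_comp hg, ← mp.lintegral_comp hh]
  refine pl_pi d (hf.comp mp.measurable) (hg.comp mp.measurable) (hh.comp mp.measurable) ?_
  intro x y
  exact H _ _

/-- Prekopa-Leindler for integrals over sets, with an arithmetic-mean hypothesis -/
theorem pl_set {d : ℕ} {A B M : Set (E d)} (hA : MeasurableSet A) (hB : MeasurableSet B)
    (hM : MeasurableSet M) (hsub : ∀ x ∈ A, ∀ y ∈ B, (1 / 2 : ℝ) • (x + y) ∈ M)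
    {f g h : E d → ℝ} (hf : Measurable f) (hg : Measurable g) (hh : Measurable h)
    (hfA : IntegrableOn f A) (hgB : IntegrableOn g B) (hhM : IntegrableOn h M)
    (hf0 : ∀ x ∈ A, 0 ≤ f x) (hg0 : ∀ x ∈ B, 0 ≤ g x) (hh0 : ∀ x ∈ M, 0 ≤ h x)
    (H : ∀ x ∈ A, ∀ y ∈ B, f x + g y ≤ 2 * h ((1 / 2 : ℝ) • (x + y))) :
    (∫ x in A, f x) * (∫ x in B, g x) ≤ (∫ x in M, h x) ^ 2 := by
  have hofr : ∀ {A : Set (E d)} {f : E d → ℝ}, MeasurableSet A → (∀ x ∈ A, 0 ≤ f x) →
      IntegrableOn f A →
      ∫⁻ x, A.indicator (fun x => ENNReal.ofReal (f x)) x = ENNReal.ofReal (∫ x in A, f x) := by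
    intro A f hA h0 hi
    rw [lintegral_indicator hA, ofReal_integral_eq_lintegral_ofReal hi]
    exact ae_restrict_of_forall_mem hA h0
  have key := pl_E (f := A.indicator (fun x => ENNReal.ofReal (f x)))
    (g := B.indicator (fun x => ENNReal.ofReal (g x)))
    (h := M.indicator (fun x => ENNReal.ofReal (h x)))
    (hf.ennreal_ofReal.indicator hA) (hg.ennreal_ofReal.indicator hB)
    (hh.ennreal_ofReal.indicator hM) ?_
  · rw [hofr hA hf0 hfA, hofr hB hg0 hgB, hofr hM hh0 hhM] at key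
    have p1 : 0 ≤ ∫ x in A, f x := setIntegral_nonneg hA hf0
    have p2 : 0 ≤ ∫ x in B, g x := setIntegral_nonneg hB hg0
    have p3 : 0 ≤ ∫ x in M, h x := setIntegral_nonneg hM hh0
    rw [← ENNReal.ofReal_mul p1, ← ENNReal.ofReal_pow p3] at key
    exact (ENNReal.ofReal_le_ofReal_iff (by positivity)).1 key
  · intro x y
    by_cases hx : x ∈ A
    · by_cases hy : y ∈ B
      · rw [indicator_of_mem hx, indicator_of_mem hy, indicator_of_mem (hsub x hx y hy),
          ← ENNReal.ofReal_mul (hf0 x hx), ← ENNReal.ofReal_pow (hh0 _ (hsub x hx y hy))]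
        apply ENNReal.ofReal_le_ofReal
        have h1 := hf0 x hx
        have h2 := hg0 y hy
        have h3 := H x hx y hy
        nlinarith [sq_nonneg (f x - g y)]
      · rw [indicator_of_notMem hy, mul_zero]; exact bot_le
    · rw [indicator_of_notMem hx, zero_mul]; exact bot_le

end Vale.Agent.P074
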