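import Mathlib
import Vale.Agent.P074.Defs
import Vale.Agent.P074.PLn

open MeasureTheory Set
open scoped ENNReal NNReal

namespace Vale.Agent.P074

variable {d : ℕ}

theorem gain_L {a n D κ : ℝ} (hκ : κ * (1 + 4 * a ^ 2) = 1) :
    (κ * (n + 2 * a * |D|)) ^ 2 ≤ κ * (n ^ 2 + D ^ 2) := by
  have e1 : (n + 2 * a * |D|) ^ 2 ≤ (1 + 4 * a ^ 2) * (n ^ 2 + D ^ 2) := by
    rw [← sq_abs D]
    nlinarith [sq_nonneg (2 * a * n - |D|)]
  calc (κ * (n + 2 * a * |D|)) ^ 2 = κ ^ 2 * (n + 2 * a * |D|) ^ 2 := by ring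
    _ ≤ κ ^ 2 * ((1 + 4 * a ^ 2) * (n ^ 2 + D ^ 2)) := by gcongr
    _ = κ * (κ * (1 + 4 * a ^ 2)) * (n ^ 2 + D ^ 2) := by ring
    _ = κ * (n ^ 2 + D ^ 2) := by rw [hκ]; ring

theorem gain_diff {a n e κ L x y D : ℝ} (hn0 : 0 ≤ n) (he0 : 0 ≤ e)
    (hκ0 : 0 < κ) (hκ1 : 4 * (κ * a ^ 2) ≤ 1) (hκa : 4 * (κ * a) ≤ 1)
    (hD : |D| = e) (hx : |x| ≤ 2 * (n * a)) (hy : |y| ≤ e * (2 * a ^ 2))
    (hL0 : 0 ≤ L) (hL : L ≤ κ * (2 * a * n + a ^ 2 * e)) :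
    (D - κ / 2 * (x + y) + L / 8) ^ 2 ≤ 2 * (n ^ 2 + e ^ 2) := by
  have u1 : κ * a ^ 2 * e ≤ 1 / 4 * e := by
    have := mul_le_mul_of_nonneg_right hκ1 he0
    linarith
  have u2 : κ * a * n ≤ 1 / 4 * n := by
    have := mul_le_mul_of_nonneg_right hκa hn0
    linarith
  have t3 : |κ / 2 * (x + y)| ≤ κ / 2 * (2 * (n * a) + e * (2 * a ^ 2)) := by
    rw [abs_mul, abs_of_pos (by positivity)]
    have := (abs_add_le x y).trans (add_le_add hx hy)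
    gcongr
  have t4 : |L / 8| ≤ κ * (2 * a * n + a ^ 2 * e) / 8 := by
    rw [abs_of_nonneg (by positivity)]
    linarith
  have t5 : |D - κ / 2 * (x + y) + L / 8| ≤
      e + κ / 2 * (2 * (n * a) + e * (2 * a ^ 2)) + κ * (2 * a * n + a ^ 2 * e) / 8 := by
    refine (abs_add_le _ _).trans ?_
    refine add_le_add ((abs_sub _ _).trans ?_) t4
    rw [hD]
    linarith
  have b1 : |D - κ / 2 * (x + y) + L / 8| ≤ 41 / 32 * e + 5 / 16 * n := by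
    refine t5.trans ?_
    have e1 : e + κ / 2 * (2 * (n * a) + e * (2 * a ^ 2)) + κ * (2 * a * n + a ^ 2 * e) / 8 =
      e + 9 / 8 * (κ * a ^ 2 * e) + 5 / 4 * (κ * a * n) := by ring
    rw [e1]
    linarith
  rw [← sq_abs]
  calc |D - κ / 2 * (x + y) + L / 8| ^ 2 ≤ (41 / 32 * e + 5 / 16 * n) ^ 2 := by gcongr
    _ ≤ 2 * (n ^ 2 + e ^ 2) := by
      nlinarith [sq_nonneg (5 / 16 * e - 41 / 32 * n), sq_nonneg n, sq_nonneg e]

theorem gain_num {a n D q q' i1 i2 κ τ L : ℝ} (ha : 1 ≤ a) (hn0 : 0 ≤ n) (hn : n ≤ 2 * a)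
    (hq0 : 0 ≤ q) (hq : q ≤ a ^ 2) (hq0' : 0 ≤ q') (hq' : q' ≤ a ^ 2) (hD : D = q' - q)
    (h1 : |i1| ≤ n * a) (h2 : |i2| ≤ n * a) (hi : i2 - i1 = n ^ 2)
    (hκ : κ * (1 + 4 * a ^ 2) = 1) (hτ : τ = κ / 8) (hL : L = (κ * (n + 2 * a * |D|)) ^ 2) :
    0 ≤ 1 - τ * (q + q') / 2 + τ * κ / 16 * (n ^ 2 + D ^ 2) ∧
    (1 - τ * (q + q') / 2 + τ * κ / 16 * (n ^ 2 + D ^ 2)) ^ 2 ≤
      (1 - τ * q - τ * κ / 2 * (i1 + D * q)) *
      (1 - τ * q' + τ * κ / 2 * (i2 + D * q') - τ * L / 8) := by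
  have ha2 : 1 ≤ a ^ 2 := by nlinarith
  have hκ0 : 0 < κ := by
    by_contra hc
    push Not at hc
    nlinarith
  have hκ1 : 4 * (κ * a ^ 2) ≤ 1 := by nlinarith
  have hκa : 4 * (κ * a) ≤ 1 := by
    have : κ * a * 1 ≤ κ * a * a := by gcongr
    nlinarith
  have hτ0 : 0 < τ := by rw [hτ]; positivity
  have hDabs : |D| ≤ a ^ 2 := by
    rw [hD, abs_le]; constructor <;> linarith
  have hD0 : 0 ≤ |D| := abs_nonneg _
  have hLle : L ≤ κ * (n ^ 2 + D ^ 2) := hL ▸ gain_L hκ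
  have hL0 : 0 ≤ L := hL ▸ sq_nonneg _
  have hN2b : n ^ 2 + D ^ 2 ≤ 2 * a * n + a ^ 2 * |D| := by
    rw [← sq_abs D]
    have e1 : n * n ≤ 2 * a * n := by gcongr
    have e2 : |D| * |D| ≤ a ^ 2 * |D| := by gcongr
    nlinarith
  have hLle2 : L ≤ κ * (2 * a * n + a ^ 2 * |D|) := hLle.trans (by gcongr)
  have hsq : 0 ≤ q + q' := by linarith
  have hdiff2 : (D - κ / 2 * ((i1 + i2) + D * (q + q')) + L / 8) ^ 2 ≤ 2 * (n ^ 2 + D ^ 2) := by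
    have := gain_diff (a := a) (n := n) (e := |D|) (κ := κ) (L := L) (x := i1 + i2)
      (y := D * (q + q')) (D := D) hn0 hD0 hκ0 hκ1 hκa rfl
      ((abs_add_le _ _).trans (by linarith))
      (by
        rw [abs_mul, abs_of_nonneg hsq]
        exact mul_le_mul_of_nonneg_left (by linarith) hD0) hL0 hLle2
    rwa [sq_abs] at this
  have hsum : ((1 - τ * q - τ * κ / 2 * (i1 + D * q)) +
      (1 - τ * q' + τ * κ / 2 * (i2 + D * q') - τ * L / 8)) / 2 =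
      1 - τ * (q + q') / 2 + τ * κ / 4 * (n ^ 2 + D ^ 2) - τ * L / 16 := by
    rw [← hi, hD]; ring
  have hdiff : (1 - τ * q - τ * κ / 2 * (i1 + D * q)) -
      (1 - τ * q' + τ * κ / 2 * (i2 + D * q') - τ * L / 8) =
      τ * (D - κ / 2 * ((i1 + i2) + D * (q + q')) + L / 8) := by
    rw [hD]; ring
  generalize (D - κ / 2 * ((i1 + i2) + D * (q + q')) + L / 8) = w at hdiff hdiff2
  generalize (1 - τ * q - τ * κ / 2 * (i1 + D * q)) = α at hsum hdiff ⊢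
  generalize (1 - τ * q' + τ * κ / 2 * (i2 + D * q') - τ * L / 8) = β at hsum hdiff ⊢
  have hN20 : 0 ≤ n ^ 2 + D ^ 2 := by positivity
  have hq1 : 1 / 2 ≤ 1 - τ * (q + q') / 2 := by
    have h5 : κ * (q + q') ≤ κ * (2 * a ^ 2) := by gcongr; linarith
    rw [hτ]
    nlinarith
  generalize 1 - τ * (q + q') / 2 = Y at hsum hq1 ⊢
  generalize n ^ 2 + D ^ 2 = N2 at *
  have hg0 : 0 ≤ τ * κ / 16 * N2 := by positivity
  have hsum2 : Y + τ * κ / 16 * N2 + τ * κ / 16 * N2 ≤ (α + β) / 2 := by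
    rw [hsum]
    have : τ * L ≤ τ * (κ * N2) := by gcongr
    linarith
  refine ⟨by linarith, ?_⟩
  have e1 : α * β = ((α + β) / 2) ^ 2 - ((α - β) / 2) ^ 2 := by ring
  have e2 : ((α - β) / 2) ^ 2 ≤ τ * κ / 16 * N2 := by
    rw [hdiff]
    have e3 : (τ * w / 2) ^ 2 = τ ^ 2 * w ^ 2 / 4 := by ring
    have e4 : τ ^ 2 * w ^ 2 ≤ τ ^ 2 * (2 * N2) := by gcongr
    have e5 : τ ^ 2 * (2 * N2) / 4 = τ * κ / 16 * N2 := by
      rw [hτ]; ring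
    rw [e3, ← e5]
    linarith
  generalize τ * κ / 16 * N2 = g at *
  have e3 : (Y + g + g) ^ 2 ≤ ((α + β) / 2) ^ 2 := by
    gcongr
  have e4 : (Y + g) ^ 2 + g ≤ (Y + g + g) ^ 2 := by
    nlinarith
  rw [e1]
  linarith


theorem integrableOn_of_cont {F : Type*} [NormedAddCommGroup F] {a : ℝ} {A : Set (E d)}
    (hAa : A ⊆ Metric.closedBall 0 a) {f : E d → F} (hf : Continuous f) : IntegrableOn f A :=
  (hf.continuousOn.integrableOn_compact (isCompact_closedBall 0 a)).mono_set hAa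

theorem int_affine {a : ℝ} {A : Set (E d)} (hAa : A ⊆ Metric.closedBall 0 a)
    (c t u : ℝ) (v : E d) :
    ∫ x in A, (c - t * ‖x‖ ^ 2 + u * inner ℝ v x) =
      c * volume.real A - t * (∫ x in A, ‖x‖ ^ 2) + u * inner ℝ v (∫ x in A, x) := by
  have h1 : IntegrableOn (fun _ : E d => c) A := integrableOn_of_cont hAa continuous_const
  have h2 : IntegrableOn (fun x : E d => t * ‖x‖ ^ 2) A := integrableOn_of_cont hAa (by fun_prop)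
  have h3 : IntegrableOn (fun x : E d => u * inner ℝ v x) A :=
    integrableOn_of_cont hAa (by fun_prop)
  have h4 : IntegrableOn (fun x : E d => x) A := integrableOn_of_cont hAa continuous_id
  have h12 : IntegrableOn (fun x : E d => c - t * ‖x‖ ^ 2) A := h1.sub h2
  rw [integral_add h12 h3, integral_sub h1 h2, integral_const_mul, integral_const_mul,
    integral_inner h4, setIntegral_const, smul_eq_mul]
  ring

theorem gain_pt {a κ τ D Λ : ℝ} {v : E d} (hκ0 : 0 < κ) (hτ0 : 0 < τ)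
    (hΛ : Λ = κ * (‖v‖ + 2 * a * |D|)) {x y : E d} (hx' : ‖x‖ ≤ a) (hy' : ‖y‖ ≤ a) :
    1 - (τ + τ * κ / 2 * D) * ‖x‖ ^ 2 + (-(τ * κ / 2)) * inner ℝ v x +
      ((1 - τ * Λ ^ 2 / 8) - (τ - τ * κ / 2 * D) * ‖y‖ ^ 2 + (τ * κ / 2) * inner ℝ v y) ≤
      2 * (1 - τ * ‖(1 / 2 : ℝ) • (x + y)‖ ^ 2) := by
  have e1 : ‖(1 / 2 : ℝ) • (x + y)‖ ^ 2 = (‖x‖ ^ 2 + ‖y‖ ^ 2) / 2 - ‖y - x‖ ^ 2 / 4 := by
    rw [norm_smul, mul_pow, norm_add_sq_real, norm_sub_sq_real, real_inner_comm]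
    norm_num
    ring
  have e2 : inner ℝ v y - inner ℝ v x ≤ ‖v‖ * ‖y - x‖ := by
    rw [← inner_sub_right]; exact real_inner_le_norm _ _
  have e3 : |‖y‖ ^ 2 - ‖x‖ ^ 2| ≤ 2 * a * ‖y - x‖ := by
    have : ‖y‖ ^ 2 - ‖x‖ ^ 2 = (‖y‖ + ‖x‖) * (‖y‖ - ‖x‖) := by ring
    rw [this, abs_mul, abs_of_nonneg (by positivity)]
    exact mul_le_mul (by linarith) (abs_norm_sub_norm_le y x) (abs_nonneg _)
      (by linarith [norm_nonneg x])
  have e4 : D * (‖y‖ ^ 2 - ‖x‖ ^ 2) ≤ |D| * (2 * a * ‖y - x‖) := by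
    refine (le_abs_self _).trans ?_
    rw [abs_mul]
    gcongr
  have e5 : κ * ((inner ℝ v y - inner ℝ v x) + D * (‖y‖ ^ 2 - ‖x‖ ^ 2)) ≤ Λ * ‖y - x‖ := by
    rw [hΛ]
    calc _ ≤ κ * (‖v‖ * ‖y - x‖ + |D| * (2 * a * ‖y - x‖)) := by gcongr
      _ = _ := by ring
  rw [e1]
  have e6 : Λ * ‖y - x‖ ≤ ‖y - x‖ ^ 2 + Λ ^ 2 / 4 := by
    have := sq_nonneg (‖y - x‖ - Λ / 2)
    linarith
  have e7 : τ * (κ * ((inner ℝ v y - inner ℝ v x) + D * (‖y‖ ^ 2 - ‖x‖ ^ 2))) ≤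
      τ * (‖y - x‖ ^ 2 + Λ ^ 2 / 4) := by
    gcongr; exact e5.trans e6
  linarith

/-- the strict gain in Prekopa-Leindler for two sets of equal volume. -/
theorem gain_set {a κ τ w : ℝ} (ha : 1 ≤ a) (hκ : κ * (1 + 4 * a ^ 2) = 1) (hτ : τ = κ / 8)
    {A B M : Set (E d)} (hA : MeasurableSet A) (hB : MeasurableSet B) (hM : MeasurableSet M)
    (hAa : A ⊆ Metric.closedBall 0 a) (hBa : B ⊆ Metric.closedBall 0 a)
    (hMa : M ⊆ Metric.closedBall 0 a)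
    (hsub : ∀ x ∈ A, ∀ y ∈ B, (1 / 2 : ℝ) • (x + y) ∈ M) (hw : 0 < w)
    (hAw : volume.real A = w) (hBw : volume.real B = w) :
    w - τ * ((∫ x in A, ‖x‖ ^ 2) + (∫ x in B, ‖x‖ ^ 2)) / 2 +
      τ * κ / 16 * (w * ‖w⁻¹ • (∫ x in B, x) - w⁻¹ • (∫ x in A, x)‖ ^ 2) ≤
      ∫ x in M, (1 - τ * ‖x‖ ^ 2) := by
  have ha2 : 1 ≤ a ^ 2 := by nlinarith
  have hκ0 : 0 < κ := by
    by_contra hc
    push Not at hc
    nlinarith
  have hκ1 : 4 * (κ * a ^ 2) ≤ 1 := by nlinarith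
  have hτ0 : 0 < τ := by rw [hτ]; positivity
  have hwa : ∀ {A : Set (E d)}, MeasurableSet A → A ⊆ Metric.closedBall 0 a →
      volume.real A = w → ‖w⁻¹ • ∫ x in A, x‖ ≤ a ∧ 0 ≤ w⁻¹ * (∫ x in A, ‖x‖ ^ 2) ∧
        w⁻¹ * (∫ x in A, ‖x‖ ^ 2) ≤ a ^ 2 := by
    intro A hA hAa hAw
    have hlt : volume A < ∞ :=
      (measure_mono hAa).trans_lt (isCompact_closedBall (0 : E d) a).measure_lt_top
    have hx : ∀ x ∈ A, ‖x‖ ≤ a := fun x hx => by simpa using hAa hx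
    refine ⟨?_, ?_, ?_⟩
    · rw [norm_smul, norm_inv, Real.norm_eq_abs, abs_of_pos hw, inv_mul_le_iff₀ hw]
      have := norm_setIntegral_le_of_norm_le_const hlt (C := a) hx
      rw [hAw] at this
      linarith
    · have : 0 ≤ ∫ x in A, ‖x‖ ^ 2 := integral_nonneg fun x => by positivity
      positivity
    · rw [inv_mul_le_iff₀ hw]
      have := norm_setIntegral_le_of_norm_le_const hlt (f := fun x : E d => ‖x‖ ^ 2) (C := a ^ 2)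
        (fun x hx' => by
          rw [norm_pow, norm_norm]
          have := hx x hx'
          gcongr)
      rw [hAw] at this
      have h2 := (le_abs_self _).trans ((Real.norm_eq_abs _).symm.le.trans this)
      linarith
  obtain ⟨hpa, hs0, hsa⟩ := hwa hA hAa hAw
  obtain ⟨hpa', hs0', hsa'⟩ := hwa hB hBa hBw
  have ef := fun c t u v => int_affine (d := d) hAa c t u v
  have eg := fun c t u v => int_affine (d := d) hBa c t u v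
  rw [hAw] at ef
  rw [hBw] at eg
  obtain ⟨c1, hc1⟩ : ∃ c1, c1 = w⁻¹ • ∫ x in A, x := ⟨_, rfl⟩
  obtain ⟨c2, hc2⟩ : ∃ c2, c2 = w⁻¹ • ∫ x in B, x := ⟨_, rfl⟩
  obtain ⟨q1, hq1⟩ : ∃ q1, q1 = w⁻¹ * ∫ x in A, ‖x‖ ^ 2 := ⟨_, rfl⟩
  obtain ⟨q2, hq2⟩ : ∃ q2, q2 = w⁻¹ * ∫ x in B, ‖x‖ ^ 2 := ⟨_, rfl⟩
  have hp1 : (∫ x in A, x) = w • c1 := by rw [hc1, smul_inv_smul₀ hw.ne']
  have hp2 : (∫ x in B, x) = w • c2 := by rw [hc2, smul_inv_smul₀ hw.ne']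
  have hs1 : (∫ x in A, ‖x‖ ^ 2) = w * q1 := by rw [hq1, mul_inv_cancel_left₀ hw.ne']
  have hs2 : (∫ x in B, ‖x‖ ^ 2) = w * q2 := by rw [hq2, mul_inv_cancel_left₀ hw.ne']
  rw [← hc1, ← hc2, hs1, hs2]
  rw [hp1, hs1] at ef
  rw [hp2, hs2] at eg
  rw [← hc1] at hpa
  rw [← hc2] at hpa'
  rw [← hq1] at hs0 hsa
  rw [← hq2] at hs0' hsa'
  clear hc1 hc2 hq1 hq2 hp1 hp2 hs1 hs2 hwa
  set v := c2 - c1 with hv
  obtain ⟨D, hD⟩ : ∃ D, D = q2 - q1 := ⟨_, rfl⟩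
  obtain ⟨Λ, hΛ⟩ : ∃ Λ, Λ = κ * (‖v‖ + 2 * a * |D|) := ⟨_, rfl⟩
  have hvn : ‖v‖ ≤ 2 * a := (norm_sub_le _ _).trans (by linarith)
  have hDabs : |D| ≤ a ^ 2 := by
    rw [hD, abs_le]; constructor <;> linarith
  have hΛ0 : 0 ≤ Λ := by rw [hΛ]; positivity
  have hnum := gain_num (a := a) (n := ‖v‖) (D := D) (q := q1) (q' := q2)
    (i1 := inner ℝ v c1) (i2 := inner ℝ v c2) (κ := κ) (τ := τ) (L := Λ ^ 2)
    ha (norm_nonneg _) hvn hs0 hsa hs0' hsa' hD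
    ((abs_real_inner_le_norm _ _).trans (by gcongr))
    ((abs_real_inner_le_norm _ _).trans (by gcongr))
    (by rw [← inner_sub_right, ← hv, real_inner_self_eq_norm_sq]) hκ hτ (by rw [hΛ])
  have hxi : ∀ x ∈ Metric.closedBall (0 : E d) a, |inner ℝ v x + D * ‖x‖ ^ 2| ≤ 2 * a * a +
      a ^ 2 * a ^ 2 := by
    intro x hx
    have hx' : ‖x‖ ≤ a := by simpa using hx
    refine (abs_add_le _ _).trans (add_le_add ((abs_real_inner_le_norm _ _).trans (by gcongr)) ?_)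
    rw [abs_mul, abs_of_nonneg (by positivity : 0 ≤ ‖x‖ ^ 2)]
    gcongr
  have hκx : κ * (2 * a * a + a ^ 2 * a ^ 2) ≤ 1 / 2 + a ^ 2 / 4 := by
    have : 4 * (κ * a ^ 2) * (2 + a ^ 2) ≤ 1 * (2 + a ^ 2) := by gcongr
    nlinarith
  have hτa : 32 * (τ * a ^ 2) ≤ 1 := by rw [hτ]; linarith
  have hΛ2 : Λ ^ 2 ≤ 1 + a ^ 2 / 4 := by
    have h1 := gain_L (n := ‖v‖) (D := D) hκ
    rw [← hΛ] at h1
    have h2 : ‖v‖ ^ 2 + D ^ 2 ≤ (2 * a) ^ 2 + (a ^ 2) ^ 2 := by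
      rw [← sq_abs D]; gcongr
    have h3 : κ * (‖v‖ ^ 2 + D ^ 2) ≤ κ * ((2 * a) ^ 2 + (a ^ 2) ^ 2) := by gcongr
    nlinarith
  have key := pl_set (d := d) hA hB hM hsub
    (f := fun x => 1 - (τ + τ * κ / 2 * D) * ‖x‖ ^ 2 + (-(τ * κ / 2)) * inner ℝ v x)
    (g := fun x => (1 - τ * Λ ^ 2 / 8) - (τ - τ * κ / 2 * D) * ‖x‖ ^ 2 +
      (τ * κ / 2) * inner ℝ v x)
    (h := fun x => 1 - τ * ‖x‖ ^ 2)
    (by fun_prop) (by fun_prop) (by fun_prop)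
    (integrableOn_of_cont hAa (by fun_prop)) (integrableOn_of_cont hBa (by fun_prop))
    (integrableOn_of_cont hMa (by fun_prop)) ?_ ?_ ?_ ?_
  · rw [ef, eg] at key
    have hH0 : 0 ≤ ∫ x in M, (1 - τ * ‖x‖ ^ 2) := by
      refine setIntegral_nonneg hM fun x hx => ?_
      have hx' : ‖x‖ ≤ a := by simpa using hMa hx
      have : τ * ‖x‖ ^ 2 ≤ τ * a ^ 2 := by gcongr
      linarith
    simp only [inner_smul_right] at key
    obtain ⟨n1, n2⟩ := hnum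
    have h2 : (w * (1 - τ * (q1 + q2) / 2 + τ * κ / 16 * (‖v‖ ^ 2 + D ^ 2))) ^ 2 ≤
        (∫ x in M, (1 - τ * ‖x‖ ^ 2)) ^ 2 := by
      refine le_trans ?_ key
      rw [mul_pow]
      refine (mul_le_mul_of_nonneg_left n2 (sq_nonneg w)).trans (le_of_eq ?_)
      ring
    have h3 := (pow_le_pow_iff_left₀ (by positivity) hH0 two_ne_zero).1 h2
    refine le_trans ?_ h3
    have h4 : 0 ≤ w * (τ * κ / 16 * D ^ 2) := by positivity
    linarith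
  · intro x hx
    have hb := hxi x (hAa hx)
    have hx' : ‖x‖ ≤ a := by simpa using hAa hx
    have h1 : τ * ‖x‖ ^ 2 ≤ τ * a ^ 2 := by gcongr
    have h2 : κ * (inner ℝ v x + D * ‖x‖ ^ 2) ≤ κ * (2 * a * a + a ^ 2 * a ^ 2) :=
      mul_le_mul_of_nonneg_left ((le_abs_self _).trans hb) hκ0.le
    have h3 : τ * (κ * (inner ℝ v x + D * ‖x‖ ^ 2)) ≤ τ * (1 / 2 + a ^ 2 / 4) := by
      gcongr; exact h2.trans hκx
    have h4 : τ * 1 ≤ τ * a ^ 2 := by gcongr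
    linarith
  · intro x hx
    have hb := hxi x (hBa hx)
    have hx' : ‖x‖ ≤ a := by simpa using hBa hx
    have h1 : τ * ‖x‖ ^ 2 ≤ τ * a ^ 2 := by gcongr
    have h2 : κ * (-(inner ℝ v x + D * ‖x‖ ^ 2)) ≤ κ * (2 * a * a + a ^ 2 * a ^ 2) :=
      mul_le_mul_of_nonneg_left ((neg_le_abs _).trans hb) hκ0.le
    have h3 : τ * (κ * (-(inner ℝ v x + D * ‖x‖ ^ 2))) ≤ τ * (1 / 2 + a ^ 2 / 4) := by
      gcongr; exact h2.trans hκx
    have h4 : τ * 1 ≤ τ * a ^ 2 := by gcongr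
    have h5 : τ * Λ ^ 2 ≤ τ * (1 + a ^ 2 / 4) := by gcongr
    linarith
  · intro x hx
    have hx' : ‖x‖ ≤ a := by simpa using hMa hx
    have : τ * ‖x‖ ^ 2 ≤ τ * a ^ 2 := by gcongr
    linarith
  · intro x hx y hy
    exact gain_pt hκ0 hτ0 hΛ (by simpa using hAa hx) (by simpa using hBa hy)

end Vale.Agent.P074
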