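import Mathlib
import Vale.Agent.P074.Defs
import Vale.Agent.P074.Brenier
import Vale.Agent.P074.Gain

open MeasureTheory Set
open scoped ENNReal NNReal

namespace Vale.Agent.P074

variable {d : ℕ} {Ω : Type} [Fintype Ω] [Nonempty Ω]

theorem sel_ae_eq {P : Ω → E d} (hP : Function.Injective P) {ψ : Ω → ℝ} {q : E d → Ω}
    (hq : ∀ x, x ∈ cell P ψ (q x)) (ω : Ω) : (q ⁻¹' {ω} : Set (E d)) =ᵐ[volume] cell P ψ ω := by
  have hnull : ∀ᵐ x ∂(volume : Measure (E d)), ∀ η, η ≠ ω → x ∉ cell P ψ ω ∩ cell P ψ η := by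
    rw [ae_all_iff]
    intro η
    by_cases h : η = ω
    · simp [h]
    · have h3 : ∀ᵐ x ∂(volume : Measure (E d)), x ∉ cell P ψ ω ∩ cell P ψ η :=
        measure_eq_zero_iff_ae_notMem.1 (cell_inter_null hP ψ (Ne.symm h))
      filter_upwards [h3] with x hx _
      exact hx
  filter_upwards [hnull] with x hx
  rw [eq_iff_iff]
  constructor
  · intro h
    have h' : q x = ω := h
    have := hq x
    rwa [h'] at this
  · intro h
    by_contra hc
    exact hx (q x) hc ⟨h, hq x⟩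

/-- An optimal allocation of the uniform measure on `K` to positions `P` with masses `m`. -/
structure Alloc (K : Set (E d)) (P : Ω → E d) (m : Ω → ℝ) where
  ψ : Ω → ℝ
  q : E d → Ω
  meas : ∀ ω, MeasurableSet (q ⁻¹' {ω})
  mem : ∀ x, x ∈ cell P ψ (q x)
  mass : ∀ ω, (unif K).real (q ⁻¹' {ω}) = m ω

theorem unif_prob {K : Set (E d)} (h0 : volume K ≠ 0) (ht : volume K ≠ ∞) :
    IsProbabilityMeasure (unif K) := by
  constructor
  rw [unif, Measure.smul_apply, Measure.restrict_apply MeasurableSet.univ, univ_inter,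
    smul_eq_mul, ENNReal.inv_mul_cancel h0 ht]

theorem unif_ac (K : Set (E d)) : unif K ≪ volume := by
  rw [unif]
  exact (Measure.absolutelyContinuous_of_le Measure.restrict_le_self).smul_left _

theorem unif_compl' {K : Set (E d)} (hK : MeasurableSet K) : unif K Kᶜ = 0 := by
  rw [unif, Measure.smul_apply, Measure.restrict_apply hK.compl, compl_inter_self,
    measure_empty, smul_zero]

theorem unif_ball {K : Set (E d)} {a : ℝ} (hK : MeasurableSet K)
    (hKa : K ⊆ Metric.closedBall 0 a) : unif K (Metric.closedBall 0 a)ᶜ = 0 :=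
  measure_mono_null (compl_subset_compl.2 hKa) (unif_compl' hK)

theorem integral_unif {K : Set (E d)} {F : Type*} [NormedAddCommGroup F] [NormedSpace ℝ F]
    (S : Set (E d)) (hS : MeasurableSet S) (f : E d → F) :
    ∫ x in S, f x ∂(unif K) = (volume.real K)⁻¹ • ∫ x in S ∩ K, f x := by
  rw [unif, Measure.restrict_smul, integral_smul_measure, Measure.restrict_restrict hS,
    ENNReal.toReal_inv]
  rfl

theorem exists_alloc {K : Set (E d)} {a : ℝ} (ha : 0 ≤ a) (hK : MeasurableSet K)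
    (hKa : K ⊆ Metric.closedBall 0 a) (h0 : volume K ≠ 0)
    {P : Ω → E d} (hP : Function.Injective P) {m : Ω → ℝ} (hm : ∀ ω, 0 < m ω)
    (hm1 : ∑ ω, m ω = 1) : Nonempty (Alloc K P m) := by
  have ht : volume K ≠ ∞ :=
    ((measure_mono hKa).trans_lt (isCompact_closedBall (0 : E d) a).measure_lt_top).ne
  have := unif_prob h0 ht
  obtain ⟨ψ, hψ⟩ := finite_brenier (unif_ball hK hKa) ha (unif_ac K) hP hm hm1
  obtain ⟨q, hq1, hq2⟩ := exists_select (cell P ψ) (measurableSet_cell P ψ)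
    (exists_mem_cell P ψ)
  refine ⟨⟨ψ, q, hq1, hq2, fun ω => ?_⟩⟩
  rw [← hψ ω, measureReal_def, measureReal_def,
    measure_congr ((unif_ac K).ae_eq (sel_ae_eq hP hq2 ω))]

theorem setIntegral_partition {F : Type*} [NormedAddCommGroup F] [NormedSpace ℝ F]
    {μ : Measure (E d)} {q : E d → Ω} (hq : ∀ ω, MeasurableSet (q ⁻¹' {ω})) {K : Set (E d)}
    (hK : MeasurableSet K) {f : E d → F} (hf : IntegrableOn f K μ) :
    ∫ x in K, f x ∂μ = ∑ ω, ∫ x in q ⁻¹' {ω} ∩ K, f x ∂μ := by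
  rw [← integral_iUnion_fintype (fun ω => (hq ω).inter hK)]
  · congr 1
    rw [← iUnion_inter]
    have : (⋃ ω, q ⁻¹' {ω}) = univ := by
      ext x; simp
    rw [this, univ_inter]
  · intro i j hij
    refine Disjoint.mono inter_subset_left inter_subset_left ?_
    exact Disjoint.preimage q (by simpa using hij)
  · intro ω
    exact hf.mono_set inter_subset_right


/-- first moment of the part of `K` allocated to `ω` -/
noncomputable def Alloc.bary {K : Set (E d)} {P : Ω → E d} {m : Ω → ℝ} (A : Alloc K P m)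
    (ω : Ω) : E d := ∫ x in A.q ⁻¹' {ω}, x ∂(unif K)

theorem Alloc.vol {K : Set (E d)} {P : Ω → E d} {m : Ω → ℝ} (A : Alloc K P m) {V : ℝ}
    (hV : 0 < V) (hK : volume.real K = V) (ω : Ω) :
    volume.real (A.q ⁻¹' {ω} ∩ K) = V * m ω := by
  have h := A.mass ω
  rw [unif, measureReal_def, Measure.smul_apply, Measure.restrict_apply (A.meas ω), smul_eq_mul,
    ENNReal.toReal_mul, ENNReal.toReal_inv, ← measureReal_def, ← measureReal_def, hK] at h
  rw [← h, mul_inv_cancel_left₀ hV.ne']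

theorem xprime {a κ τ : ℝ} (ha : 1 ≤ a) (hκ : κ * (1 + 4 * a ^ 2) = 1) (hτ : τ = κ / 8)
    {K₀ K₁ K' : Set (E d)} (hK₀ : MeasurableSet K₀) (hK₁ : MeasurableSet K₁)
    (hK' : MeasurableSet K') (hK'a : K' ⊆ Metric.closedBall 0 a) (hc : Convex ℝ K')
    (h0 : K₀ ⊆ K') (h1 : K₁ ⊆ K') {V : ℝ} (hV : 0 < V) (hV0 : volume.real K₀ = V)
    (hV1 : volume.real K₁ = V)
    {P : Ω → E d} (hP : Function.Injective P) {m : Ω → ℝ} (hm : ∀ ω, 0 < m ω)
    (hm1 : ∑ ω, m ω = 1) (A₀ : Alloc K₀ P m) (A₁ : Alloc K₁ P m) :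
    τ * κ / 16 * (V * ∑ ω, m ω * ‖(m ω)⁻¹ • A₁.bary ω - (m ω)⁻¹ • A₀.bary ω‖ ^ 2) ≤
      volume.real K' - V := by
  have ha2 : 1 ≤ a ^ 2 := by nlinarith
  have hκ0 : 0 < κ := by
    by_contra hc
    push Not at hc
    nlinarith
  have hκ1 : 4 * (κ * a ^ 2) ≤ 1 := by nlinarith
  have hτ0 : 0 < τ := by rw [hτ]; positivity
  have hτa : τ * a ^ 2 ≤ 1 := by rw [hτ]; linarith
  have hK₀a := h0.trans hK'a
  have hK₁a := h1.trans hK'a
  set ψ : Ω → ℝ := fun ω => (A₀.ψ ω + A₁.ψ ω) / 2 with hψ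
  obtain ⟨q, hq1, hq2⟩ := exists_select (cell P ψ) (measurableSet_cell P ψ)
    (exists_mem_cell P ψ)
  have hmain : ∀ ω, V * m ω - τ * ((∫ x in A₀.q ⁻¹' {ω} ∩ K₀, ‖x‖ ^ 2) +
      (∫ x in A₁.q ⁻¹' {ω} ∩ K₁, ‖x‖ ^ 2)) / 2 +
      τ * κ / 16 * (V * (m ω * ‖(m ω)⁻¹ • A₁.bary ω - (m ω)⁻¹ • A₀.bary ω‖ ^ 2)) ≤
      ∫ x in q ⁻¹' {ω} ∩ K', (1 - τ * ‖x‖ ^ 2) := by
    intro ω
    have g := gain_set (d := d) (w := V * m ω) ha hκ hτ
      (A := A₀.q ⁻¹' {ω} ∩ K₀) (B := A₁.q ⁻¹' {ω} ∩ K₁) (M := cell P ψ ω ∩ K')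
      ((A₀.meas ω).inter hK₀) ((A₁.meas ω).inter hK₁) ((measurableSet_cell P ψ ω).inter hK')
      (inter_subset_right.trans hK₀a) (inter_subset_right.trans hK₁a)
      (inter_subset_right.trans hK'a) ?_ (mul_pos hV (hm ω)) (A₀.vol hV hV0 ω)
      (A₁.vol hV hV1 ω)
    · have e0 : (V * m ω)⁻¹ • (∫ x in A₀.q ⁻¹' {ω} ∩ K₀, x) = (m ω)⁻¹ • A₀.bary ω := by
        rw [Alloc.bary, integral_unif _ (A₀.meas ω), hV0, smul_smul, mul_inv, mul_comm]
      have e1 : (V * m ω)⁻¹ • (∫ x in A₁.q ⁻¹' {ω} ∩ K₁, x) = (m ω)⁻¹ • A₁.bary ω := by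
        rw [Alloc.bary, integral_unif _ (A₁.meas ω), hV1, smul_smul, mul_inv, mul_comm]
      rw [e0, e1, mul_assoc V] at g
      refine g.trans (le_of_eq ?_)
      apply setIntegral_congr_set
      exact (sel_ae_eq hP hq2 ω).symm.inter (Filter.EventuallyEq.rfl)
    · rintro x ⟨hx, hxK⟩ y ⟨hy, hyK⟩
      constructor
      · intro η
        have hx' : A₀.q x = ω := hx
        have hy' : A₁.q y = ω := hy
        have h1 := A₀.mem x η
        have h2 := A₁.mem y η
        rw [hx'] at h1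
        rw [hy'] at h2
        simp only [hψ, inner_smul_left, inner_add_left, RCLike.conj_to_real]
        linarith
      · have := hc (h0 hxK) (h1 hyK) (a := 1 / 2) (b := 1 / 2) (by norm_num) (by norm_num)
          (by norm_num)
        rwa [smul_add]
  have hsum := Finset.sum_le_sum (fun ω (_ : ω ∈ (Finset.univ : Finset Ω)) => hmain ω)
  have i0 : IntegrableOn (fun x : E d => ‖x‖ ^ 2) K₀ := integrableOn_of_cont hK₀a (by fun_prop)
  have i1 : IntegrableOn (fun x : E d => ‖x‖ ^ 2) K₁ := integrableOn_of_cont hK₁a (by fun_prop)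
  have i2 : IntegrableOn (fun x : E d => 1 - τ * ‖x‖ ^ 2) K' :=
    integrableOn_of_cont hK'a (by fun_prop)
  rw [← setIntegral_partition hq1 hK' i2] at hsum
  simp only [Finset.sum_add_distrib, Finset.sum_sub_distrib, ← Finset.mul_sum, ← Finset.sum_div]
    at hsum
  rw [← setIntegral_partition A₀.meas hK₀ i0, ← setIntegral_partition A₁.meas hK₁ i1, hm1]
    at hsum
  have hbd : ∀ K : Set (E d), MeasurableSet K → K ⊆ K' → volume.real K = V →
      (∫ x in K', (1 - τ * ‖x‖ ^ 2)) - (V - τ * ∫ x in K, ‖x‖ ^ 2) ≤ volume.real K' - V := by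
    intro K hK hKK' hKV
    have hKt : volume K' ≠ ∞ :=
      ((measure_mono hK'a).trans_lt (isCompact_closedBall (0 : E d) a).measure_lt_top).ne
    have hKa := hKK'.trans hK'a
    have e1 : ∫ x in K, (1 - τ * ‖x‖ ^ 2) = V - τ * ∫ x in K, ‖x‖ ^ 2 := by
      rw [integral_sub (integrableOn_of_cont hKa continuous_const)
        (integrableOn_of_cont hKa (by fun_prop)), integral_const_mul, setIntegral_const, hKV]
      simp
    have e2 : ∫ x in K', (1 - τ * ‖x‖ ^ 2) = (∫ x in K, (1 - τ * ‖x‖ ^ 2)) +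
        ∫ x in K' \ K, (1 - τ * ‖x‖ ^ 2) := by
      rw [← setIntegral_union disjoint_sdiff_right (hK'.diff hK) (i2.mono_set hKK')
        (i2.mono_set sdiff_subset), union_sdiff_cancel hKK']
    have e3 : ∫ x in K' \ K, (1 - τ * ‖x‖ ^ 2) ≤ volume.real (K' \ K) := by
      have : ∫ x in K' \ K, (1 - τ * ‖x‖ ^ 2) ≤ ∫ x in K' \ K, (1 : ℝ) := by
        apply setIntegral_mono (i2.mono_set sdiff_subset)
          (integrableOn_of_cont (sdiff_subset.trans hK'a) continuous_const)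
        intro x
        have : 0 ≤ τ * ‖x‖ ^ 2 := by positivity
        simp only
        linarith
      simpa using this
    have e4 : volume.real (K' \ K) = volume.real K' - V := by
      rw [measureReal_sdiff hKK' hK, hKV]
    rw [e2, ← e1]
    linarith
  have b0 := hbd K₀ hK₀ h0 hV0
  have b1 := hbd K₁ hK₁ h1 hV1
  linarith

end Vale.Agent.P074
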