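import Mathlib
import Vale.Agent.P074.Defs
import Vale.Agent.P074.Xprime

open MeasureTheory Set
open scoped ENNReal NNReal

namespace Vale.Agent.P074

variable {d : ℕ} {Ω : Type} [Fintype Ω] [Nonempty Ω]

/-- the optimal (maximal) correlation between the uniform measure on `K` and `∑ m_ω δ_{P_ω}` -/
noncomputable def Vf (K : Set (E d)) (P : Ω → E d) (m : Ω → ℝ) : ℝ :=
  ⨅ ψ : Ω → ℝ, Jf (unif K) P m ψ

omit [Nonempty Ω] in
theorem meas_comp {α β : Type*} [MeasurableSpace α] [MeasurableSpace β] {q : α → Ω}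
    (hq : ∀ ω, MeasurableSet (q ⁻¹' {ω})) (g : Ω → β) : Measurable (fun x => g (q x)) := by
  intro s _
  have : (fun x => g (q x)) ⁻¹' s = ⋃ ω ∈ {ω | g ω ∈ s}, q ⁻¹' {ω} := by
    ext x; simp
  rw [this]
  exact MeasurableSet.biUnion (Set.to_countable _) fun ω _ => hq ω

omit [Nonempty Ω] in
theorem exists_bound_fin {F : Type*} [NormedAddCommGroup F] (g : Ω → F) :
    ∃ C, ∀ ω, ‖g ω‖ ≤ C := by
  refine ⟨∑ ω, ‖g ω‖, fun ω => ?_⟩
  exact Finset.single_le_sum (f := fun ω => ‖g ω‖) (fun _ _ => norm_nonneg _)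
    (Finset.mem_univ ω)

omit [Nonempty Ω] in
theorem integrable_comp {α : Type*} [MeasurableSpace α] {μ : Measure α} [IsFiniteMeasure μ]
    {q : α → Ω} (hq : ∀ ω, MeasurableSet (q ⁻¹' {ω})) (g : Ω → ℝ) :
    Integrable (fun x => g (q x)) μ := by
  obtain ⟨C, hC⟩ := exists_bound_fin g
  exact Integrable.of_bound (meas_comp hq g).aestronglyMeasurable C
    (Filter.Eventually.of_forall fun x => hC _)

omit [Nonempty Ω] in
theorem integrable_inner_comp {σ : Measure (E d)} [IsFiniteMeasure σ] {a : ℝ}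
    (hσ : σ (Metric.closedBall 0 a)ᶜ = 0)
    {q : E d → Ω} (hq : ∀ ω, MeasurableSet (q ⁻¹' {ω})) (P : Ω → E d) :
    Integrable (fun x => (inner ℝ x (P (q x)) : ℝ)) σ := by
  obtain ⟨C, hC⟩ := exists_bound_fin P
  refine Integrable.of_bound
    (measurable_id.inner (meas_comp hq P)).aestronglyMeasurable (a * C) ?_
  filter_upwards [ae_ball hσ] with x hx
  rw [Real.norm_eq_abs]
  have h0 : 0 ≤ a := (norm_nonneg x).trans hx
  exact (abs_real_inner_le_norm _ _).trans (mul_le_mul hx (hC _) (norm_nonneg _) h0)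

section
variable {K : Set (E d)} {a : ℝ} {P : Ω → E d} {m : Ω → ℝ}

theorem Alloc.sum_mass (A : Alloc K P m) [IsProbabilityMeasure (unif K)] (g : Ω → ℝ) :
    ∫ x, g (A.q x) ∂(unif K) = ∑ ω, m ω * g ω := by
  have h := setIntegral_partition (μ := unif K) A.meas (K := univ) MeasurableSet.univ
    (f := fun x => g (A.q x)) (integrable_comp A.meas g).integrableOn
  rw [setIntegral_univ] at h
  rw [h]
  refine Finset.sum_congr rfl fun ω _ => ?_
  rw [inter_univ, setIntegral_congr_fun (g := fun _ => g ω) (A.meas ω), setIntegral_const,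
    A.mass ω, smul_eq_mul]
  intro x hx
  have : A.q x = ω := hx
  simp only [this]

theorem Alloc.sum_bary (A : Alloc K P m) (hσ : unif K (Metric.closedBall 0 a)ᶜ = 0)
    [IsProbabilityMeasure (unif K)] (P' : Ω → E d) :
    ∫ x, (inner ℝ x (P' (A.q x))) ∂(unif K) = ∑ ω, inner ℝ (A.bary ω) (P' ω) := by
  have h := setIntegral_partition (μ := unif K) A.meas (K := univ) MeasurableSet.univ
    (f := fun x => (inner ℝ x (P' (A.q x)) : ℝ)) (integrable_inner_comp hσ A.meas P').integrableOn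
  rw [setIntegral_univ] at h
  rw [h]
  refine Finset.sum_congr rfl fun ω _ => ?_
  have hid : Integrable (fun x : E d => x) (unif K) := integrable_cont' hσ continuous_id
  rw [inter_univ, setIntegral_congr_fun (g := fun x => inner ℝ (P' ω) x) (A.meas ω),
    integral_inner hid.integrableOn, real_inner_comm]
  · rfl
  · intro x hx
    have : A.q x = ω := hx
    simp only [this]
    rw [real_inner_comm]

theorem Alloc.weak (A : Alloc K P m) (hσ : unif K (Metric.closedBall 0 a)ᶜ = 0)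
    [IsProbabilityMeasure (unif K)] (P' : Ω → E d) (ψ' : Ω → ℝ) :
    ∑ ω, inner ℝ (A.bary ω) (P' ω) ≤ Jf (unif K) P' m ψ' := by
  rw [← A.sum_bary hσ, Jf, ← A.sum_mass ψ', ← integral_add (integrable_phi hσ _ _)
    (integrable_comp A.meas _)]
  apply integral_mono (integrable_inner_comp hσ A.meas P')
    ((integrable_phi hσ _ _).add (integrable_comp A.meas _))
  intro x
  have := le_phi P' ψ' x (A.q x)
  simp only [Pi.add_apply]
  linarith

theorem Alloc.J_eq (A : Alloc K P m) (hσ : unif K (Metric.closedBall 0 a)ᶜ = 0)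
    [IsProbabilityMeasure (unif K)] :
    Jf (unif K) P m A.ψ = ∑ ω, inner ℝ (A.bary ω) (P ω) := by
  rw [← A.sum_bary hσ, Jf, ← A.sum_mass A.ψ, ← integral_add (integrable_phi hσ _ _)
    (integrable_comp A.meas _)]
  apply integral_congr_ae
  refine Filter.Eventually.of_forall fun x => ?_
  simp only
  rw [phi_eq_of_mem (A.mem x)]
  ring

theorem Alloc.le_Vf (A : Alloc K P m) (hσ : unif K (Metric.closedBall 0 a)ᶜ = 0)
    [IsProbabilityMeasure (unif K)] (P' : Ω → E d) :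
    ∑ ω, inner ℝ (A.bary ω) (P' ω) ≤ Vf K P' m :=
  le_ciInf fun ψ' => A.weak hσ P' ψ'

theorem Alloc.bdd (A : Alloc K P m) (hσ : unif K (Metric.closedBall 0 a)ᶜ = 0)
    [IsProbabilityMeasure (unif K)] (P' : Ω → E d) :
    BddBelow (range (fun ψ' : Ω → ℝ => Jf (unif K) P' m ψ')) :=
  ⟨_, by rintro _ ⟨ψ', rfl⟩; exact A.weak hσ P' ψ'⟩

theorem Alloc.Vf_le (A : Alloc K P m) (hσ : unif K (Metric.closedBall 0 a)ᶜ = 0)
    [IsProbabilityMeasure (unif K)] (P' : Ω → E d) (ψ' : Ω → ℝ) :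
    Vf K P' m ≤ Jf (unif K) P' m ψ' :=
  ciInf_le (A.bdd hσ P') ψ'

theorem Alloc.Vf_eq (A : Alloc K P m) (hσ : unif K (Metric.closedBall 0 a)ᶜ = 0)
    [IsProbabilityMeasure (unif K)] :
    Vf K P m = ∑ ω, inner ℝ (A.bary ω) (P ω) := by
  apply le_antisymm
  · rw [← A.J_eq hσ]
    exact A.Vf_le hσ P A.ψ
  · exact A.le_Vf hσ P

theorem Alloc.bary_norm_le (A : Alloc K P m) (hσ : unif K (Metric.closedBall 0 a)ᶜ = 0)
    [IsProbabilityMeasure (unif K)] (ω : Ω) : ‖A.bary ω‖ ≤ a * m ω := by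
  rw [Alloc.bary, ← A.mass ω]
  refine norm_setIntegral_le_of_norm_le_const_ae (measure_lt_top _ _) ?_
  exact ae_restrict_of_ae (ae_ball hσ)

end


/-- positions along the segment from `y` to `z` -/
noncomputable def pos (y z : Ω → E d) (s : ℝ) (ω : Ω) : E d := y ω + s • (z ω - y ω)

omit [Fintype Ω] [Nonempty Ω] in
theorem pos_zero (y z : Ω → E d) : pos y z 0 = y := by
  ext ω; simp [pos]

omit [Fintype Ω] [Nonempty Ω] in
theorem pos_one (y z : Ω → E d) : pos y z 1 = z := by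
  ext ω; simp [pos]

omit [Fintype Ω] [Nonempty Ω] in
theorem pos_swap (y z : Ω → E d) (s : ℝ) : pos z y s = pos y z (1 - s) := by
  funext ω
  simp only [pos]
  module

omit [Nonempty Ω] in
theorem sum_inner_pos (b : Ω → E d) (y z : Ω → E d) (s t : ℝ) :
    ∑ ω, inner ℝ (b ω) (pos y z t ω) = ∑ ω, inner ℝ (b ω) (pos y z s ω) +
      (t - s) * ∑ ω, inner ℝ (b ω) (z ω - y ω) := by
  rw [Finset.mul_sum, ← Finset.sum_add_distrib]
  refine Finset.sum_congr rfl fun ω _ => ?_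
  simp only [pos, inner_add_right, inner_smul_right]
  ring

theorem path_ineq {K₀ K₁ : Set (E d)} {a : ℝ} (ha : 0 ≤ a) (hK₀ : MeasurableSet K₀)
    (hK₁ : MeasurableSet K₁) (hK₀a : K₀ ⊆ Metric.closedBall 0 a)
    (hK₁a : K₁ ⊆ Metric.closedBall 0 a) (h0 : volume K₀ ≠ 0) (h1 : volume K₁ ≠ 0)
    {m : Ω → ℝ} (hm : ∀ ω, 0 < m ω) (hm1 : ∑ ω, m ω = 1) {y z : Ω → E d}
    (hinj : ∀ s : ℚ, Function.Injective (pos y z s)) {R : ℝ}
    (hR : ∀ ω, ‖z ω - y ω‖ ≤ 2 * R) {G E2 l : ℝ}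
    (hG : ∀ P : Ω → E d, Function.Injective P → ∀ (A₀ : Alloc K₀ P m) (A₁ : Alloc K₁ P m),
      ∑ ω, m ω * ‖(m ω)⁻¹ • A₁.bary ω - (m ω)⁻¹ • A₀.bary ω‖ ^ 2 ≤ G)
    (hE2 : ∑ ω, m ω * ‖z ω - y ω‖ ^ 2 ≤ E2) (hl : 0 < l) {n : ℕ} (hn : 0 < n) :
    -(l / 2 * G + E2 / (2 * l)) - 4 * a * R / n ≤
      (Vf K₁ z m - Vf K₁ y m) - (Vf K₀ z m - Vf K₀ y m) := by
  have hfin : ∀ K : Set (E d), K ⊆ Metric.closedBall 0 a → volume K ≠ ∞ := fun K h =>
    ((measure_mono h).trans_lt (isCompact_closedBall (0 : E d) a).measure_lt_top).ne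
  have p0 := unif_prob h0 (hfin K₀ hK₀a)
  have p1 := unif_prob h1 (hfin K₁ hK₁a)
  have s0 := unif_ball hK₀ hK₀a
  have s1 := unif_ball hK₁ hK₁a
  have hn' : (0 : ℝ) < n := by exact_mod_cast hn
  have hinj' : ∀ k : ℕ, Function.Injective (pos y z ((k : ℝ) / n)) := by
    intro k
    have := hinj ((k : ℚ) / n)
    push_cast at this
    exact this
  obtain ⟨A₀⟩ : Nonempty (∀ k : ℕ, Alloc K₀ (pos y z ((k : ℝ) / n)) m) :=
    ⟨fun k => (exists_alloc ha hK₀ hK₀a h0 (hinj' k) hm hm1).some⟩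
  obtain ⟨A₁⟩ : Nonempty (∀ k : ℕ, Alloc K₁ (pos y z ((k : ℝ) / n)) m) :=
    ⟨fun k => (exists_alloc ha hK₁ hK₁a h1 (hinj' k) hm hm1).some⟩
  set f : ℕ → ℝ := fun k => Vf K₁ (pos y z ((k : ℝ) / n)) m - Vf K₀ (pos y z ((k : ℝ) / n)) m
    with hf
  set b : ℕ → ℝ := fun k => (1 / (n : ℝ)) * ∑ ω, inner ℝ ((A₀ k).bary ω) (z ω - y ω) with hb
  have hstep : ∀ k : ℕ, -((1 / (n : ℝ)) * (l / 2 * G + E2 / (2 * l))) - (b (k + 1) - b k) ≤
      f (k + 1) - f k := by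
    intro k
    have e1 := (A₁ k).le_Vf s1 (pos y z (((k + 1 : ℕ) : ℝ) / n))
    rw [sum_inner_pos _ y z ((k : ℝ) / n), ← (A₁ k).Vf_eq s1] at e1
    have e0 := (A₀ (k + 1)).le_Vf s0 (pos y z ((k : ℝ) / n))
    rw [sum_inner_pos _ y z (((k + 1 : ℕ) : ℝ) / n), ← (A₀ (k + 1)).Vf_eq s0] at e0
    have d1 : ((k + 1 : ℕ) : ℝ) / n - (k : ℝ) / n = 1 / n := by
      push_cast; ring
    have d0 : (k : ℝ) / n - ((k + 1 : ℕ) : ℝ) / n = -(1 / n) := by
      push_cast; ring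
    rw [d1] at e1
    rw [d0] at e0
    have e2 : |∑ ω, inner ℝ ((A₁ k).bary ω) (z ω - y ω) -
        ∑ ω, inner ℝ ((A₀ k).bary ω) (z ω - y ω)| ≤ l / 2 * G + E2 / (2 * l) := by
      rw [← Finset.sum_sub_distrib]
      have t1 : ∀ ω, |inner ℝ ((A₁ k).bary ω) (z ω - y ω) -
          inner ℝ ((A₀ k).bary ω) (z ω - y ω)| ≤
          l / 2 * (m ω * ‖(m ω)⁻¹ • (A₁ k).bary ω - (m ω)⁻¹ • (A₀ k).bary ω‖ ^ 2) +
          (m ω * ‖z ω - y ω‖ ^ 2) / (2 * l) := by
        intro ω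
        set c := (m ω)⁻¹ • (A₁ k).bary ω - (m ω)⁻¹ • (A₀ k).bary ω with hc
        have hmc : (A₁ k).bary ω - (A₀ k).bary ω = m ω • c := by
          rw [hc, smul_sub, smul_inv_smul₀ (hm ω).ne', smul_inv_smul₀ (hm ω).ne']
        rw [← inner_sub_left, hmc, inner_smul_left, RCLike.conj_to_real, abs_mul,
          abs_of_pos (hm ω)]
        have u1 : |inner ℝ c (z ω - y ω)| ≤ ‖c‖ * ‖z ω - y ω‖ := abs_real_inner_le_norm _ _
        have u2 : ‖c‖ * ‖z ω - y ω‖ ≤ l / 2 * ‖c‖ ^ 2 + ‖z ω - y ω‖ ^ 2 / (2 * l) := by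
          have : l / 2 * ‖c‖ ^ 2 + ‖z ω - y ω‖ ^ 2 / (2 * l) - ‖c‖ * ‖z ω - y ω‖ =
              (l * ‖c‖ - ‖z ω - y ω‖) ^ 2 / (2 * l) := by
            field_simp
            ring
          have h2 : 0 ≤ (l * ‖c‖ - ‖z ω - y ω‖) ^ 2 / (2 * l) := by positivity
          linarith
        have u3 := mul_le_mul_of_nonneg_left (u1.trans u2) (hm ω).le
        refine u3.trans (le_of_eq ?_)
        ring
      refine (Finset.abs_sum_le_sum_abs _ _).trans ?_
      refine (Finset.sum_le_sum fun ω _ => t1 ω).trans ?_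
      rw [Finset.sum_add_distrib, ← Finset.mul_sum, ← Finset.sum_div]
      have := hG _ (hinj' k) (A₀ k) (A₁ k)
      gcongr
    have e3 := (abs_le.1 e2).1
    have e4 : (1 / (n : ℝ)) * -(l / 2 * G + E2 / (2 * l)) ≤
        (1 / (n : ℝ)) * (∑ ω, inner ℝ ((A₁ k).bary ω) (z ω - y ω) -
        ∑ ω, inner ℝ ((A₀ k).bary ω) (z ω - y ω)) :=
      mul_le_mul_of_nonneg_left e3 (by positivity)
    simp only [hf, hb]
    linarith
  have hsum : ∑ k ∈ Finset.range n, (-((1 / (n : ℝ)) * (l / 2 * G + E2 / (2 * l))) -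
      (b (k + 1) - b k)) ≤ ∑ k ∈ Finset.range n, (f (k + 1) - f k) :=
    Finset.sum_le_sum fun k _ => hstep k
  rw [Finset.sum_range_sub, Finset.sum_sub_distrib, Finset.sum_range_sub, Finset.sum_const,
    Finset.card_range, nsmul_eq_mul] at hsum
  have e1 : (n : ℝ) * -((1 / (n : ℝ)) * (l / 2 * G + E2 / (2 * l))) =
      -(l / 2 * G + E2 / (2 * l)) := by
    field_simp
  rw [e1] at hsum
  have hbk : ∀ k, |b k| ≤ 2 * a * R / n := by
    intro k
    simp only [hb]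
    rw [abs_mul, abs_of_pos (by positivity)]
    have t1 : |∑ ω, inner ℝ ((A₀ k).bary ω) (z ω - y ω)| ≤ 2 * a * R := by
      refine (Finset.abs_sum_le_sum_abs _ _).trans ?_
      have t2 : ∀ ω, |inner ℝ ((A₀ k).bary ω) (z ω - y ω)| ≤ m ω * (2 * a * R) := by
        intro ω
        refine (abs_real_inner_le_norm _ _).trans ?_
        have h5 := (A₀ k).bary_norm_le s0 ω
        have h6 := mul_le_mul h5 (hR ω) (norm_nonneg _) (mul_nonneg ha (hm ω).le)
        refine h6.trans (le_of_eq ?_)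
        ring
      refine (Finset.sum_le_sum fun ω _ => t2 ω).trans ?_
      rw [← Finset.sum_mul, hm1, one_mul]
    calc (1 / (n : ℝ)) * |∑ ω, inner ℝ ((A₀ k).bary ω) (z ω - y ω)| ≤
        (1 / (n : ℝ)) * (2 * a * R) := by gcongr
      _ = _ := by ring
  have hb0 := (abs_le.1 (hbk 0)).1
  have hbn := (abs_le.1 (hbk n)).2
  have hf0 : f 0 = Vf K₁ y m - Vf K₀ y m := by
    simp only [hf, Nat.cast_zero, zero_div, pos_zero]
  have hfn : f n = Vf K₁ z m - Vf K₀ z m := by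
    simp only [hf, div_self hn'.ne', pos_one]
  rw [hf0, hfn] at hsum
  have e5 : 4 * a * R / n = 2 * a * R / n + 2 * a * R / n := by ring
  rw [e5]
  linarith

end Vale.Agent.P074
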