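import Mathlib
import Vale.Agent.P074.Defs
import Vale.Agent.P074.Path

open MeasureTheory Set
open scoped ENNReal NNReal

namespace Vale.Agent.P074

variable {d : ℕ} {Ω : Type} [Fintype Ω] [Nonempty Ω]
variable {K : Set (E d)} {a : ℝ} {y : Ω → E d} {m : Ω → ℝ}

/-- the translated pieces -/
def Alloc.piece (A : Alloc K y m) (δ : ℝ) (ω : Ω) : Set (E d) :=
  (fun x => x - δ • y ω) ⁻¹' (A.q ⁻¹' {ω} ∩ K)

/-- the perturbed source -/
def Alloc.pert (A : Alloc K y m) (δ : ℝ) : Set (E d) := ⋃ ω, A.piece δ ω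

omit [Fintype Ω] [Nonempty Ω] in
theorem Alloc.piece_meas (A : Alloc K y m) (hK : MeasurableSet K) (δ : ℝ) (ω : Ω) :
    MeasurableSet (A.piece δ ω) :=
  ((A.meas ω).inter hK).preimage (by fun_prop)

omit [Nonempty Ω] in
theorem Alloc.pert_meas (A : Alloc K y m) (hK : MeasurableSet K) (δ : ℝ) :
    MeasurableSet (A.pert δ) := MeasurableSet.iUnion fun ω => A.piece_meas hK δ ω

omit [Fintype Ω] [Nonempty Ω] in
theorem Alloc.piece_disj (A : Alloc K y m) (hy : Function.Injective y) {δ : ℝ} (hδ : 0 < δ) :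
    Pairwise (Function.onFun Disjoint (A.piece δ)) := by
  intro ω η hne
  rw [Function.onFun, Set.disjoint_left]
  rintro x ⟨h1, -⟩ ⟨h2, -⟩
  have h1' : A.q (x - δ • y ω) = ω := h1
  have h2' : A.q (x - δ • y η) = η := h2
  have e1 := A.mem (x - δ • y ω) η
  have e2 := A.mem (x - δ • y η) ω
  rw [h1'] at e1
  rw [h2'] at e2
  have e3 : inner ℝ (x - δ • y ω) (y η) - inner ℝ (x - δ • y ω) (y ω)
      - inner ℝ (x - δ • y η) (y η) + inner ℝ (x - δ • y η) (y ω) ≤ 0 := by linarith
  have e4 : inner ℝ (x - δ • y ω) (y η) - inner ℝ (x - δ • y ω) (y ω)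
      - inner ℝ (x - δ • y η) (y η) + inner ℝ (x - δ • y η) (y ω) = δ * ‖y η - y ω‖ ^ 2 := by
    rw [← real_inner_self_eq_norm_sq]
    simp only [inner_sub_left, inner_sub_right, inner_smul_left, RCLike.conj_to_real]
    rw [real_inner_comm (y ω) (y η)]
    ring
  rw [e4] at e3
  have e5 : ‖y η - y ω‖ ^ 2 ≤ 0 := by
    by_contra hc
    push Not at hc
    have := mul_pos hδ hc
    linarith
  have e6 : ‖y η - y ω‖ = 0 := by
    have := norm_nonneg (y η - y ω)
    nlinarith
  rw [norm_sub_eq_zero_iff] at e6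
  exact hne (hy e6).symm

theorem Alloc.int_pert (A : Alloc K y m) (hK : MeasurableSet K) (hy : Function.Injective y)
    (hKa : K ⊆ Metric.closedBall 0 a) {δ : ℝ} (hδ : 0 < δ) {f : E d → ℝ} (hf : Continuous f) :
    ∫ x in A.pert δ, f x = ∫ x in K, f (x + δ • y (A.q x)) := by
  obtain ⟨R, hR⟩ := exists_bound_fin y
  have hfin : volume K ≠ ∞ :=
    ((measure_mono hKa).trans_lt (isCompact_closedBall (0 : E d) a).measure_lt_top).ne
  have hpa : ∀ ω, A.piece δ ω ⊆ Metric.closedBall 0 (a + δ * R) := by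
    rintro ω x ⟨-, hx⟩
    have h1 : ‖x - δ • y ω‖ ≤ a := by simpa using hKa hx
    have h2 : ‖x‖ ≤ ‖x - δ • y ω‖ + ‖δ • y ω‖ := by
      have := norm_add_le (x - δ • y ω) (δ • y ω)
      rwa [sub_add_cancel] at this
    rw [norm_smul, Real.norm_eq_abs, abs_of_pos hδ] at h2
    have h3 : δ * ‖y ω‖ ≤ δ * R := by gcongr; exact hR ω
    simp only [mem_closedBall_zero_iff]
    linarith
  rw [Alloc.pert, integral_iUnion_fintype (A.piece_meas hK δ) (A.piece_disj hy hδ)
    (fun ω => integrableOn_of_cont (hpa ω) hf)]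
  have hint : IntegrableOn (fun x => f (x + δ • y (A.q x))) K := by
    obtain ⟨C, hC⟩ := (isCompact_closedBall (0 : E d) (a + δ * R)).exists_bound_of_continuousOn
      hf.continuousOn
    have hm : Measurable (fun x => f (x + δ • y (A.q x))) := by
      apply hf.measurable.comp
      exact measurable_id.add ((meas_comp A.meas y).const_smul δ)
    have : IsFiniteMeasure (volume.restrict K) := ⟨by
      rw [Measure.restrict_apply MeasurableSet.univ, univ_inter]; exact hfin.lt_top⟩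
    refine Integrable.of_bound hm.aestronglyMeasurable C ?_
    rw [ae_restrict_iff' hK]
    refine Filter.Eventually.of_forall fun x hx => hC _ ?_
    rw [mem_closedBall_zero_iff]
    refine (norm_add_le _ _).trans (add_le_add (by simpa using hKa hx) ?_)
    rw [norm_smul, Real.norm_eq_abs, abs_of_pos hδ]
    gcongr; exact hR _
  rw [setIntegral_partition A.meas hK hint]
  refine Finset.sum_congr rfl fun ω _ => ?_
  have h1 : ∫ x in A.q ⁻¹' {ω} ∩ K, f (x + δ • y (A.q x)) =
      ∫ x in A.q ⁻¹' {ω} ∩ K, f (x + δ • y ω) := by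
    apply setIntegral_congr_fun ((A.meas ω).inter hK)
    rintro x ⟨hx, -⟩
    have : A.q x = ω := hx
    simp only [this]
  rw [h1]
  have mp := measurePreserving_add_right (volume : Measure (E d)) (δ • y ω)
  have := mp.setIntegral_preimage_emb (measurableEmbedding_addRight (δ • y ω)) f
    (A.piece δ ω)
  rw [← this]
  congr 2
  ext x
  simp [Alloc.piece]

theorem Alloc.vol_pert (A : Alloc K y m) (hK : MeasurableSet K) (hy : Function.Injective y)
    (hKa : K ⊆ Metric.closedBall 0 a) {δ : ℝ} (hδ : 0 < δ) :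
    volume.real (A.pert δ) = volume.real K := by
  have := A.int_pert hK hy hKa hδ (f := fun _ => 1) continuous_const
  simpa using this

omit [Fintype Ω] [Nonempty Ω] in
theorem Alloc.pert_sub (A : Alloc K y m) {R δ : ℝ} (hδ : 0 < δ) (hR : ∀ ω, ‖y ω‖ ≤ R)
    {K' : Set (E d)} (hK' : ∀ x ∈ K, ∀ b : E d, ‖b‖ ≤ δ * R → x + b ∈ K') :
    A.pert δ ⊆ K' := by
  intro x hx
  rw [Alloc.pert, mem_iUnion] at hx
  obtain ⟨ω, -, hx⟩ := hx
  have := hK' _ hx (δ • y ω) (by
    rw [norm_smul, Real.norm_eq_abs, abs_of_pos hδ]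
    gcongr; exact hR ω)
  simpa using this

end Vale.Agent.P074
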