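import Mathlib
import Vale.Agent.P074.Defs
import Vale.Agent.P074.Pert

open MeasureTheory Set
open scoped ENNReal NNReal

namespace Vale.Agent.P074

variable {d : ℕ}

theorem pow_bd (d : ℕ) {s s₀ : ℝ} (h0 : 0 ≤ s) (h : s ≤ s₀) :
    (1 + s) ^ d ≤ 1 + s * (d * (1 + s₀) ^ d) := by
  have h1 := mul_geom_sum (1 + s) d
  have h2 : ∑ i ∈ Finset.range d, (1 + s) ^ i ≤ d * (1 + s₀) ^ d := by
    calc ∑ i ∈ Finset.range d, (1 + s) ^ i ≤ ∑ _i ∈ Finset.range d, (1 + s₀) ^ d := by
          apply Finset.sum_le_sum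
          intro i hi
          rw [Finset.mem_range] at hi
          calc (1 + s) ^ i ≤ (1 + s) ^ d := by
                apply pow_le_pow_right₀ (by linarith) hi.le
            _ ≤ _ := by gcongr
      _ = _ := by simp
  have h3 : s * ∑ i ∈ Finset.range d, (1 + s) ^ i ≤ s * (d * (1 + s₀) ^ d) := by gcongr
  have h4 : (1 + s - 1) = s := by ring
  rw [h4] at h1
  linarith

theorem exists_enlarge {K : Set (E d)} (hK : IsCompact K) (hc : Convex ℝ K)
    (hi : (interior K).Nonempty) {r₀ : ℝ} (hr₀ : 0 ≤ r₀) :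
    ∃ C a : ℝ, 0 ≤ C ∧ 1 ≤ a ∧ ∀ r, 0 < r → r ≤ r₀ → ∃ K' : Set (E d), IsCompact K' ∧
      Convex ℝ K' ∧ K ⊆ K' ∧ K' ⊆ Metric.closedBall 0 a ∧
      (∀ x ∈ K, ∀ b : E d, ‖b‖ ≤ r → x + b ∈ K') ∧
      volume.real K' ≤ volume.real K + C * r := by
  obtain ⟨x₀, hx₀⟩ := hi
  obtain ⟨ρ, hρ, hball⟩ := Metric.nhds_basis_closedBall.mem_iff.1 (mem_interior_iff_mem_nhds.1 hx₀)
  have hx₀K : x₀ ∈ K := interior_subset hx₀
  obtain ⟨A, hA⟩ := hK.isBounded.exists_norm_le
  have hA0 : 0 ≤ A := (norm_nonneg x₀).trans (hA x₀ hx₀K)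
  set s₀ := r₀ / ρ with hs₀
  have hs₀0 : 0 ≤ s₀ := by positivity
  refine ⟨volume.real K * (d * (1 + s₀) ^ d) / ρ, 1 + A + (1 + s₀) * (2 * A), by positivity,
    by nlinarith, ?_⟩
  intro r hr hr'
  set s := r / ρ with hs
  have hs0 : 0 < s := by positivity
  have hss : s ≤ s₀ := by rw [hs, hs₀]; gcongr
  have hmem : ∀ x ∈ K, ∀ b : E d, ‖b‖ ≤ r → x + b ∈ AffineMap.homothety x₀ (1 + s) '' K := by
    intro x hx b hb
    refine ⟨(1 / (1 + s)) • x + (s / (1 + s)) • (x₀ + (1 / s) • b), ?_, ?_⟩
    · apply hc hx _ (by positivity) (by positivity) (by field_simp)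
      apply hball
      rw [mem_closedBall_iff_norm, add_sub_cancel_left, norm_smul, Real.norm_eq_abs,
        abs_of_pos (by positivity)]
      rw [hs, one_div, inv_div]
      calc ρ / r * ‖b‖ ≤ ρ / r * r := by gcongr
        _ = ρ := by field_simp
    · rw [AffineMap.homothety_apply, vsub_eq_sub, vadd_eq_add]
      have h1 : (1 + s) ≠ 0 := by positivity
      simp only [smul_sub, smul_add, smul_smul]
      have e1 : (1 + s) * (1 / (1 + s)) = 1 := by field_simp
      have e2 : (1 + s) * (s / (1 + s)) = s := by field_simp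
      have e3 : (1 + s) * (s / (1 + s) * (1 / s)) = 1 := by field_simp
      rw [e1, e2, e3]
      module
  refine ⟨AffineMap.homothety x₀ (1 + s) '' K, ?_, ?_, ?_, ?_, hmem, ?_⟩
  · apply hK.image
    exact AffineMap.homothety_continuous x₀ (1 + s)
  · exact hc.affine_image _
  · intro x hx
    have := hmem x hx 0 (by simpa using hr.le)
    simpa using this
  · rintro _ ⟨x, hx, rfl⟩
    rw [AffineMap.homothety_apply, vsub_eq_sub, vadd_eq_add, mem_closedBall_zero_iff]
    refine (norm_add_le _ _).trans ?_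
    rw [norm_smul, Real.norm_eq_abs, abs_of_pos (by positivity)]
    have h1 : ‖x - x₀‖ ≤ 2 * A := (norm_sub_le _ _).trans (by linarith [hA x hx, hA x₀ hx₀K])
    have h2 : (1 + s) * ‖x - x₀‖ ≤ (1 + s₀) * (2 * A) := by gcongr
    linarith [hA x₀ hx₀K]
  · rw [measureReal_def, Measure.addHaar_image_homothety, ENNReal.toReal_mul,
      ENNReal.toReal_ofReal (abs_nonneg _), finrank_euclideanSpace, Fintype.card_fin,
      abs_of_nonneg (by positivity)]
    have := pow_bd d hs0.le hss
    have h0 : (0 : ℝ) ≤ volume.real K := measureReal_nonneg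
    have h2 : (1 + s) ^ d * volume.real K ≤ (1 + s * (d * (1 + s₀) ^ d)) * volume.real K := by
      gcongr
    rw [measureReal_def] at h2 ⊢
    refine h2.trans (le_of_eq ?_)
    rw [hs]
    field_simp


section
variable {Ω : Type} [Fintype Ω] [Nonempty Ω]

/-- second difference -/
noncomputable def dd (u : E d → ℝ) (w x : E d) : ℝ := u (x + w) + u (x - w) - 2 * u x

/-- coordinate vector -/
noncomputable def ev (i : Fin d) (s : ℝ) : E d := s • EuclideanSpace.single i (1 : ℝ)

theorem inner_ev (i : Fin d) (s : ℝ) (p : E d) : inner ℝ (ev i s) p = s * p i := by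
  simp [ev, inner_smul_left, EuclideanSpace.inner_single_left]

theorem norm_ev (i : Fin d) {s : ℝ} (hs : 0 ≤ s) : ‖(ev i s : E d)‖ = s := by
  simp [ev, norm_smul, abs_of_nonneg hs]

theorem sum_abs_le (v : E d) : ∑ i, |v i| ≤ d * ‖v‖ := by
  calc ∑ i, |v i| ≤ ∑ _i : Fin d, ‖v‖ := by
        apply Finset.sum_le_sum
        intro i _
        exact PiLp.norm_apply_le v i
    _ = _ := by simp

theorem rem_pt (P : Ω → E d) (ψ : Ω → ℝ) {x v : E d} {η : Ω} (hx : x ∈ cell P ψ η) {s : ℝ}
    (hs : 0 < s) (hv : ∑ i, |v i| ≤ s) :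
    phi P ψ (x + v) - phi P ψ x ≤ inner ℝ v (P η) + ∑ i, dd (phi P ψ) (ev i s) x := by
  obtain ⟨ω, hω⟩ := exists_mem_cell P ψ (x + v)
  rw [phi_eq_of_mem hω]
  set β : ℝ := inner ℝ x (P ω) - ψ ω - phi P ψ x with hβ
  have hβ0 : β ≤ 0 := by
    have := le_phi P ψ x ω
    linarith
  -- lower bounds for second differences
  have hG : ∀ i, |v i| / s * β + v i * (P ω i - P η i) ≤
      |v i| / s * dd (phi P ψ) (ev i s) x := by
    intro i
    have h1 : ∀ t : ℝ, phi P ψ (x + ev i t) ≥ phi P ψ x + t * P η i := by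
      intro t
      have := le_phi P ψ (x + ev i t) η
      rw [inner_add_left, inner_ev] at this
      rw [phi_eq_of_mem hx]
      linarith
    have h2 : ∀ t : ℝ, phi P ψ (x + ev i t) ≥ phi P ψ x + β + t * P ω i := by
      intro t
      have := le_phi P ψ (x + ev i t) ω
      rw [inner_add_left, inner_ev] at this
      linarith
    have hneg : x - ev i s = x + ev i (-s) := by
      simp only [ev]; module
    have h3 : β + s * (P ω i - P η i) ≤ dd (phi P ψ) (ev i s) x := by
      rw [dd, hneg]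
      have := h2 s
      have := h1 (-s)
      linarith
    have h4 : β - s * (P ω i - P η i) ≤ dd (phi P ψ) (ev i s) x := by
      rw [dd, hneg]
      have := h1 s
      have := h2 (-s)
      linarith
    have h5 : β + s * |P ω i - P η i| ≤ dd (phi P ψ) (ev i s) x := by
      rcases abs_cases (P ω i - P η i) with ⟨h, _⟩ | ⟨h, _⟩ <;> rw [h] <;> linarith
    have h6 : v i * (P ω i - P η i) ≤ |v i| * |P ω i - P η i| := by
      rw [← abs_mul]; exact le_abs_self _
    have h7 : |v i| / s * (β + s * |P ω i - P η i|) ≤ |v i| / s * dd (phi P ψ) (ev i s) x := by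
      gcongr
    have h8 : |v i| / s * (β + s * |P ω i - P η i|) =
        |v i| / s * β + |v i| * |P ω i - P η i| := by
      field_simp
    linarith
  have hdd0 : ∀ i, 0 ≤ dd (phi P ψ) (ev i s) x := by
    intro i
    have h1 : ∀ t : ℝ, phi P ψ (x + ev i t) ≥ phi P ψ x + t * P η i := by
      intro t
      have := le_phi P ψ (x + ev i t) η
      rw [inner_add_left, inner_ev] at this
      rw [phi_eq_of_mem hx]
      linarith
    have hneg : x - ev i s = x + ev i (-s) := by
      simp only [ev]; module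
    rw [dd, hneg]
    have := h1 s
    have := h1 (-s)
    linarith
  have hle : ∀ i, |v i| / s * dd (phi P ψ) (ev i s) x ≤ dd (phi P ψ) (ev i s) x := by
    intro i
    have h1 : |v i| ≤ s :=
      (Finset.single_le_sum (f := fun i => |v i|) (fun _ _ => abs_nonneg _)
        (Finset.mem_univ i)).trans hv
    have h2 : |v i| / s ≤ 1 := by rw [div_le_one hs]; exact h1
    have := mul_le_mul_of_nonneg_right h2 (hdd0 i)
    linarith
  have hsum := Finset.sum_le_sum fun i (_ : i ∈ (Finset.univ : Finset (Fin d))) =>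
    (hG i).trans (hle i)
  rw [Finset.sum_add_distrib, ← Finset.sum_mul, ← Finset.sum_div] at hsum
  have h1 : (∑ i, |v i|) / s ≤ 1 := by rw [div_le_one hs]; exact hv
  have h2 : β ≤ (∑ i, |v i|) / s * β := by
    have := mul_le_mul_of_nonpos_right h1 hβ0
    linarith
  have h3 : ∑ i, v i * (P ω i - P η i) = inner ℝ v (P ω) - inner ℝ v (P η) := by
    rw [← inner_sub_right, PiLp.inner_apply]
    refine Finset.sum_congr rfl fun i _ => ?_
    simp [mul_comm]
  rw [h3] at hsum
  rw [inner_add_left]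
  linarith

theorem int_dd {K K' : Set (E d)} {a R : ℝ} (hK : MeasurableSet K) (hK' : MeasurableSet K')
    (hKK' : K ⊆ K') (hK'a : K' ⊆ Metric.closedBall 0 a) {w : E d}
    (hw : ∀ x ∈ K, x + (-w) ∈ K') {u : E d → ℝ} (hu : Continuous u)
    (hlip : ∀ x y, |u x - u y| ≤ R * ‖x - y‖) :
    ∫ x in K, dd u w x ≤ 2 * (R * ‖w‖) * (volume.real K' - volume.real K) := by
  have hfin' : volume K' ≠ ∞ :=
    ((measure_mono hK'a).trans_lt (isCompact_closedBall (0 : E d) a).measure_lt_top).ne
  have hKa := hKK'.trans hK'a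
  set g : E d → ℝ := fun x => u (x + w) - u x with hg
  have hgc : Continuous g := by fun_prop
  have hgb : ∀ x, |g x| ≤ R * ‖w‖ := by
    intro x
    have := hlip (x + w) x
    rwa [add_sub_cancel_left] at this
  have h1 : ∫ x in K, dd u w x = (∫ x in K, g x) - ∫ x in K, g (x - w) := by
    rw [← integral_sub (integrableOn_of_cont hKa hgc)
      (integrableOn_of_cont hKa (by fun_prop : Continuous fun x => g (x - w)))]
    congr 1
    ext x
    simp only [dd, hg, sub_add_cancel]
    ring
  set Kw : Set (E d) := (fun x => x + w) ⁻¹' K with hKw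
  have hKwm : MeasurableSet Kw := hK.preimage (by fun_prop)
  have hKwK' : Kw ⊆ K' := by
    intro x hx
    have := hw _ hx
    simpa using this
  have hKwv : volume.real Kw = volume.real K := by
    rw [measureReal_def, hKw, measure_preimage_add_right, measureReal_def]
  have h2 : ∫ x in K, g (x - w) = ∫ x in Kw, g x := by
    have mp := measurePreserving_sub_right (volume : Measure (E d)) w
    have h := mp.setIntegral_preimage_emb (MeasurableEquiv.subRight w).measurableEmbedding g Kw
    rw [← h]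
    congr 2
    ext x
    simp [hKw]
  have hsplit : ∀ S : Set (E d), MeasurableSet S → S ⊆ K' →
      ∫ x in S, g x = (∫ x in K', g x) - ∫ x in K' \ S, g x := by
    intro S hS hSK'
    have : ∫ x in K', g x = (∫ x in S, g x) + ∫ x in K' \ S, g x := by
      rw [← setIntegral_union disjoint_sdiff_right (hK'.diff hS)
        (integrableOn_of_cont (hSK'.trans hK'a) hgc)
        (integrableOn_of_cont (sdiff_subset.trans hK'a) hgc), union_sdiff_cancel hSK']
    linarith
  have hbd : ∀ S : Set (E d), MeasurableSet S → S ⊆ K' → volume.real S = volume.real K →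
      |∫ x in K' \ S, g x| ≤ R * ‖w‖ * (volume.real K' - volume.real K) := by
    intro S hS hSK' hSv
    have := norm_setIntegral_le_of_norm_le_const (μ := volume) (s := K' \ S) (f := g)
      (C := R * ‖w‖) ((measure_mono sdiff_subset).trans_lt hfin'.lt_top) (fun x _ => hgb x)
    rw [Real.norm_eq_abs, measureReal_sdiff hSK' hS, hSv] at this
    exact this
  rw [h1, h2, hsplit K hK hKK', hsplit Kw hKwm hKwK']
  have b1 := (abs_le.1 (hbd K hK hKK' rfl)).1
  have b2 := (abs_le.1 (hbd Kw hKwm hKwK' hKwv)).2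
  linarith

end

end Vale.Agent.P074
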