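import Mathlib
import Vale.Agent.P074.Defs
import Vale.Agent.P074.Rem

open MeasureTheory Set
open scoped ENNReal NNReal

namespace Vale.Agent.P074

variable {d : ℕ} {Ω : Type} [Fintype Ω] [Nonempty Ω]

theorem integral_unif' (K : Set (E d)) {F : Type*} [NormedAddCommGroup F] [NormedSpace ℝ F]
    (f : E d → F) : ∫ x, f x ∂(unif K) = (volume.real K)⁻¹ • ∫ x in K, f x := by
  have := integral_unif (K := K) univ MeasurableSet.univ f
  rwa [setIntegral_univ, univ_inter] at this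

section
variable {K : Set (E d)} {a R : ℝ} {y z : Ω → E d} {m : Ω → ℝ}

omit [Nonempty Ω] in
theorem Alloc.integrable_pert (A : Alloc K y m) (hσ : unif K (Metric.closedBall 0 a)ᶜ = 0)
    [IsProbabilityMeasure (unif K)] {f : E d → ℝ} (hf : Continuous f) (δ : ℝ) :
    Integrable (fun x => f (x + δ • y (A.q x))) (unif K) := by
  obtain ⟨R, hR⟩ := exists_bound_fin y
  obtain ⟨C, hC⟩ := (isCompact_closedBall (0 : E d) (a + |δ| * R)).exists_bound_of_continuousOn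
      hf.continuousOn
  have hm : Measurable (fun x => f (x + δ • y (A.q x))) := by
    apply hf.measurable.comp
    exact measurable_id.add ((meas_comp A.meas y).const_smul δ)
  refine Integrable.of_bound hm.aestronglyMeasurable C ?_
  filter_upwards [ae_ball hσ] with x hx
  apply hC
  rw [mem_closedBall_zero_iff]
  refine (norm_add_le _ _).trans (add_le_add hx ?_)
  rw [norm_smul, Real.norm_eq_abs]
  gcongr; exact hR _

theorem Alloc.int_unif_pert (A : Alloc K y m) (hK : MeasurableSet K)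
    (hy : Function.Injective y) (hKa : K ⊆ Metric.closedBall 0 a) {δ : ℝ} (hδ : 0 < δ)
    {f : E d → ℝ} (hf : Continuous f) :
    ∫ x, f x ∂(unif (A.pert δ)) = ∫ x, f (x + δ • y (A.q x)) ∂(unif K) := by
  rw [integral_unif', integral_unif', A.vol_pert hK hy hKa hδ, A.int_pert hK hy hKa hδ hf]

/-- (a) -/
theorem Alloc.Vf_pert_ge (A : Alloc K y m) (hK : MeasurableSet K)
    (hy : Function.Injective y) (hKa : K ⊆ Metric.closedBall 0 a)
    [IsProbabilityMeasure (unif K)] {δ : ℝ} (hδ : 0 < δ) :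
    Vf K y m + δ * ∫ x, ‖y (A.q x)‖ ^ 2 ∂(unif K) ≤ Vf (A.pert δ) y m := by
  have hσ := unif_ball hK hKa
  refine le_ciInf fun ψ' => ?_
  rw [Jf, A.int_unif_pert hK hy hKa hδ (continuous_phi y ψ'), A.Vf_eq hσ, ← A.sum_bary hσ,
    ← A.sum_mass ψ', ← integral_const_mul, ← integral_add (integrable_inner_comp hσ A.meas y)
      ((integrable_comp A.meas (fun ω => ‖y ω‖ ^ 2)).const_mul δ),
    ← integral_add (A.integrable_pert hσ (continuous_phi y ψ') δ) (integrable_comp A.meas _)]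
  apply integral_mono
  · exact (integrable_inner_comp hσ A.meas y).add
      ((integrable_comp A.meas (fun ω => ‖y ω‖ ^ 2)).const_mul δ)
  · exact (A.integrable_pert hσ (continuous_phi y ψ') δ).add (integrable_comp A.meas _)
  · intro x
    have h := le_phi y ψ' (x + δ • y (A.q x)) (A.q x)
    rw [inner_add_left, inner_smul_left, RCLike.conj_to_real, real_inner_self_eq_norm_sq] at h
    simp only
    linarith

/-- (b) -/
theorem Alloc.Vf_pert_le (A : Alloc K y m) (B : Alloc K z m) (hK : MeasurableSet K)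
    (hy : Function.Injective y) (hKa : K ⊆ Metric.closedBall 0 a)
    [IsProbabilityMeasure (unif K)] {δ s : ℝ} (hδ : 0 < δ)
    [IsProbabilityMeasure (unif (A.pert δ))]
    {a' : ℝ} (hσ' : unif (A.pert δ) (Metric.closedBall 0 a')ᶜ = 0) (A' : Alloc (A.pert δ) z m)
    (hR : ∀ ω, ‖y ω‖ ≤ R) (hs : 0 < s) (hs2 : d * (δ * R) ≤ s) :
    Vf (A.pert δ) z m ≤ Vf K z m + δ * ∫ x, (inner ℝ (y (A.q x)) (z (B.q x)) : ℝ) ∂(unif K) +
      ∑ i, ∫ x, dd (phi z B.ψ) (ev i s) x ∂(unif K) := by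
  have hσ := unif_ball hK hKa
  have hyz : Integrable (fun x => (inner ℝ (y (A.q x)) (z (B.q x)) : ℝ)) (unif K) := by
    obtain ⟨C1, hC1⟩ := exists_bound_fin y
    obtain ⟨C2, hC2⟩ := exists_bound_fin z
    refine Integrable.of_bound
      ((meas_comp A.meas y).inner (meas_comp B.meas z)).aestronglyMeasurable (C1 * C2)
      (Filter.Eventually.of_forall fun x => ?_)
    rw [Real.norm_eq_abs]
    exact (abs_real_inner_le_norm _ _).trans (mul_le_mul (hC1 _) (hC2 _) (norm_nonneg _)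
      ((norm_nonneg _).trans (hC1 (A.q x))))
  have hdd : ∀ i, Integrable (dd (phi z B.ψ) (ev i s)) (unif K) := by
    intro i
    apply integrable_cont' hσ
    have := continuous_phi z B.ψ
    unfold dd
    fun_prop
  refine (A'.Vf_le hσ' z B.ψ).trans ?_
  rw [Jf, A.int_unif_pert hK hy hKa hδ (continuous_phi z B.ψ), B.Vf_eq hσ, ← B.J_eq hσ, Jf,
    ← integral_const_mul, ← integral_finsetSum _ (fun i _ => hdd i)]
  have h1 : Integrable (fun x => phi z B.ψ x + δ * (inner ℝ (y (A.q x)) (z (B.q x)) : ℝ))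
      (unif K) := (integrable_phi hσ z B.ψ).add (hyz.const_mul δ)
  have h2 : Integrable (fun x => ∑ i, dd (phi z B.ψ) (ev i s) x) (unif K) :=
    integrable_finsetSum _ fun i _ => hdd i
  have key : ∫ x, phi z B.ψ (x + δ • y (A.q x)) ∂(unif K) ≤
      ∫ x, ((phi z B.ψ x + δ * (inner ℝ (y (A.q x)) (z (B.q x)) : ℝ)) +
        ∑ i, dd (phi z B.ψ) (ev i s) x) ∂(unif K) := by
    apply integral_mono (A.integrable_pert hσ (continuous_phi z B.ψ) δ) (h1.add h2)
    intro x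
    have h := rem_pt z B.ψ (v := δ • y (A.q x)) (B.mem x) hs (by
      refine (sum_abs_le _).trans (le_trans ?_ hs2)
      rw [norm_smul, Real.norm_eq_abs, abs_of_pos hδ]
      gcongr; exact hR _)
    rw [inner_smul_left, RCLike.conj_to_real] at h
    simp only [Pi.add_apply]
    linarith
  rw [integral_add h1 h2, integral_add (integrable_phi hσ z B.ψ) (hyz.const_mul δ)] at key
  linarith

end


theorem core_arith {h' g a R δ E2 n I : ℝ} (hh0 : 0 ≤ h') (hg0 : 0 ≤ g) (t3 : 0 ≤ a * R)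
    (hδ : 0 < δ) (hE20 : 0 ≤ E2) (hn' : 0 < n)
    (hfin : δ * I ≤ h' * δ ^ 2 + (δ / 2 * (g * δ) + E2 / (2 * δ)) + 4 * a * R / n) :
    I ≤ (h' + g / 2 + 1 + 4 * a * R) * (δ + E2 / δ ^ 2 + 1 / (n * δ)) := by
  have hfin2 : I ≤ (h' * δ ^ 2 + (δ / 2 * (g * δ) + E2 / (2 * δ)) + 4 * a * R / n) / δ := by
    rw [le_div_iff₀ hδ]; linarith
  refine hfin2.trans ?_
  have e1 : (h' * δ ^ 2 + (δ / 2 * (g * δ) + E2 / (2 * δ)) + 4 * a * R / n) / δ =
      (h' + g / 2) * δ + (1 / 2) * (E2 / δ ^ 2) + 4 * (a * R) * (1 / (n * δ)) := by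
    field_simp
    ring
  rw [e1, mul_assoc 4 a R]
  have t1 : 0 ≤ E2 / δ ^ 2 := by positivity
  have t2 : 0 ≤ 1 / ((n : ℝ) * δ) := by positivity
  generalize E2 / δ ^ 2 = u at *
  generalize 1 / ((n : ℝ) * δ) = w at *
  generalize a * R = b at *
  have m1 := mul_nonneg hh0 t1
  have m2 := mul_nonneg hh0 t2
  have m3 := mul_nonneg hg0 t1
  have m4 := mul_nonneg hg0 t2
  have m5 := mul_nonneg t3 t1
  have m6 := mul_nonneg t3 hδ.le
  nlinarith

/-- one-sided core estimate -/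
theorem core_half {K : Set (E d)} (hK : IsCompact K) (hc : Convex ℝ K)
    (hi : (interior K).Nonempty) {R : ℝ} (hR1 : 1 ≤ R) :
    ∃ C : ℝ, 0 ≤ C ∧ ∀ δ : ℝ, 0 < δ → δ ≤ 1 → ∀ (Ω : Type) [Fintype Ω] [Nonempty Ω]
      (m : Ω → ℝ) (y z : Ω → E d), (∀ ω, 0 < m ω) → ∑ ω, m ω = 1 →
      (∀ s : ℚ, Function.Injective (pos y z s)) → (∀ ω, ‖y ω‖ ≤ R) → (∀ ω, ‖z ω‖ ≤ R) →
      ∀ (A : Alloc K y m) (B : Alloc K z m) (n : ℕ), 0 < n →
      (∫ x, ‖y (A.q x)‖ ^ 2 ∂(unif K)) - (∫ x, (inner ℝ (y (A.q x)) (z (B.q x)) : ℝ) ∂(unif K)) ≤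
        C * (δ + (∑ ω, m ω * ‖z ω - y ω‖ ^ 2) / δ ^ 2 + 1 / (n * δ)) := by
  have hR0 : 0 ≤ R := by linarith
  set c : ℝ := (d + 1) * R with hcdef
  have hc0 : 0 < c := by positivity
  obtain ⟨C₀, a, hC₀, ha, henl⟩ := exists_enlarge hK hc hi hc0.le
  have hKm : MeasurableSet K := hK.isClosed.measurableSet
  have hV0' : volume K ≠ 0 := by
    have : 0 < volume (interior K) := isOpen_interior.measure_pos _ hi
    exact (this.trans_le (measure_mono interior_subset)).ne'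
  have hVt : volume K ≠ ∞ := hK.measure_lt_top.ne
  obtain ⟨V, hVdef⟩ : ∃ V, V = volume.real K := ⟨_, rfl⟩
  have hV : 0 < V := by
    rw [hVdef, measureReal_def]; exact ENNReal.toReal_pos hV0' hVt
  obtain ⟨κ, hκdef⟩ : ∃ κ : ℝ, κ = 1 / (1 + 4 * a ^ 2) := ⟨_, rfl⟩
  have hκ : κ * (1 + 4 * a ^ 2) = 1 := by
    rw [hκdef]; field_simp
  have hκ0 : 0 < κ := by rw [hκdef]; positivity
  obtain ⟨τ, hτ⟩ : ∃ τ : ℝ, τ = κ / 8 := ⟨_, rfl⟩
  have hτ0 : 0 < τ := by rw [hτ]; positivity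
  obtain ⟨g, hg⟩ : ∃ g : ℝ, g = 16 * C₀ * c / (τ * κ * V) := ⟨_, rfl⟩
  have hg0 : 0 ≤ g := by rw [hg]; positivity
  obtain ⟨h', hh⟩ : ∃ h' : ℝ, h' = d * (V⁻¹ * (2 * (R * c) * (C₀ * c))) := ⟨_, rfl⟩
  have hh0 : 0 ≤ h' := by rw [hh]; positivity
  refine ⟨h' + g / 2 + 1 + 4 * a * R, by positivity, ?_⟩
  intro δ hδ hδ1 Ω _ _ m y z hm hm1 hinj hyR hzR A B n hn
  have hn' : (0 : ℝ) < n := by exact_mod_cast hn
  obtain ⟨K', hK'c, hK'conv, hKK', hK'a, hmem, hvol⟩ := henl (c * δ) (by positivity)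
    (by nlinarith)
  have hK'm : MeasurableSet K' := hK'c.isClosed.measurableSet
  have hKa := hKK'.trans hK'a
  have hy : Function.Injective y := by
    have := hinj 0
    rwa [Rat.cast_zero, pos_zero] at this
  have hz : Function.Injective z := by
    have := hinj 1
    rwa [Rat.cast_one, pos_one] at this
  have hdδ : δ * R ≤ c * δ := by
    rw [hcdef]
    have : 0 ≤ (d : ℝ) * R * δ := by positivity
    nlinarith
  have hdδ2 : d * (δ * R) ≤ c * δ := by
    rw [hcdef]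
    have : 0 ≤ R * δ := by positivity
    nlinarith
  have hK1sub : A.pert δ ⊆ K' := A.pert_sub hδ hyR fun x hx b hb => hmem x hx b (hb.trans hdδ)
  have hK1m := A.pert_meas hKm δ
  have hK1v : volume.real (A.pert δ) = V := by rw [A.vol_pert hKm hy hKa hδ, hVdef]
  have hK1a := hK1sub.trans hK'a
  have hK1t : volume (A.pert δ) ≠ ∞ :=
    ((measure_mono hK1a).trans_lt (isCompact_closedBall (0 : E d) a).measure_lt_top).ne
  have hK10 : volume (A.pert δ) ≠ 0 := by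
    intro h
    rw [measureReal_def, h] at hK1v
    simp at hK1v
    exact hV.ne hK1v
  have hp0 := unif_prob hV0' hVt
  have hp1 := unif_prob hK10 hK1t
  have hσ := unif_ball hKm hKa
  have hσ1 := unif_ball hK1m hK1a
  obtain ⟨A'⟩ := exists_alloc (by linarith) hK1m hK1a hK10 hz hm hm1
  have hvol' : volume.real K' - V ≤ C₀ * (c * δ) := by rw [hVdef]; linarith
  -- barycenter stability
  have hG : ∀ P : Ω → E d, Function.Injective P → ∀ (A₀ : Alloc K P m)
      (A₁ : Alloc (A.pert δ) P m),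
      ∑ ω, m ω * ‖(m ω)⁻¹ • A₁.bary ω - (m ω)⁻¹ • A₀.bary ω‖ ^ 2 ≤ g * δ := by
    intro P hP A₀ A₁
    have := (xprime ha hκ hτ hKm hK1m hK'm hK'a hK'conv hKK' hK1sub hV hVdef.symm hK1v hP hm hm1
      A₀ A₁).trans hvol'
    have h2 : τ * κ / 16 * V * (∑ ω, m ω * ‖(m ω)⁻¹ • A₁.bary ω - (m ω)⁻¹ • A₀.bary ω‖ ^ 2) ≤
        τ * κ / 16 * V * (g * δ) := by
      have e : τ * κ / 16 * V * (g * δ) = C₀ * (c * δ) := by
        rw [hg]; field_simp
      rw [e]
      linarith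
    exact le_of_mul_le_mul_left h2 (by positivity)
  have hpath := path_ineq (K₀ := K) (K₁ := A.pert δ) (a := a) (by linarith) hKm hK1m hKa hK1a
    hV0' hK10 hm hm1 hinj (R := R)
    (fun ω => (norm_sub_le _ _).trans (by linarith [hyR ω, hzR ω])) hG le_rfl hδ hn
  have hA := A.Vf_pert_ge hKm hy hKa hδ
  have hB := A.Vf_pert_le B hKm hy hKa (s := c * δ) hδ hσ1 A' hyR (by positivity) hdδ2
  have hdd : ∀ i, ∫ x, dd (phi z B.ψ) (ev i (c * δ)) x ∂(unif K) ≤
      V⁻¹ * (2 * (R * (c * δ)) * (C₀ * (c * δ))) := by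
    intro i
    have h0 : 0 ≤ c * δ := by positivity
    rw [integral_unif', smul_eq_mul, ← hVdef]
    have h1 := int_dd (w := ev i (c * δ)) hKm hK'm hKK' hK'a
      (fun x hx => hmem x hx _ (by rw [norm_neg, norm_ev i h0]))
      (continuous_phi z B.ψ) (phi_lip hzR B.ψ)
    rw [norm_ev i h0, ← hVdef] at h1
    have h2 : 2 * (R * (c * δ)) * (volume.real K' - V) ≤
        2 * (R * (c * δ)) * (C₀ * (c * δ)) := by gcongr
    have h3 : 0 ≤ V⁻¹ := by positivity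
    exact mul_le_mul_of_nonneg_left (h1.trans h2) h3
  have hdds : ∑ i : Fin d, ∫ x, dd (phi z B.ψ) (ev i (c * δ)) x ∂(unif K) ≤ h' * δ ^ 2 := by
    refine (Finset.sum_le_sum fun i _ => hdd i).trans (le_of_eq ?_)
    rw [Finset.sum_const, Finset.card_univ, Fintype.card_fin, nsmul_eq_mul, hh]
    ring
  set E2 := ∑ ω, m ω * ‖z ω - y ω‖ ^ 2 with hE2
  have hE20 : 0 ≤ E2 := Finset.sum_nonneg fun ω _ => mul_nonneg (hm ω).le (by positivity)
  set I1 := ∫ x, ‖y (A.q x)‖ ^ 2 ∂(unif K)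
  set I2 := ∫ x, (inner ℝ (y (A.q x)) (z (B.q x)) : ℝ) ∂(unif K)
  have hfin : δ * (I1 - I2) ≤ h' * δ ^ 2 + (δ / 2 * (g * δ) + E2 / (2 * δ)) + 4 * a * R / n := by
    linarith
  exact core_arith hh0 hg0 (by positivity) hδ hE20 hn' hfin


/-- the core estimate for finitely supported targets -/
theorem core {K : Set (E d)} (hK : IsCompact K) (hc : Convex ℝ K)
    (hi : (interior K).Nonempty) {R : ℝ} (hR1 : 1 ≤ R) :
    ∃ C : ℝ, 0 ≤ C ∧ ∀ δ : ℝ, 0 < δ → δ ≤ 1 → ∀ (Ω : Type) [Fintype Ω] [Nonempty Ω]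
      (m : Ω → ℝ) (y z : Ω → E d), (∀ ω, 0 < m ω) → ∑ ω, m ω = 1 →
      (∀ s : ℚ, Function.Injective (pos y z s)) → (∀ ω, ‖y ω‖ ≤ R) → (∀ ω, ‖z ω‖ ≤ R) →
      ∀ (A : Alloc K y m) (B : Alloc K z m) (n : ℕ), 0 < n →
      ∫ x, ‖y (A.q x) - z (B.q x)‖ ^ 2 ∂(unif K) ≤
        C * (δ + (∑ ω, m ω * ‖z ω - y ω‖ ^ 2) / δ ^ 2 + 1 / (n * δ)) := by
  obtain ⟨C, hC0, hC⟩ := core_half hK hc hi hR1
  refine ⟨2 * C, by positivity, ?_⟩
  intro δ hδ hδ1 Ω _ _ m y z hm hm1 hinj hyR hzR A B n hn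
  have h1 := hC δ hδ hδ1 Ω m y z hm hm1 hinj hyR hzR A B n hn
  have hinj' : ∀ s : ℚ, Function.Injective (pos z y s) := by
    intro s
    have := hinj (1 - s)
    rw [pos_swap]
    push_cast at this
    exact this
  have h2 := hC δ hδ hδ1 Ω m z y hm hm1 hinj' hzR hyR B A n hn
  have e1 : ∑ ω, m ω * ‖y ω - z ω‖ ^ 2 = ∑ ω, m ω * ‖z ω - y ω‖ ^ 2 :=
    Finset.sum_congr rfl fun ω _ => by rw [norm_sub_rev]
  have e2 : ∫ x, (inner ℝ (z (B.q x)) (y (A.q x)) : ℝ) ∂(unif K) =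
      ∫ x, (inner ℝ (y (A.q x)) (z (B.q x)) : ℝ) ∂(unif K) := by
    congr 1
    ext x
    rw [real_inner_comm]
  rw [e1, e2] at h2
  have hKm : MeasurableSet K := hK.isClosed.measurableSet
  have hV0' : volume K ≠ 0 := by
    have : 0 < volume (interior K) := isOpen_interior.measure_pos _ hi
    exact (this.trans_le (measure_mono interior_subset)).ne'
  have hp := unif_prob hV0' hK.measure_lt_top.ne
  have hyz : Integrable (fun x => (inner ℝ (y (A.q x)) (z (B.q x)) : ℝ)) (unif K) := by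
    obtain ⟨C1, hC1⟩ := exists_bound_fin y
    obtain ⟨C2, hC2⟩ := exists_bound_fin z
    refine Integrable.of_bound
      ((meas_comp A.meas y).inner (meas_comp B.meas z)).aestronglyMeasurable (C1 * C2)
      (Filter.Eventually.of_forall fun x => ?_)
    rw [Real.norm_eq_abs]
    exact (abs_real_inner_le_norm _ _).trans (mul_le_mul (hC1 _) (hC2 _) (norm_nonneg _)
      ((norm_nonneg _).trans (hC1 (A.q x))))
  have i1 : Integrable (fun x => ‖y (A.q x)‖ ^ 2) (unif K) :=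
    integrable_comp A.meas (fun ω => ‖y ω‖ ^ 2)
  have i2 : Integrable (fun x => ‖z (B.q x)‖ ^ 2) (unif K) :=
    integrable_comp B.meas (fun ω => ‖z ω‖ ^ 2)
  have e3 : ∫ x, ‖y (A.q x) - z (B.q x)‖ ^ 2 ∂(unif K) =
      (∫ x, ‖y (A.q x)‖ ^ 2 ∂(unif K)) - 2 * (∫ x, (inner ℝ (y (A.q x)) (z (B.q x)) : ℝ) ∂(unif K))
      + ∫ x, ‖z (B.q x)‖ ^ 2 ∂(unif K) := by
    have i3 : Integrable (fun x => ‖y (A.q x)‖ ^ 2 - 2 * (inner ℝ (y (A.q x)) (z (B.q x)) : ℝ))
      (unif K) := i1.sub (hyz.const_mul 2)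
    rw [← integral_const_mul, ← integral_sub i1 (hyz.const_mul 2),
      ← integral_add i3 i2]
    congr 1
    ext x
    rw [norm_sub_sq_real]
  rw [e3]
  linarith

end Vale.Agent.P074
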