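import Mathlib
import Vale.Agent.P074.Defs
import Vale.Agent.P074.Cube

open MeasureTheory Set ProbabilityTheory Filter Topology
open scoped ENNReal NNReal unitInterval

namespace Vale.Agent.P074

theorem continuous_cdf {l : Measure ℝ} [IsProbabilityMeasure l] (h : ∀ c, l {c} = 0) :
    Continuous (cdf l) := by
  rw [continuous_iff_continuousAt]
  intro c
  rw [(monotone_cdf l).continuousAt_iff_leftLim_eq_rightLim, (cdf l).rightLim_eq]
  have h1 := (cdf l).measure_singleton c
  rw [measure_cdf, h] at h1
  have h2 := ENNReal.ofReal_eq_zero.1 h1.symm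
  apply le_antisymm
  · exact (monotone_cdf l).leftLim_le le_rfl
  · linarith

theorem cdf_uniform {l : Measure ℝ} [IsProbabilityMeasure l] (h : ∀ c, l {c} = 0) {t : ℝ}
    (h0 : 0 ≤ t) (h1 : t ≤ 1) : l {s | cdf l s ≤ t} = ENNReal.ofReal t := by
  have hcont := continuous_cdf h
  rcases eq_or_lt_of_le h1 with rfl | h1
  · have : {s | cdf l s ≤ 1} = univ := by
      ext s; simp [cdf_le_one]
    rw [this]; simp
  apply le_antisymm
  · rcases ({s | cdf l s ≤ t}).eq_empty_or_nonempty with he | hne
    · rw [he]; simp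
    · have hbdd : BddAbove {s | cdf l s ≤ t} := by
        have := (tendsto_cdf_atTop l).eventually (lt_mem_nhds h1)
        obtain ⟨b, hb⟩ := this.exists
        refine ⟨b, fun s hs => ?_⟩
        by_contra hc
        push Not at hc
        have := monotone_cdf l hc.le
        have hs' : cdf l s ≤ t := hs
        linarith
      have hclosed : IsClosed {s | cdf l s ≤ t} := isClosed_le hcont continuous_const
      have hmem := hclosed.csSup_mem hne hbdd
      calc l {s | cdf l s ≤ t} ≤ l (Iic (sSup {s | cdf l s ≤ t})) :=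
            measure_mono fun s hs => le_csSup hbdd hs
        _ = ENNReal.ofReal (cdf l (sSup {s | cdf l s ≤ t})) := (ofReal_cdf l _).symm
        _ ≤ ENNReal.ofReal t := ENNReal.ofReal_le_ofReal hmem
  · rcases eq_or_lt_of_le h0 with rfl | h0
    · simp
    · have e1 : ∃ a, cdf l a ≤ t := by
        have := (tendsto_cdf_atBot l).eventually (gt_mem_nhds h0)
        obtain ⟨b, hb⟩ := this.exists
        exact ⟨b, hb.le⟩
      have e2 : ∃ b, t ≤ cdf l b := by
        have := (tendsto_cdf_atTop l).eventually (lt_mem_nhds h1)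
        obtain ⟨b, hb⟩ := this.exists
        exact ⟨b, hb.le⟩
      obtain ⟨s, hs⟩ := mem_range_of_exists_le_of_exists_ge hcont e1 e2
      calc ENNReal.ofReal t = l (Iic s) := by rw [← ofReal_cdf, hs]
        _ ≤ _ := measure_mono fun r hr => (monotone_cdf l hr).trans hs.le

variable {d : ℕ}

/-- an absolutely continuous probability measure can be mapped to Lebesgue measure on `[0,1]` -/
theorem exists_map_unit (hd : 0 < d) {rho : Measure (E d)} [IsProbabilityMeasure rho]
    (hrho : rho ≪ volume) : ∃ F : E d → I, Measurable F ∧ rho.map F = volume := by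
  let i₀ : Fin d := ⟨0, hd⟩
  let X : E d → ℝ := fun x => x i₀
  have hX : Measurable X := by fun_prop
  set l := rho.map X with hl
  have hp : IsProbabilityMeasure l := Measure.isProbabilityMeasure_map hX.aemeasurable
  have hnull : ∀ c, l {c} = 0 := by
    intro c
    rw [hl, Measure.map_apply hX (measurableSet_singleton c)]
    apply hrho
    refine measure_mono_null ?_ (hyper_null (EuclideanSpace.single i₀ (1 : ℝ)) ?_ c)
    · intro x hx
      have hx' : x i₀ = c := hx
      rw [mem_ofPred_eq, EuclideanSpace.inner_single_left, hx']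
      simp
    · intro h
      have := congrArg (fun v : E d => v i₀) h
      simp at this
  let F : E d → I := fun x => ⟨cdf l (X x), cdf_nonneg l _, cdf_le_one l _⟩
  have hF : Measurable F := by
    apply Measurable.subtype_mk
    exact (monotone_cdf l).measurable.comp hX
  refine ⟨F, hF, ?_⟩
  have hpF : IsProbabilityMeasure (rho.map F) := Measure.isProbabilityMeasure_map hF.aemeasurable
  refine Measure.ext_of_Iic _ _ fun t => ?_
  rw [Measure.map_apply hF measurableSet_Iic, unitInterval.volume_Iic]
  have e : F ⁻¹' Iic t = X ⁻¹' {s | cdf l s ≤ t} := by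
    ext x
    simp only [mem_preimage, mem_Iic, mem_ofPred_eq]
    rfl
  have hm : MeasurableSet {s | cdf l s ≤ (t : ℝ)} :=
    measurableSet_le (monotone_cdf l).measurable measurable_const
  rw [e, ← Measure.map_apply hX hm, ← hl, cdf_uniform hnull t.2.1 t.2.2]

theorem exists_map_law (hd : 0 < d) {rho : Measure (E d)} [IsProbabilityMeasure rho]
    (hrho : rho ≪ volume) (κ : Measure (E d)) [IsProbabilityMeasure κ] :
    ∃ g : E d → E d, Measurable g ∧ rho.map g = κ := by
  obtain ⟨F, hF, hF'⟩ := exists_map_unit hd hrho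
  obtain ⟨f, hf, hf'⟩ := Measure.exists_measurable_map_eq κ
  exact ⟨f ∘ F, hf.comp hF, by rw [← Measure.map_map hf hF, hF', hf']⟩

/-- a competitor with prescribed conditional laws on the pieces of a partition -/
theorem exists_competitor (hd : 0 < d) {Ω : Type} [Fintype Ω] {rho : Measure (E d)}
    [IsProbabilityMeasure rho] (hrho : rho ≪ volume) {q : E d → Ω}
    (hq : ∀ ω, MeasurableSet (q ⁻¹' {ω})) (hpos : ∀ ω, rho (q ⁻¹' {ω}) ≠ 0)
    (κ : Ω → Measure (E d)) [∀ ω, IsProbabilityMeasure (κ ω)] :
    ∃ T : E d → E d, Measurable T ∧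
      ∀ ω, (rho.restrict (q ⁻¹' {ω})).map T = rho (q ⁻¹' {ω}) • κ ω := by
  have h1 : ∀ ω, ∃ g : E d → E d, Measurable g ∧
      (rho.restrict (q ⁻¹' {ω})).map g = rho (q ⁻¹' {ω}) • κ ω := by
    intro ω
    set c := rho (q ⁻¹' {ω}) with hc
    have hct : c ≠ ∞ := measure_ne_top _ _
    have hp : IsProbabilityMeasure (c⁻¹ • rho.restrict (q ⁻¹' {ω})) := by
      constructor
      rw [Measure.smul_apply, Measure.restrict_apply MeasurableSet.univ, univ_inter, smul_eq_mul,
        ← hc, ENNReal.inv_mul_cancel (hpos ω) hct]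
    have hac : c⁻¹ • rho.restrict (q ⁻¹' {ω}) ≪ volume :=
      ((Measure.absolutelyContinuous_of_le Measure.restrict_le_self).smul_left _).trans hrho
    obtain ⟨g, hg, hg'⟩ := exists_map_law hd hac (κ ω)
    refine ⟨g, hg, ?_⟩
    rw [← hg', Measure.map_smul, smul_smul, ENNReal.mul_inv_cancel (hpos ω) hct, one_smul]
  choose g hg hg' using h1
  refine ⟨fun x => g (q x) x, ?_, ?_⟩
  · intro s hs
    have : (fun x => g (q x) x) ⁻¹' s = ⋃ ω, (q ⁻¹' {ω} ∩ (g ω) ⁻¹' s) := by
      ext x; simp
    rw [this]
    exact MeasurableSet.iUnion fun ω => (hq ω).inter (hg ω hs)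
  · intro ω
    rw [← hg' ω]
    apply Measure.map_congr
    rw [Filter.EventuallyEq, ae_restrict_iff' (hq ω)]
    refine Filter.Eventually.of_forall fun x hx => ?_
    have : q x = ω := hx
    rw [this]

end Vale.Agent.P074
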