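import Mathlib
import Vale.Agent.P074.Defs

open MeasureTheory Set
open scoped ENNReal NNReal

namespace Vale.Agent.P074

variable {d : ℕ}

theorem integrable_of_cont {ρ : Measure (E d)} [IsFiniteMeasure ρ] {K : Set (E d)}
    (hK : IsCompact K) (hρ : ρ Kᶜ = 0) {f : E d → ℝ} (hf : Continuous f) :
    Integrable f ρ := by
  obtain ⟨C, hC⟩ := hK.exists_bound_of_continuousOn hf.continuousOn
  refine Integrable.of_bound hf.aestronglyMeasurable C ?_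
  have : ∀ᵐ x ∂ρ, x ∈ K := by
    rw [ae_iff]; exact hρ
  filter_upwards [this] with x hx using hC x hx

theorem cost_eq (ρ : Measure (E d)) {K Y : Set (E d)} [IsFiniteMeasure ρ]
    (hK : IsCompact K) (hY : IsCompact Y) (hρ : ρ Kᶜ = 0)
    {S : E d → E d} (hS : Measurable S) (hSY : ∀ᵐ x ∂ρ, S x ∈ Y) :
    Integrable (fun x => ‖x - S x‖ ^ 2) ρ ∧
    ∫⁻ x, ‖x - S x‖ₑ ^ 2 ∂ρ = ENNReal.ofReal (∫ x, ‖x - S x‖ ^ 2 ∂ρ) := by
  have hint : Integrable (fun x => ‖x - S x‖ ^ 2) ρ := by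
    obtain ⟨C1, hC1⟩ := hK.isBounded.exists_norm_le
    obtain ⟨C2, hC2⟩ := hY.isBounded.exists_norm_le
    refine Integrable.of_bound
      ((measurable_id.sub hS).norm.pow_const 2).aestronglyMeasurable ((C1 + C2) ^ 2) ?_
    have hKae : ∀ᵐ x ∂ρ, x ∈ K := by
      rw [ae_iff]; exact hρ
    filter_upwards [hKae, hSY] with x hx hx2
    rw [norm_pow, norm_norm]
    have : ‖x - S x‖ ≤ C1 + C2 := (norm_sub_le _ _).trans (add_le_add (hC1 x hx) (hC2 _ hx2))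
    gcongr
  refine ⟨hint, ?_⟩
  rw [ofReal_integral_eq_lintegral_ofReal hint (Filter.Eventually.of_forall fun x => by positivity)]
  refine lintegral_congr fun x => ?_
  rw [ENNReal.ofReal_pow (norm_nonneg _), ofReal_norm_eq_enorm]

theorem isOptMap_of_potentials {ρ μ : Measure (E d)} [IsFiniteMeasure ρ]
    {K Y : Set (E d)} (hK : IsCompact K) (hY : IsCompact Y) (hρ : ρ Kᶜ = 0) (hμ : μ Yᶜ = 0)
    {T : E d → E d} (hT : Measurable T) (hTm : ρ.map T = μ)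
    {u ψ : E d → ℝ} (hu : Continuous u) (hψ : Continuous ψ)
    (h1 : ∀ x ∈ K, ∀ y ∈ Y, inner ℝ x y ≤ u x + ψ y)
    (h2 : ∀ᵐ x ∂ρ, inner ℝ x (T x) = u x + ψ (T x)) : IsOptMap ρ μ T := by
  refine ⟨hT, hTm, fun S hS hSm => ?_⟩
  have hmem : ∀ {R : E d → E d}, Measurable R → ρ.map R = μ → ∀ᵐ x ∂ρ, R x ∈ Y := by
    intro R hR hRm
    rw [ae_iff]
    have : {a | R a ∉ Y} = R ⁻¹' Yᶜ := rfl
    rw [this, ← Measure.map_apply hR hY.isClosed.measurableSet.compl, hRm, hμ]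
  have hTY := hmem hT hTm
  have hSY := hmem hS hSm
  obtain ⟨hTi, hTe⟩ := cost_eq ρ hK hY hρ hT hTY
  obtain ⟨hSi, hSe⟩ := cost_eq ρ hK hY hρ hS hSY
  rw [hTe, hSe]
  apply ENNReal.ofReal_le_ofReal
  have hKae : ∀ᵐ x ∂ρ, x ∈ K := by
    rw [ae_iff]; exact hρ
  have hφ : Integrable (fun x : E d => ‖x‖ ^ 2 - 2 * u x) ρ :=
    integrable_of_cont hK hρ (by fun_prop)
  haveI : IsFiniteMeasure μ := by
    rw [← hTm]; infer_instance
  have hη : Integrable (fun y : E d => ‖y‖ ^ 2 - 2 * ψ y) μ :=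
    integrable_of_cont hY hμ (by fun_prop)
  have hηT : Integrable (fun x : E d => ‖T x‖ ^ 2 - 2 * ψ (T x)) ρ := by
    have := hTm ▸ hη
    exact this.comp_measurable hT
  have hηS : Integrable (fun x : E d => ‖S x‖ ^ 2 - 2 * ψ (S x)) ρ := by
    have := hSm ▸ hη
    exact this.comp_measurable hS
  have eT : ∫ x, (‖T x‖ ^ 2 - 2 * ψ (T x)) ∂ρ = ∫ y, (‖y‖ ^ 2 - 2 * ψ y) ∂μ := by
    rw [← hTm, integral_map hT.aemeasurable]
    exact (Continuous.aestronglyMeasurable (by fun_prop))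
  have eS : ∫ x, (‖S x‖ ^ 2 - 2 * ψ (S x)) ∂ρ = ∫ y, (‖y‖ ^ 2 - 2 * ψ y) ∂μ := by
    rw [← hSm, integral_map hS.aemeasurable]
    exact (Continuous.aestronglyMeasurable (by fun_prop))
  calc ∫ x, ‖x - T x‖ ^ 2 ∂ρ
      = ∫ x, ((‖x‖ ^ 2 - 2 * u x) + (‖T x‖ ^ 2 - 2 * ψ (T x))) ∂ρ := by
        apply integral_congr_ae
        filter_upwards [h2] with x hx
        rw [norm_sub_sq_real, hx]; ring
    _ = ∫ x, (‖x‖ ^ 2 - 2 * u x) ∂ρ + ∫ y, (‖y‖ ^ 2 - 2 * ψ y) ∂μ := by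
        rw [integral_add hφ hηT, eT]
    _ = ∫ x, ((‖x‖ ^ 2 - 2 * u x) + (‖S x‖ ^ 2 - 2 * ψ (S x))) ∂ρ := by
        rw [integral_add hφ hηS, eS]
    _ ≤ ∫ x, ‖x - S x‖ ^ 2 ∂ρ := by
        apply integral_mono_ae (hφ.add hηS) hSi
        filter_upwards [hKae, hSY] with x hx hx2
        simp only [Pi.add_apply]
        rw [norm_sub_sq_real]
        have := h1 x hx _ hx2
        linarith

end Vale.Agent.P074
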