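import Mathlib
import Vale.Agent.P074.Defs
import Vale.Agent.P074.Opt
import Vale.Agent.P074.Core
import Vale.Agent.P074.Nonatomic

open MeasureTheory Set
open scoped ENNReal NNReal

namespace Vale.Agent.P074

variable {d : ℕ}

/-- integrability of a bounded measurable function -/
theorem integrable_bdd {α : Type*} [MeasurableSpace α] {μ : Measure α} [IsFiniteMeasure μ]
    {F : Type*} [NormedAddCommGroup F] {f : α → F} (hf : AEStronglyMeasurable f μ) {C : ℝ}
    (h : ∀ᵐ x ∂μ, ‖f x‖ ≤ C) : Integrable f μ := Integrable.of_bound hf C h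

/-- first-order Taylor bound for `∫ φ(x + v(x))` -/
theorem rem_int {K : Set (E d)} (hK : IsCompact K) (hc : Convex ℝ K)
    (hi : (interior K).Nonempty) {R : ℝ} (hR0 : 0 ≤ R) :
    ∃ C : ℝ, 0 ≤ C ∧ ∀ r : ℝ, 0 < r → r ≤ 1 → ∀ (Ω : Type) [Fintype Ω] [Nonempty Ω]
      (P : Ω → E d) (ψ : Ω → ℝ) (q : E d → Ω), (∀ ω, ‖P ω‖ ≤ R) →
      (∀ ω, MeasurableSet (q ⁻¹' {ω})) → (∀ x, x ∈ cell P ψ (q x)) →
      ∀ v : E d → E d, Measurable v → (∀ x, ‖v x‖ ≤ r) →
      ∫ x, phi P ψ (x + v x) ∂(unif K) ≤ ∫ x, phi P ψ x ∂(unif K) +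
        ∫ x, (inner ℝ (v x) (P (q x)) : ℝ) ∂(unif K) + C * r ^ 2 := by
  set c : ℝ := (d : ℝ) + 1 with hcdef
  have hc0 : 0 < c := by positivity
  obtain ⟨C₀, a, hC₀, ha, henl⟩ := exists_enlarge hK hc hi hc0.le
  have hKm : MeasurableSet K := hK.isClosed.measurableSet
  have hV0' : volume K ≠ 0 := by
    have : 0 < volume (interior K) := isOpen_interior.measure_pos _ hi
    exact (this.trans_le (measure_mono interior_subset)).ne'
  have hVt : volume K ≠ ∞ := hK.measure_lt_top.ne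
  have hp := unif_prob hV0' hVt
  refine ⟨d * ((volume.real K)⁻¹ * (2 * (R * c) * (C₀ * c))), by positivity, ?_⟩
  intro r hr hr1 Ω _ _ P ψ q hPR hq hmem v hv hvr
  obtain ⟨K', hK'c, hK'conv, hKK', hK'a, hmemK, hvol⟩ := henl (c * r) (by positivity)
    (by nlinarith)
  have hK'm : MeasurableSet K' := hK'c.isClosed.measurableSet
  have hKa := hKK'.trans hK'a
  have hσ := unif_ball hKm hKa
  have hvP : Integrable (fun x => (inner ℝ (v x) (P (q x)) : ℝ)) (unif K) := by
    refine integrable_bdd (hv.inner (meas_comp hq P)).aestronglyMeasurable (C := r * R)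
      (Filter.Eventually.of_forall fun x => ?_)
    rw [Real.norm_eq_abs]
    exact (abs_real_inner_le_norm _ _).trans (mul_le_mul (hvr x) (hPR _) (norm_nonneg _) hr.le)
  have hdd : ∀ i, Integrable (dd (phi P ψ) (ev i (c * r))) (unif K) := by
    intro i
    apply integrable_cont' hσ
    have := continuous_phi P ψ
    unfold dd
    fun_prop
  have hphiv : Integrable (fun x => phi P ψ (x + v x)) (unif K) := by
    obtain ⟨C, hC⟩ := (isCompact_closedBall (0 : E d) (a + r)).exists_bound_of_continuousOn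
      (continuous_phi P ψ).continuousOn
    refine integrable_bdd ((continuous_phi P ψ).measurable.comp
      (measurable_id.add hv)).aestronglyMeasurable (C := C) ?_
    filter_upwards [ae_ball hσ] with x hx
    apply hC
    rw [mem_closedBall_zero_iff]
    exact (norm_add_le _ _).trans (add_le_add hx (hvr x))
  have h1 : Integrable (fun x => phi P ψ x + (inner ℝ (v x) (P (q x)) : ℝ)) (unif K) :=
    (integrable_phi hσ P ψ).add hvP
  have h2 : Integrable (fun x => ∑ i, dd (phi P ψ) (ev i (c * r)) x) (unif K) :=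
    integrable_finsetSum _ fun i _ => hdd i
  have key : ∫ x, phi P ψ (x + v x) ∂(unif K) ≤
      ∫ x, ((phi P ψ x + (inner ℝ (v x) (P (q x)) : ℝ)) +
        ∑ i, dd (phi P ψ) (ev i (c * r)) x) ∂(unif K) := by
    apply integral_mono hphiv (h1.add h2)
    intro x
    have h := rem_pt P ψ (v := v x) (hmem x) (s := c * r) (by positivity) (by
      refine (sum_abs_le _).trans ?_
      have : (d : ℝ) * ‖v x‖ ≤ d * r := by gcongr; exact hvr x
      rw [hcdef]; nlinarith)
    simp only [Pi.add_apply]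
    linarith
  rw [integral_add h1 h2, integral_add (integrable_phi hσ P ψ) hvP,
    integral_finsetSum _ (fun i _ => hdd i)] at key
  have hdd' : ∀ i, ∫ x, dd (phi P ψ) (ev i (c * r)) x ∂(unif K) ≤
      (volume.real K)⁻¹ * (2 * (R * (c * r)) * (C₀ * (c * r))) := by
    intro i
    have h0 : 0 ≤ c * r := by positivity
    rw [integral_unif', smul_eq_mul]
    have h1 := int_dd (w := ev i (c * r)) hKm hK'm hKK' hK'a
      (fun x hx => hmemK x hx _ (by rw [norm_neg, norm_ev i h0]))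
      (continuous_phi P ψ) (phi_lip hPR ψ)
    rw [norm_ev i h0] at h1
    have h2 : 2 * (R * (c * r)) * (volume.real K' - volume.real K) ≤
        2 * (R * (c * r)) * (C₀ * (c * r)) := by gcongr; linarith
    have h3 : 0 ≤ (volume.real K)⁻¹ := by positivity
    exact mul_le_mul_of_nonneg_left (h1.trans h2) h3
  have hdds := Finset.sum_le_sum fun i (_ : i ∈ (Finset.univ : Finset (Fin d))) => hdd' i
  rw [Finset.sum_const, Finset.card_univ, Fintype.card_fin, nsmul_eq_mul] at hdds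
  refine key.trans ?_
  have e : (d : ℝ) * ((volume.real K)⁻¹ * (2 * (R * (c * r)) * (C₀ * (c * r)))) =
      d * ((volume.real K)⁻¹ * (2 * (R * c) * (C₀ * c))) * r ^ 2 := by ring
  linarith


theorem measure_partition {Ω : Type} [Fintype Ω] {α : Type*} [MeasurableSpace α] {μ : Measure α}
    {q : α → Ω} (hq : ∀ ω, MeasurableSet (q ⁻¹' {ω})) {s : Set α} (hs : MeasurableSet s) :
    μ s = ∑ ω, μ (q ⁻¹' {ω} ∩ s) := by
  have h : s = ⋃ ω, (q ⁻¹' {ω} ∩ s) := by
    ext x; simp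
  conv_lhs => rw [h]
  rw [measure_iUnion, tsum_fintype]
  · intro i j hij
    refine Disjoint.mono inter_subset_left inter_subset_left ?_
    exact Disjoint.preimage q (by simpa using hij)
  · exact fun ω => (hq ω).inter hs

theorem integrable_inner_bdd {α : Type*} [MeasurableSpace α] {μ : Measure α} [IsFiniteMeasure μ]
    {f g : α → E d} (hf : Measurable f) (hg : Measurable g) {C1 C2 : ℝ}
    (h1 : ∀ᵐ x ∂μ, ‖f x‖ ≤ C1) (h2 : ∀ᵐ x ∂μ, ‖g x‖ ≤ C2) :
    Integrable (fun x => (inner ℝ (f x) (g x) : ℝ)) μ := by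
  refine integrable_bdd (hf.inner hg).aestronglyMeasurable (C := C1 * C2) ?_
  filter_upwards [h1, h2] with x hx1 hx2
  rw [Real.norm_eq_abs]
  exact (abs_real_inner_le_norm _ _).trans (mul_le_mul hx1 hx2 (norm_nonneg _)
    ((norm_nonneg _).trans hx1))

/-- finite optimal maps approximate the optimal map -/
theorem approx {K : Set (E d)} (hd : 0 < d) (hK : IsCompact K) (hc : Convex ℝ K)
    (hi : (interior K).Nonempty) {R : ℝ} (hR1 : 1 ≤ R) :
    ∃ C : ℝ, 0 ≤ C ∧ ∀ η : ℝ, 0 < η → η ≤ 1 → ∀ (Ω : Type) [Fintype Ω] [Nonempty Ω]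
      (m : Ω → ℝ) (y : Ω → E d), (∀ ω, 0 < m ω) → (∀ ω, ‖y ω‖ ≤ R) →
      ∀ (A : Alloc K y m) (κ : Ω → Measure (E d)) [∀ ω, IsProbabilityMeasure (κ ω)],
      (∀ ω, κ ω (Metric.closedBall (y ω) η)ᶜ = 0) →
      ∀ (μ : Measure (E d)), μ = ∑ ω, ENNReal.ofReal (m ω) • κ ω →
      ∀ T, IsOptMap (unif K) μ T →
      ∫ x, ‖T x - y (A.q x)‖ ^ 2 ∂(unif K) ≤ C * Real.sqrt η := by
  have hR0 : 0 ≤ R := by linarith
  obtain ⟨C₁, hC₁, hrem⟩ := rem_int hK hc hi hR0
  obtain ⟨a', ha'⟩ := hK.isBounded.exists_norm_le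
  obtain ⟨a, ha, ha1⟩ : ∃ a, a' ≤ a ∧ 1 ≤ a := ⟨max a' 1, le_max_left _ _, le_max_right _ _⟩
  have hKa : K ⊆ Metric.closedBall 0 a := fun x hx => by
    rw [mem_closedBall_zero_iff]; exact (ha' x hx).trans ha
  have hKm : MeasurableSet K := hK.isClosed.measurableSet
  have hV0' : volume K ≠ 0 := by
    have : 0 < volume (interior K) := isOpen_interior.measure_pos _ hi
    exact (this.trans_le (measure_mono interior_subset)).ne'
  have hVt : volume K ≠ ∞ := hK.measure_lt_top.ne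
  have hp := unif_prob hV0' hVt
  have hσ := unif_ball hKm hKa
  have hρK := unif_compl' hKm
  have hac := unif_ac K
  refine ⟨(2 * R + 1) * (2 * a + 1 + C₁), by positivity, ?_⟩
  intro η hη hη1 Ω _ _ m y hm hyR A κ _ hκ μ hμ T hT
  set ρ := unif K with hρ
  have hTm := hT.1
  have hTlaw := hT.2.1
  have hmass : ∀ ω, ρ (A.q ⁻¹' {ω}) = ENNReal.ofReal (m ω) := by
    intro ω
    rw [← A.mass ω, ofReal_measureReal]
  have hpos : ∀ ω, ρ (A.q ⁻¹' {ω}) ≠ 0 := by
    intro ω
    rw [hmass ω]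
    simpa using hm ω
  obtain ⟨T', hT'm, hT'⟩ := exists_competitor hd hac A.meas hpos κ
  have hT'law : ρ.map T' = μ := by
    ext s hs
    rw [Measure.map_apply hT'm hs, measure_partition A.meas (hT'm hs), hμ,
      Measure.finsetSum_apply]
    refine Finset.sum_congr rfl fun ω _ => ?_
    have h1 : (Measure.map T' (ρ.restrict (A.q ⁻¹' {ω}))) s = (ρ (A.q ⁻¹' {ω}) • κ ω) s := by
      rw [hT' ω]
    rw [Measure.map_apply hT'm hs, Measure.restrict_apply (hT'm hs), hmass ω] at h1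
    rw [inter_comm, h1]
  have hnear : ∀ᵐ x ∂ρ, ‖T' x - y (A.q x)‖ ≤ η := by
    rw [ae_iff]
    refine measure_mono_null (t := ⋃ ω, (T' ⁻¹' (Metric.closedBall (y ω) η)ᶜ ∩ A.q ⁻¹' {ω}))
      ?_ ?_
    · intro x hx
      rw [mem_iUnion]
      refine ⟨A.q x, ?_, rfl⟩
      simp only [mem_preimage, mem_compl_iff, mem_closedBall_iff_norm]
      exact hx
    · rw [measure_iUnion_null_iff]
      intro ω
      have h1 : (Measure.map T' (ρ.restrict (A.q ⁻¹' {ω}))) (Metric.closedBall (y ω) η)ᶜ =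
          (ρ (A.q ⁻¹' {ω}) • κ ω) (Metric.closedBall (y ω) η)ᶜ := by
        rw [hT' ω]
      have hms : MeasurableSet (Metric.closedBall (y ω) η)ᶜ :=
        Metric.isClosed_closedBall.measurableSet.compl
      rw [Measure.map_apply hT'm hms, Measure.restrict_apply (hT'm hms), Measure.smul_apply,
        hκ ω, smul_zero] at h1
      exact h1
  have hyq : ∀ x, ‖y (A.q x)‖ ≤ R := fun x => hyR _
  have hT'R : ∀ᵐ x ∂ρ, ‖T' x‖ ≤ R + 1 := by
    filter_upwards [hnear] with x hx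
    have h1 : ‖T' x‖ ≤ ‖T' x - y (A.q x)‖ + ‖y (A.q x)‖ := by
      have := norm_add_le (T' x - y (A.q x)) (y (A.q x))
      rwa [sub_add_cancel] at this
    linarith [hyq x]
  have hms : MeasurableSet (Metric.closedBall (0 : E d) (R + 1))ᶜ :=
    Metric.isClosed_closedBall.measurableSet.compl
  have hμR : μ (Metric.closedBall 0 (R + 1))ᶜ = 0 := by
    rw [← hT'law, Measure.map_apply hT'm hms]
    have : ∀ᵐ x ∂ρ, x ∉ T' ⁻¹' (Metric.closedBall (0 : E d) (R + 1))ᶜ := by
      filter_upwards [hT'R] with x hx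
      simpa using hx
    exact measure_eq_zero_iff_ae_notMem.2 this
  have hTR : ∀ᵐ x ∂ρ, ‖T x‖ ≤ R + 1 := by
    rw [← hTlaw, Measure.map_apply hTm hms] at hμR
    have h1 := measure_eq_zero_iff_ae_notMem.1 hμR
    filter_upwards [h1] with x hx
    simpa using hx
  have hxa := ae_ball hσ
  -- comparison of costs
  have hYc : IsCompact (Metric.closedBall (0 : E d) (R + 1)) := isCompact_closedBall _ _
  obtain ⟨ciT, ceT⟩ := cost_eq ρ hK hYc hρK hTm (by
    filter_upwards [hTR] with x hx; simpa using hx)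
  obtain ⟨ciT', ceT'⟩ := cost_eq ρ hK hYc hρK hT'm (by
    filter_upwards [hT'R] with x hx; simpa using hx)
  have hcost : ∫ x, ‖x - T x‖ ^ 2 ∂ρ ≤ ∫ x, ‖x - T' x‖ ^ 2 ∂ρ := by
    have := hT.2.2 T' hT'm hT'law
    rw [ceT, ceT'] at this
    exact (ENNReal.ofReal_le_ofReal_iff (integral_nonneg fun x => by positivity)).1 this
  have hsq : ∀ S : E d → E d, Measurable S → ρ.map S = μ →
      ∫ x, ‖S x‖ ^ 2 ∂ρ = ∫ t, ‖t‖ ^ 2 ∂μ := by
    intro S hS hSl
    rw [← hSl, integral_map hS.aemeasurable]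
    exact (Continuous.aestronglyMeasurable (by fun_prop))
  have hexp : ∀ S : E d → E d, Measurable S → (∀ᵐ x ∂ρ, ‖S x‖ ≤ R + 1) →
      ∫ x, ‖x - S x‖ ^ 2 ∂ρ = (∫ x, ‖x‖ ^ 2 ∂ρ) - 2 * (∫ x, (inner ℝ x (S x) : ℝ) ∂ρ) +
        ∫ x, ‖S x‖ ^ 2 ∂ρ := by
    intro S hS hSR
    have i1 : Integrable (fun x : E d => ‖x‖ ^ 2) ρ := integrable_cont' hσ (by fun_prop)
    have i2 : Integrable (fun x => (inner ℝ x (S x) : ℝ)) ρ :=
      integrable_inner_bdd measurable_id hS hxa hSR
    have i3 : Integrable (fun x => ‖S x‖ ^ 2) ρ := by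
      refine integrable_bdd (hS.norm.pow_const 2).aestronglyMeasurable (C := (R + 1) ^ 2) ?_
      filter_upwards [hSR] with x hx
      rw [norm_pow, norm_norm]; gcongr
    have i4 : Integrable (fun x => ‖x‖ ^ 2 - 2 * (inner ℝ x (S x) : ℝ)) ρ :=
      i1.sub (i2.const_mul 2)
    rw [← integral_const_mul, ← integral_sub i1 (i2.const_mul 2), ← integral_add i4 i3]
    congr 1
    ext x
    rw [norm_sub_sq_real]
  rw [hexp T hTm hTR, hexp T' hT'm hT'R, hsq T hTm hTlaw, hsq T' hT'm hT'law] at hcost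
  have I5a : ∫ x, (inner ℝ x (T' x) : ℝ) ∂ρ ≤ ∫ x, (inner ℝ x (T x) : ℝ) ∂ρ := by linarith
  have iT : Integrable (fun x => (inner ℝ x (T x) : ℝ)) ρ :=
    integrable_inner_bdd measurable_id hTm hxa hTR
  have iT' : Integrable (fun x => (inner ℝ x (T' x) : ℝ)) ρ :=
    integrable_inner_bdd measurable_id hT'm hxa hT'R
  have iS : Integrable (fun x => (inner ℝ x (y (A.q x)) : ℝ)) ρ :=
    integrable_inner_comp hσ A.meas y
  have I5b : (∫ x, (inner ℝ x (y (A.q x)) : ℝ) ∂ρ) - a * η ≤ ∫ x, (inner ℝ x (T' x) : ℝ) ∂ρ := by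
    have : ∫ x, ((inner ℝ x (y (A.q x)) : ℝ) - a * η) ∂ρ ≤ ∫ x, (inner ℝ x (T' x) : ℝ) ∂ρ := by
      apply integral_mono_ae (iS.sub (integrable_const _)) iT'
      filter_upwards [hxa, hnear] with x hx1 hx2
      have h1 : inner ℝ x (y (A.q x)) - inner ℝ x (T' x) ≤ ‖x‖ * ‖T' x - y (A.q x)‖ := by
        rw [← inner_sub_right, norm_sub_rev (T' x)]
        exact real_inner_le_norm _ _
      have h2 : ‖x‖ * ‖T' x - y (A.q x)‖ ≤ a * η := by
        exact mul_le_mul hx1 hx2 (norm_nonneg _) (by linarith)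
      simp only [Pi.sub_apply]
      linarith
    rw [integral_sub iS (integrable_const _), integral_const, probReal_univ, one_smul] at this
    exact this
  -- the conjugate function
  set u := phi y A.ψ with hu
  have huc : Continuous u := continuous_phi y A.ψ
  set pt : E d → ℝ := fun t => sSup ((fun x : E d => (inner ℝ x t : ℝ) - u x) ''
    Metric.closedBall (0 : E d) (a + 1)) with hpt
  have hcomp : IsCompact (Metric.closedBall (0 : E d) (a + 1)) := isCompact_closedBall _ _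
  have hptc : Continuous pt := by
    apply IsCompact.continuous_sSup (f := fun t x : E d => (inner ℝ x t : ℝ) - u x) hcomp
    have : Continuous (fun p : E d × E d => (inner ℝ p.2 p.1 : ℝ) - u p.2) := by fun_prop
    exact this
  have hpt1 : ∀ t x : E d, ‖x‖ ≤ a + 1 → inner ℝ x t - u x ≤ pt t := by
    intro t x hx
    apply le_csSup
    · exact (hcomp.image (by fun_prop)).bddAbove
    · exact mem_image_of_mem _ (by simpa using hx)
  have hpt2 : ∀ (t : E d) (ω : Ω), ‖t - y ω‖ ≤ η → pt t ≤ A.ψ ω + (a + 1) * η := by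
    intro t ω ht
    apply csSup_le
    · exact ⟨_, mem_image_of_mem _ (Metric.mem_closedBall_self (by linarith))⟩
    · rintro _ ⟨x, hx, rfl⟩
      have hx' : ‖x‖ ≤ a + 1 := by simpa using hx
      have h1 := le_phi y A.ψ x ω
      have h2 : inner ℝ x t - inner ℝ x (y ω) ≤ ‖x‖ * ‖t - y ω‖ := by
        rw [← inner_sub_right]; exact real_inner_le_norm _ _
      have h3 : ‖x‖ * ‖t - y ω‖ ≤ (a + 1) * η := mul_le_mul hx' ht (norm_nonneg _) (by linarith)
      simp only
      rw [hu]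
      linarith
  -- the direction field
  set r := Real.sqrt η with hr
  have hr0 : 0 < r := Real.sqrt_pos.2 hη
  have hr1 : r ≤ 1 := by rw [hr]; exact Real.sqrt_le_one.2 hη1
  have hrη : r ^ 2 = η := Real.sq_sqrt hη.le
  set w : E d → E d := fun x => T x - y (A.q x) with hw
  have hwm : Measurable w := hTm.sub (meas_comp A.meas y)
  set v : E d → E d := fun x => (r * ‖w x‖⁻¹) • w x with hv
  have hvm : Measurable v := (hwm.norm.inv.const_mul r).smul hwm
  have hvr : ∀ x, ‖v x‖ ≤ r := by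
    intro x
    rw [hv]
    simp only [norm_smul, norm_mul, norm_inv, Real.norm_eq_abs, abs_of_pos hr0, abs_norm]
    rcases eq_or_ne ‖w x‖ 0 with h | h
    · rw [h]; simpa using hr0.le
    · rw [mul_assoc, inv_mul_cancel₀ h, mul_one]
  have hvw : ∀ x, inner ℝ (v x) (w x) = r * ‖w x‖ := by
    intro x
    rw [hv]
    simp only [inner_smul_left, RCLike.conj_to_real, real_inner_self_eq_norm_sq]
    rcases eq_or_ne ‖w x‖ 0 with h | h
    · rw [h]; simp
    · field_simp
  have hvr' : ∀ᵐ x ∂ρ, ‖v x‖ ≤ r := Filter.Eventually.of_forall hvr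
  have hyq' : ∀ᵐ x ∂ρ, ‖y (A.q x)‖ ≤ R := Filter.Eventually.of_forall hyq
  have I3 := hrem r hr0 hr1 Ω y A.ψ A.q hyR A.meas A.mem v hvm hvr
  have ivT : Integrable (fun x => (inner ℝ (v x) (T x) : ℝ)) ρ :=
    integrable_inner_bdd hvm hTm hvr' hTR
  have ivS : Integrable (fun x => (inner ℝ (v x) (y (A.q x)) : ℝ)) ρ :=
    integrable_inner_bdd hvm (meas_comp A.meas y) hvr' hyq'
  have hptb : ∀ S : E d → E d, Measurable S → (∀ᵐ x ∂ρ, ‖S x‖ ≤ R + 1) →
      Integrable (fun x => pt (S x)) ρ := by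
    intro S hS hSR
    obtain ⟨C, hC⟩ := hYc.exists_bound_of_continuousOn hptc.continuousOn
    refine integrable_bdd (hptc.measurable.comp hS).aestronglyMeasurable (C := C) ?_
    filter_upwards [hSR] with x hx
    exact hC _ (by simpa using hx)
  have iptT := hptb T hTm hTR
  have iptT' := hptb T' hT'm hT'R
  have iψ : Integrable (fun x => A.ψ (A.q x)) ρ := integrable_comp A.meas A.ψ
  have I2 : ∫ x, pt (T x) ∂ρ ≤ ∫ x, A.ψ (A.q x) ∂ρ + (a + 1) * η := by
    have e1 : ∫ x, pt (T x) ∂ρ = ∫ x, pt (T' x) ∂ρ := by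
      have f1 : ∫ t, pt t ∂(ρ.map T) = ∫ x, pt (T x) ∂ρ :=
        integral_map hTm.aemeasurable hptc.aestronglyMeasurable
      have f2 : ∫ t, pt t ∂(ρ.map T') = ∫ x, pt (T' x) ∂ρ :=
        integral_map hT'm.aemeasurable hptc.aestronglyMeasurable
      rw [← f1, ← f2, hTlaw, hT'law]
    have e2 : ∫ x, pt (T' x) ∂ρ ≤ ∫ x, (A.ψ (A.q x) + (a + 1) * η) ∂ρ := by
      apply integral_mono_ae iptT' (iψ.add (integrable_const _))
      filter_upwards [hnear] with x hx
      exact hpt2 _ _ hx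
    rw [integral_add iψ (integrable_const _), integral_const, probReal_univ, one_smul] at e2
    linarith
  have I4 : ∫ x, u x ∂ρ = (∫ x, (inner ℝ x (y (A.q x)) : ℝ) ∂ρ) - ∫ x, A.ψ (A.q x) ∂ρ := by
    rw [← integral_sub iS iψ]
    congr 1
    ext x
    exact phi_eq_of_mem (A.mem x)
  have iuv : Integrable (fun x => u (x + v x)) ρ := by
    obtain ⟨C, hC⟩ := hcomp.exists_bound_of_continuousOn huc.continuousOn
    refine integrable_bdd (huc.measurable.comp (measurable_id.add hvm)).aestronglyMeasurable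
      (C := C) ?_
    filter_upwards [hxa] with x hx
    apply hC
    rw [mem_closedBall_zero_iff]
    exact (norm_add_le _ _).trans (add_le_add hx ((hvr x).trans hr1))
  have I1 : (∫ x, (inner ℝ x (T x) : ℝ) ∂ρ) + (∫ x, (inner ℝ (v x) (T x) : ℝ) ∂ρ) -
      ∫ x, pt (T x) ∂ρ ≤ ∫ x, u (x + v x) ∂ρ := by
    have i1 : Integrable (fun x => (inner ℝ x (T x) : ℝ) + inner ℝ (v x) (T x)) ρ := iT.add ivT
    rw [← integral_add iT ivT, ← integral_sub i1 iptT]
    apply integral_mono_ae (i1.sub iptT) iuv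
    filter_upwards [hxa] with x hx
    have h1 := hpt1 (T x) (x + v x) ((norm_add_le _ _).trans
      (add_le_add hx ((hvr x).trans hr1)))
    rw [inner_add_left] at h1
    simp only [Pi.sub_apply]
    linarith
  have hwint : ∫ x, (inner ℝ (v x) (w x) : ℝ) ∂ρ =
      (∫ x, (inner ℝ (v x) (T x) : ℝ) ∂ρ) - ∫ x, (inner ℝ (v x) (y (A.q x)) : ℝ) ∂ρ := by
    rw [← integral_sub ivT ivS]
    congr 1
    ext x
    rw [hw, inner_sub_right]
  have hwr : ∀ᵐ x ∂ρ, ‖w x‖ ≤ 2 * R + 1 := by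
    filter_upwards [hTR] with x hx
    exact (norm_sub_le _ _).trans (by linarith [hyq x])
  have iw : Integrable (fun x => ‖w x‖) ρ :=
    integrable_bdd hwm.norm.aestronglyMeasurable (C := 2 * R + 1) (by
      filter_upwards [hwr] with x hx
      rwa [norm_norm])
  have hwr2 : ∫ x, (inner ℝ (v x) (w x) : ℝ) ∂ρ = r * ∫ x, ‖w x‖ ∂ρ := by
    rw [← integral_const_mul]
    congr 1
    ext x
    exact hvw x
  have hmain : r * ∫ x, ‖w x‖ ∂ρ ≤ (2 * a + 1) * η + C₁ * r ^ 2 := by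
    rw [← hwr2, hwint]
    rw [hu] at I4 I1
    linarith
  have hmain2 : ∫ x, ‖w x‖ ∂ρ ≤ (2 * a + 1 + C₁) * r := by
    rw [← hrη] at hmain
    have : r * ∫ x, ‖w x‖ ∂ρ ≤ r * ((2 * a + 1 + C₁) * r) := by linarith
    exact le_of_mul_le_mul_left this hr0
  calc ∫ x, ‖T x - y (A.q x)‖ ^ 2 ∂ρ ≤ ∫ x, (2 * R + 1) * ‖w x‖ ∂ρ := by
        apply integral_mono_of_nonneg (Filter.Eventually.of_forall fun x => by positivity)
          (iw.const_mul _)
        filter_upwards [hwr] with x hx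
        have h0 := norm_nonneg (w x)
        have : ‖w x‖ * ‖w x‖ ≤ (2 * R + 1) * ‖w x‖ := by gcongr
        simpa [sq] using this
    _ = (2 * R + 1) * ∫ x, ‖w x‖ ∂ρ := integral_const_mul _ _
    _ ≤ (2 * R + 1) * ((2 * a + 1 + C₁) * r) := by gcongr
    _ = _ := by ring

end Vale.Agent.P074
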