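import Mathlib
import Vale.Agent.P074.Defs

open MeasureTheory Set
open scoped ENNReal NNReal

namespace Vale.Agent.P074

variable {d : ℕ} {ι : Type*}

/-- Laguerre cell. -/
def Cell (y : ι → E d) (a : ι → ℝ) (i : ι) : Set (E d) :=
  {x | ∀ j, inner ℝ x (y j) - a j ≤ inner ℝ x (y i) - a i}

/-- The semi-discrete potential `u_a(x) = max_i (⟪x, y_i⟫ - a_i)`. -/
noncomputable def uPot (y : ι → E d) (a : ι → ℝ) (x : E d) : ℝ :=
  ⨆ i, (inner ℝ x (y i) - a i)

theorem mem_Cell {y : ι → E d} {a : ι → ℝ} {i : ι} {x : E d} :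
    x ∈ Cell y a i ↔ ∀ j, inner ℝ x (y j) - a j ≤ inner ℝ x (y i) - a i := Iff.rfl

theorem le_uPot [Finite ι] (y : ι → E d) (a : ι → ℝ) (x : E d) (i : ι) :
    inner ℝ x (y i) - a i ≤ uPot y a x :=
  le_ciSup (f := fun i => inner ℝ x (y i) - a i) (Set.finite_range _).bddAbove i

theorem uPot_le [Nonempty ι] {y : ι → E d} {a : ι → ℝ} {x : E d} {c : ℝ}
    (h : ∀ i, inner ℝ x (y i) - a i ≤ c) : uPot y a x ≤ c :=
  ciSup_le h

theorem exists_uPot_eq [Finite ι] [Nonempty ι] (y : ι → E d) (a : ι → ℝ) (x : E d) :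
    ∃ i, inner ℝ x (y i) - a i = uPot y a x :=
  exists_eq_ciSup_of_finite

theorem mem_Cell_iff [Finite ι] {y : ι → E d} {a : ι → ℝ} {i : ι} {x : E d} :
    x ∈ Cell y a i ↔ uPot y a x = inner ℝ x (y i) - a i := by
  have : Nonempty ι := ⟨i⟩
  constructor
  · intro h
    exact le_antisymm (uPot_le h) (le_uPot y a x i)
  · intro h j
    rw [← h]
    exact le_uPot y a x j

theorem iUnion_Cell [Finite ι] [Nonempty ι] (y : ι → E d) (a : ι → ℝ) :
    ⋃ i, Cell y a i = univ := by
  ext x
  simp only [mem_iUnion, mem_univ, iff_true]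
  obtain ⟨i, hi⟩ := exists_uPot_eq y a x
  exact ⟨i, mem_Cell_iff.2 hi.symm⟩

theorem isClosed_Cell (y : ι → E d) (a : ι → ℝ) (i : ι) : IsClosed (Cell y a i) := by
  have : Cell y a i = ⋂ j, {x | inner ℝ x (y j) - a j ≤ inner ℝ x (y i) - a i} := by
    ext x; simp [Cell]
  rw [this]
  exact isClosed_iInter fun j => isClosed_le (by fun_prop) (by fun_prop)

theorem measurableSet_Cell (y : ι → E d) (a : ι → ℝ) (i : ι) : MeasurableSet (Cell y a i) :=
  (isClosed_Cell y a i).measurableSet

theorem convex_Cell (y : ι → E d) (a : ι → ℝ) (i : ι) : Convex ℝ (Cell y a i) := by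
  intro x hx z hz s t hs ht hst j
  have h1 := hx j
  have h2 := hz j
  simp only [inner_add_left, inner_smul_left, conj_trivial]
  have h3 := mul_le_mul_of_nonneg_left h1 hs
  have h4 := mul_le_mul_of_nonneg_left h2 ht
  have : s = 1 - t := by linarith
  subst this
  nlinarith

theorem continuous_uPot [Finite ι] (y : ι → E d) (a : ι → ℝ) : Continuous (uPot y a) := by
  have := Fintype.ofFinite ι
  rcases isEmpty_or_nonempty ι with h | h
  · have : uPot y a = fun _ => 0 := by
      funext x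
      simp [uPot, Real.iSup_of_isEmpty]
    rw [this]; exact continuous_const
  · have : uPot y a = fun x => Finset.univ.sup' Finset.univ_nonempty
        (fun i => inner ℝ x (y i) - a i) := by
      funext x
      rw [Finset.sup'_univ_eq_ciSup]; rfl
    rw [this]
    exact Continuous.finset_sup'_apply _ (fun i _ => by fun_prop)

/-- `uPot` is Lipschitz in `x`. -/
theorem uPot_sub_le [Finite ι] [Nonempty ι] {y : ι → E d} {a : ι → ℝ} {L : ℝ}
    (hL : ∀ i, ‖y i‖ ≤ L) (x z : E d) : uPot y a x - uPot y a z ≤ L * ‖x - z‖ := by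
  obtain ⟨i, hi⟩ := exists_uPot_eq y a x
  have h1 := le_uPot y a z i
  have h2 : inner ℝ x (y i) - inner ℝ z (y i) ≤ ‖x - z‖ * ‖y i‖ := by
    rw [← inner_sub_left]
    exact real_inner_le_norm _ _
  have h3 : ‖x - z‖ * ‖y i‖ ≤ L * ‖x - z‖ := by
    rw [mul_comm]
    exact mul_le_mul_of_nonneg_right (hL i) (norm_nonneg _)
  linarith

theorem abs_uPot_sub_le [Finite ι] [Nonempty ι] {y : ι → E d} {a : ι → ℝ} {L : ℝ}
    (hL : ∀ i, ‖y i‖ ≤ L) (x z : E d) : |uPot y a x - uPot y a z| ≤ L * ‖x - z‖ := by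
  rw [abs_le]
  constructor
  · have := uPot_sub_le (a := a) hL z x
    rw [norm_sub_rev] at this
    linarith
  · exact uPot_sub_le hL x z

theorem convexOn_uPot [Finite ι] [Nonempty ι] (y : ι → E d) (a : ι → ℝ) :
    ConvexOn ℝ univ (uPot y a) := by
  refine ⟨convex_univ, fun x _ z _ s t hs ht hst => ?_⟩
  refine uPot_le fun i => ?_
  have h1 := mul_le_mul_of_nonneg_left (le_uPot y a x i) hs
  have h2 := mul_le_mul_of_nonneg_left (le_uPot y a z i) ht
  simp only [inner_add_left, inner_smul_left, conj_trivial, smul_eq_mul]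
  have : s = 1 - t := by linarith
  subst this
  nlinarith

/-- `uPot` is 1-Lipschitz in `a` for the sup norm. -/
theorem abs_uPot_sub_le_a [Fintype ι] [Nonempty ι] (y : ι → E d) (a b : ι → ℝ) (x : E d) :
    |uPot y a x - uPot y b x| ≤ ‖a - b‖ := by
  have key : ∀ a b : ι → ℝ, uPot y a x - uPot y b x ≤ ‖a - b‖ := by
    intro a b
    obtain ⟨i, hi⟩ := exists_uPot_eq y a x
    have h1 := le_uPot y b x i
    have h2 : |b i - a i| ≤ ‖b - a‖ := norm_le_pi_norm (b - a) i
    rw [norm_sub_rev] at h2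
    have h3 := (abs_le.1 h2).2
    linarith
  rw [abs_le]
  constructor
  · have := key b a
    rw [norm_sub_rev] at this
    linarith
  · exact key a b

/-- A hyperplane is null. -/
theorem volume_hyperplane (v : E d) (hv : v ≠ 0) (c : ℝ) :
    volume {x : E d | inner ℝ x v = c} = 0 := by
  rcases Set.eq_empty_or_nonempty {x : E d | inner ℝ x v = c} with h | ⟨x0, hx0⟩
  · rw [h]; simp
  · let f : E d →ₗ[ℝ] ℝ := (innerSL ℝ v).toLinearMap
    have hf : ∀ x, f x = inner ℝ x v := by
      intro x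
      simp [f, real_inner_comm]
    let s : AffineSubspace ℝ (E d) := AffineSubspace.mk' x0 (LinearMap.ker f)
    have hs : {x : E d | inner ℝ x v = c} ⊆ (s : Set (E d)) := by
      intro x hx
      have hx1 : inner ℝ x v = c := hx
      have hx2 : inner ℝ x0 v = c := hx0
      simp only [s, SetLike.mem_coe, AffineSubspace.mem_mk', LinearMap.mem_ker, vsub_eq_sub, hf]
      rw [inner_sub_left, hx1, hx2]; ring
    refine measure_mono_null hs (Measure.addHaar_affineSubspace volume s ?_)
    intro htop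
    have h1 : x0 + v ∈ s := by rw [htop]; trivial
    simp only [s, AffineSubspace.mem_mk', LinearMap.mem_ker, vsub_eq_sub, add_sub_cancel_left,
      hf] at h1
    exact hv (inner_self_eq_zero.1 h1)

theorem Cell_inter_subset (y : ι → E d) (a : ι → ℝ) (i j : ι) :
    Cell y a i ∩ Cell y a j ⊆ {x | inner ℝ x (y i - y j) = a i - a j} := by
  rintro x ⟨hi, hj⟩
  have h1 := hi j
  have h2 := hj i
  change inner ℝ x (y i - y j) = a i - a j
  rw [inner_sub_right]
  linarith

theorem volume_Cell_inter {y : ι → E d} (hy : Function.Injective y) (a : ι → ℝ) {i j : ι}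
    (hij : i ≠ j) : volume (Cell y a i ∩ Cell y a j) = 0 :=
  measure_mono_null (Cell_inter_subset y a i j)
    (volume_hyperplane _ (sub_ne_zero.2 (hy.ne hij)) _)

theorem measure_Cell_inter {τ : Measure (E d)} (hτ : τ ≪ volume) {y : ι → E d}
    (hy : Function.Injective y) (a : ι → ℝ) {i j : ι}
    (hij : i ≠ j) : τ (Cell y a i ∩ Cell y a j) = 0 :=
  hτ (volume_Cell_inter hy a hij)

theorem unif_absolutelyContinuous (K : Set (E d)) : unif K ≪ volume := by
  unfold unif
  exact (Measure.smul_absolutelyContinuous).trans Measure.restrict_le_self.absolutelyContinuous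

end Vale.Agent.P074
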