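import Mathlib
import Vale.Agent.P074.Basic

open MeasureTheory Set Filter
open scoped ENNReal NNReal

namespace Vale.Agent.P074

variable {d : ℕ}

/-- The Prékopa–Leindler inequality on `E d` (proved in `PL.lean`). -/
def PLStmt (d : ℕ) : Prop :=
  ∀ t : ℝ, 0 < t → t < 1 → ∀ F G H : E d → ℝ≥0∞, Measurable F → Measurable G → Measurable H →
    (∀ x y, F x ^ (1 - t) * G y ^ t ≤ H ((1 - t) • x + t • y)) →
    (∫⁻ x, F x) ^ (1 - t) * (∫⁻ x, G x) ^ t ≤ ∫⁻ x, H x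

/-- weight -/
noncomputable def wt (R : ℝ) (x : E d) : ℝ := 2 * R ^ 2 - ‖x‖ ^ 2

/-- linearised logarithm of the weight -/
noncomputable def ell (R : ℝ) (z x : E d) : ℝ := -2 * inner ℝ z (x - z) / wt R z

theorem wt_ge {R : ℝ} {x : E d} (hx : ‖x‖ ≤ R) : R ^ 2 ≤ wt R x := by
  have := norm_nonneg x
  unfold wt
  nlinarith

theorem wt_le {R : ℝ} (x : E d) : wt R x ≤ 2 * R ^ 2 := by
  unfold wt
  nlinarith [sq_nonneg ‖x‖]

theorem wt_pos {R : ℝ} (hR : 0 < R) {x : E d} (hx : ‖x‖ ≤ R) : 0 < wt R x :=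
  lt_of_lt_of_le (by positivity) (wt_ge hx)

theorem continuous_wt (R : ℝ) : Continuous (wt (d := d) R) := by
  unfold wt; fun_prop

theorem continuous_ell (R : ℝ) (z : E d) : Continuous (ell R z) := by
  unfold ell; fun_prop

theorem wt_mul_ell {R : ℝ} (hR : 0 < R) {z : E d} (hz : ‖z‖ ≤ R) (x : E d) :
    wt R z * ell R z x = wt R x - wt R z + ‖x - z‖ ^ 2 := by
  have h0 := (wt_pos hR hz).ne'
  have h1 : wt R z * ell R z x = -2 * inner ℝ z (x - z) := by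
    unfold ell
    field_simp
  rw [h1, inner_sub_right, real_inner_self_eq_norm_sq, norm_sub_sq_real, real_inner_comm]
  unfold wt
  ring

theorem abs_ell_le {R : ℝ} (hR : 0 < R) {z x : E d} (hz : ‖z‖ ≤ R) (hx : ‖x‖ ≤ R) :
    |ell R z x| ≤ 4 := by
  have h0 := wt_ge hz
  have h1 := wt_pos hR hz
  unfold ell
  rw [abs_div, abs_of_pos h1, div_le_iff₀ h1, abs_mul]
  have h2 : |inner ℝ z (x - z)| ≤ ‖z‖ * ‖x - z‖ := abs_real_inner_le_norm _ _
  have h3 : ‖x - z‖ ≤ 2 * R := by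
    have := norm_sub_le x z
    linarith
  have h4 : ‖z‖ * ‖x - z‖ ≤ R * (2 * R) := by gcongr
  have : |(-2 : ℝ)| = 2 := by norm_num
  rw [this]
  nlinarith

theorem exp_le_one_add {u : ℝ} (hu : |u| ≤ 1 / 5) : Real.exp (u - 2 * u ^ 2) ≤ 1 + u := by
  have h0 := abs_le.1 hu
  have h := Real.abs_exp_sub_one_sub_id_le (x := u - 2 * u ^ 2) (by
    rw [abs_le]; constructor <;> nlinarith)
  have h1 := (abs_le.1 h).2
  have h2 : (u - 2 * u ^ 2) ^ 2 ≤ 2 * u ^ 2 := by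
    have : (u - 2 * u ^ 2) ^ 2 = u ^ 2 * (1 - 2 * u) ^ 2 := by ring
    rw [this]
    have h3 : (1 - 2 * u) ^ 2 ≤ 2 := by nlinarith
    nlinarith [sq_nonneg u]
  linarith

/-- Pointwise inequality feeding Prékopa–Leindler. -/
theorem pointwise {R t : ℝ} (hR : 0 < R) (ht : 0 < t) (ht' : t ≤ 1 / 32) {z x x' : E d}
    (hz : ‖z‖ ≤ R) (hx' : ‖x'‖ ≤ R) (hxz : ‖x - z‖ ≤ R * t ^ 2) :
    wt R z * Real.exp (t * ell R z x' - 50 * t ^ 2) ≤ wt R ((1 - t) • x + t • x') := by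
  set s : E d := (1 - t) • (x - z) + t • (x' - z) with hs
  have hp : (1 - t) • x + t • x' = z + s := by rw [hs]; module
  have hsn : ‖s‖ ≤ R * t ^ 2 + t * (2 * R) := by
    refine (norm_add_le _ _).trans ?_
    rw [norm_smul, norm_smul, Real.norm_of_nonneg (by linarith : (0:ℝ) ≤ 1 - t),
      Real.norm_of_nonneg ht.le]
    have h1 : (1 - t) * ‖x - z‖ ≤ 1 * (R * t ^ 2) := by
      apply mul_le_mul (by linarith) hxz (norm_nonneg _) (by norm_num)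
    have h2 : ‖x' - z‖ ≤ 2 * R := by
      have := norm_sub_le x' z
      linarith
    have h3 : t * ‖x' - z‖ ≤ t * (2 * R) := by gcongr
    linarith
  have hsn2 : ‖s‖ ^ 2 ≤ 42 / 10 * R ^ 2 * t ^ 2 := by
    have h1 : ‖s‖ ≤ (2 + 1 / 32) * (R * t) := by
      have : R * t ^ 2 ≤ R * t * (1 / 32) := by
        have : R * t ^ 2 = R * t * t := by ring
        rw [this]
        gcongr
      linarith
    have h2 : ‖s‖ ^ 2 ≤ ((2 + 1 / 32) * (R * t)) ^ 2 := by gcongr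
    nlinarith [sq_nonneg (R * t)]
  have hin : inner ℝ z s = (1 - t) * inner ℝ z (x - z) + t * inner ℝ z (x' - z) := by
    rw [hs, inner_add_right, inner_smul_right, inner_smul_right]
  have hze : |inner ℝ z (x - z)| ≤ R ^ 2 * t ^ 2 := by
    refine (abs_real_inner_le_norm _ _).trans ?_
    have : ‖z‖ * ‖x - z‖ ≤ R * (R * t ^ 2) := by gcongr
    nlinarith
  have hze2 : (1 - t) * inner ℝ z (x - z) ≤ R ^ 2 * t ^ 2 := by
    have h1 := (abs_le.1 hze).2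
    have h2 := (abs_le.1 hze).1
    have h3 : 0 ≤ R ^ 2 * t ^ 2 := by positivity
    nlinarith
  have hw0 := wt_ge hz
  have hwp := wt_pos hR hz
  have hell : wt R z * ell R z x' = -2 * inner ℝ z (x' - z) := by
    unfold ell
    field_simp
  have hexp : wt R (z + s) = wt R z - 2 * inner ℝ z s - ‖s‖ ^ 2 := by
    unfold wt
    rw [norm_add_sq_real]
    ring
  have hl := abs_ell_le hR hz hx'
  have hl1 := abs_le.1 hl
  set L := ell R z x' with hL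
  set u : ℝ := t * L - 62 / 10 * t ^ 2 with hu
  have hu1 : |u| ≤ 42 / 10 * t := by
    rw [abs_le]
    constructor <;> nlinarith
  have hu2 : |u| ≤ 1 / 5 := by linarith
  have hu3 : u ^ 2 ≤ 18 * t ^ 2 := by
    rw [← sq_abs]
    have : |u| ^ 2 ≤ (42 / 10 * t) ^ 2 := by gcongr
    nlinarith [sq_nonneg t]
  have h5 : wt R z * (1 + u) ≤ wt R (z + s) := by
    rw [hexp, hin, hu]
    have h6 : wt R z * (62 / 10 * t ^ 2) ≥ R ^ 2 * (62 / 10 * t ^ 2) := by gcongr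
    nlinarith
  rw [hp]
  refine le_trans ?_ h5
  refine mul_le_mul_of_nonneg_left ?_ hwp.le
  refine le_trans ?_ (exp_le_one_add hu2)
  apply Real.exp_le_exp.2
  rw [hu] at hu3 ⊢
  nlinarith

theorem cell_combo {ι : Type*} {y : ι → E d} {a b : ι → ℝ} {i : ι} {x x' : E d}
    (hx : x ∈ Cell y a i) (hx' : x' ∈ Cell y b i) {t : ℝ} (ht0 : 0 ≤ t) (ht1 : t ≤ 1) :
    (1 - t) • x + t • x' ∈ Cell y (fun j => (1 - t) * a j + t * b j) i := by
  intro j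
  simp only [inner_add_left, inner_smul_left, conj_trivial]
  have h1 := mul_le_mul_of_nonneg_left (hx j) (by linarith : 0 ≤ 1 - t)
  have h2 := mul_le_mul_of_nonneg_left (hx' j) ht0
  linarith

theorem log_bound {k : ℝ} (hk : |k| ≤ 1 / 2) :
    (1 + k) * Real.log (1 + k) ≤ k + k ^ 2 ∧ |(1 + k) * Real.log (1 + k)| ≤ 3 / 2 * |k| := by
  have h0 := abs_le.1 hk
  have h1 : Real.log (1 + k) ≤ k := by
    have := Real.log_le_sub_one_of_pos (by linarith : 0 < 1 + k)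
    linarith
  have h2 : k ≤ (1 + k) * Real.log (1 + k) := by
    have h3 := Real.one_sub_inv_le_log_of_pos (by linarith : 0 < 1 + k)
    have h4 : 0 < 1 + k := by linarith
    have h5 : (1 + k) * (1 - (1 + k)⁻¹) = k := by
      field_simp
      ring
    calc k = (1 + k) * (1 - (1 + k)⁻¹) := h5.symm
      _ ≤ _ := mul_le_mul_of_nonneg_left h3 h4.le
  have h6 : (1 + k) * Real.log (1 + k) ≤ k + k ^ 2 := by
    have h4 : 0 < 1 + k := by linarith
    have := mul_le_mul_of_nonneg_left h1 h4.le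
    linarith [this, (by ring : (1 + k) * k = k + k ^ 2)]
  refine ⟨h6, ?_⟩
  rw [abs_le]
  constructor
  · have := neg_abs_le k
    have h7 := abs_nonneg k
    linarith
  · rcases le_total 0 k with hk0 | hk0
    · rw [abs_of_nonneg hk0]
      nlinarith
    · rw [abs_of_nonpos hk0]
      nlinarith

/-- The final pointwise inequality. -/
theorem pointwise2 {R : ℝ} (hR : 0 < R) {z x : E d} (hz : ‖z‖ ≤ R) (hx : ‖x‖ ≤ R) {k : ℝ}
    (hk : |k| ≤ 1 / 2) :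
    1 / 2 * (‖x - z‖ ^ 2 * (1 + k)) ≤
      wt R z * ((ell R z x - Real.log (1 + k)) * (1 + k)) + wt R z * (1 + k) - wt R x
        + 11 * R ^ 2 * k ^ 2 := by
  have h0 := abs_le.1 hk
  have h1 := wt_mul_ell hR hz x
  obtain ⟨h2, h3⟩ := log_bound hk
  set g := (1 + k) * Real.log (1 + k) with hg
  have h4 : wt R z * ((ell R z x - Real.log (1 + k)) * (1 + k)) =
      (wt R x - wt R z + ‖x - z‖ ^ 2) * (1 + k) - wt R z * g := by
    rw [← h1, hg]; ring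
  rw [h4]
  -- |wt z - wt x| ≤ 2R|x - z|
  have h5 : |wt R z - wt R x| ≤ 2 * R * ‖x - z‖ := by
    unfold wt
    have e1 : (2 * R ^ 2 - ‖z‖ ^ 2) - (2 * R ^ 2 - ‖x‖ ^ 2) = (‖x‖ + ‖z‖) * (‖x‖ - ‖z‖) := by ring
    rw [e1, abs_mul, abs_of_nonneg (by positivity)]
    have e2 := abs_norm_sub_norm_le x z
    have e3 : ‖x‖ + ‖z‖ ≤ 2 * R := by linarith
    gcongr
  have h6 : wt R x * g ≤ wt R x * (k + k ^ 2) :=
    mul_le_mul_of_nonneg_left h2 (wt_pos hR hx).le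
  have h7 : (wt R z - wt R x) * g ≤ 3 * R * ‖x - z‖ * |k| := by
    have e1 : (wt R z - wt R x) * g ≤ |wt R z - wt R x| * |g| := by
      rw [← abs_mul]; exact le_abs_self _
    have e2 : |wt R z - wt R x| * |g| ≤ (2 * R * ‖x - z‖) * (3 / 2 * |k|) := by
      gcongr
    linarith
  have h8 : 3 * R * ‖x - z‖ * |k| ≤ 1 / 4 * ‖x - z‖ ^ 2 + 9 * R ^ 2 * k ^ 2 := by
    have := sq_nonneg (1 / 2 * ‖x - z‖ - 3 * R * |k|)
    have e : |k| ^ 2 = k ^ 2 := sq_abs k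
    nlinarith
  have h9 : wt R x * k ^ 2 ≤ 2 * R ^ 2 * k ^ 2 :=
    mul_le_mul_of_nonneg_right (wt_le x) (sq_nonneg k)
  have h10 : 1 / 4 * ‖x - z‖ ^ 2 ≤ 1 / 2 * (‖x - z‖ ^ 2 * (1 + k)) := by
    have := sq_nonneg ‖x - z‖
    nlinarith
  nlinarith

theorem wt_sub_le {R : ℝ} {x z : E d} (hx : ‖x‖ ≤ R) (hz : ‖z‖ ≤ R) :
    |wt R x - wt R z| ≤ 2 * R * ‖x - z‖ := by
  have hR0 : 0 ≤ R := (norm_nonneg x).trans hx
  unfold wt
  have e1 : (2 * R ^ 2 - ‖x‖ ^ 2) - (2 * R ^ 2 - ‖z‖ ^ 2) = -((‖x‖ + ‖z‖) * (‖x‖ - ‖z‖)) := by ring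
  rw [e1, abs_neg, abs_mul, abs_of_nonneg (by positivity)]
  have e2 := abs_norm_sub_norm_le x z
  have e3 : ‖x‖ + ‖z‖ ≤ 2 * R := by linarith
  gcongr

theorem sq_dist_le {R : ℝ} {x x' z : E d} (hx : ‖x‖ ≤ R) (hx' : ‖x'‖ ≤ R) (hz : ‖z‖ ≤ R) :
    ‖x - x'‖ ^ 2 ≤ ‖x' - z‖ ^ 2 + 4 * R * ‖x - z‖ := by
  have e : ‖x - x'‖ ≤ ‖x - z‖ + ‖x' - z‖ := by
    have : x - x' = (x - z) - (x' - z) := by abel
    rw [this]
    exact norm_sub_le _ _
  have h1 : ‖x - z‖ ≤ 2 * R := (norm_sub_le _ _).trans (by linarith)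
  have h2 : ‖x' - z‖ ≤ 2 * R := (norm_sub_le _ _).trans (by linarith)
  have h3 : ‖x - x'‖ ≤ 2 * R := (norm_sub_le _ _).trans (by linarith)
  have h4 := norm_nonneg (x - x')
  have h5 := norm_nonneg (x' - z)
  have h6 := norm_nonneg (x - z)
  -- a² - b² = (a-b)(a+b) ≤ c (4R)
  rcases le_total ‖x - x'‖ ‖x' - z‖ with h | h
  · have : ‖x - x'‖ ^ 2 ≤ ‖x' - z‖ ^ 2 := by gcongr
    have h7 : 0 ≤ R := by linarith
    have : 0 ≤ 4 * R * ‖x - z‖ := by positivity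
    linarith
  · have : ‖x - x'‖ ^ 2 - ‖x' - z‖ ^ 2 = (‖x - x'‖ - ‖x' - z‖) * (‖x - x'‖ + ‖x' - z‖) := by ring
    have h7 : (‖x - x'‖ - ‖x' - z‖) * (‖x - x'‖ + ‖x' - z‖) ≤ ‖x - z‖ * (4 * R) := by
      apply mul_le_mul <;> linarith
    linarith

end Vale.Agent.P074
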