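import Mathlib
import Vale.Agent.P074.Basic
import Vale.Agent.P074.Opt

open MeasureTheory Set
open scoped ENNReal NNReal

namespace Vale.Agent.P074

variable {d : ℕ}

section Semi

variable {ι : Type*} [Fintype ι]

/-- The dual functional. -/
noncomputable def Jf (τ : Measure (E d)) (y : ι → E d) (p : ι → ℝ≥0∞) (a : ι → ℝ) : ℝ :=
  ∫ x, uPot y a x ∂τ + ∑ i, (p i).toReal * a i

theorem Jf_continuous [Nonempty ι] {τ : Measure (E d)} [IsFiniteMeasure τ] {K : Set (E d)}
    (hK : IsCompact K) (hτK : τ Kᶜ = 0) (y : ι → E d) (p : ι → ℝ≥0∞) :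
    Continuous (Jf τ y p) := by
  have h1 : Continuous fun a : ι → ℝ => ∫ x, uPot y a x ∂τ := by
    refine (LipschitzWith.of_dist_le_mul (K := (τ.real univ).toNNReal) fun a b => ?_).continuous
    rw [dist_eq_norm, dist_eq_norm, ← integral_sub (integrable_of_cont hK hτK (continuous_uPot y a))
      (integrable_of_cont hK hτK (continuous_uPot y b))]
    rw [Real.coe_toNNReal _ measureReal_nonneg, mul_comm]
    exact norm_integral_le_of_norm_le_const
      (Filter.Eventually.of_forall fun x => abs_uPot_sub_le_a y a b x)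
  unfold Jf
  exact h1.add (by fun_prop)

theorem uPot_sub_const [Nonempty ι] (y : ι → E d) (a : ι → ℝ) (c : ℝ) (x : E d) :
    uPot y (fun i => a i - c) x = uPot y a x + c := by
  apply le_antisymm
  · refine uPot_le fun i => ?_
    have := le_uPot y a x i
    linarith
  · obtain ⟨i, hi⟩ := exists_uPot_eq y a x
    have := le_uPot y (fun i => a i - c) x i
    linarith

theorem Jf_sub_const [Nonempty ι] {τ : Measure (E d)} [IsFiniteMeasure τ] {K : Set (E d)}
    (hK : IsCompact K) (hτK : τ Kᶜ = 0) (y : ι → E d) {p : ι → ℝ≥0∞}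
    (hsum : ∑ i, p i = τ univ) (a : ι → ℝ) (c : ℝ) :
    Jf τ y p (fun i => a i - c) = Jf τ y p a := by
  have hne : ∀ i, p i ≠ ⊤ := by
    intro i hi
    have h1 : p i ≤ ∑ i, p i := Finset.single_le_sum (fun _ _ => zero_le) (Finset.mem_univ i)
    rw [hsum, hi] at h1
    exact absurd (top_le_iff.1 h1) (measure_ne_top τ univ)
  have hs : ∑ i, (p i).toReal = τ.real univ := by
    rw [← ENNReal.toReal_sum (fun i _ => hne i), hsum]; rfl
  unfold Jf
  simp only [uPot_sub_const]
  rw [integral_add (integrable_of_cont hK hτK (continuous_uPot y a)) (integrable_const c)]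
  simp only [integral_const, smul_eq_mul, mul_sub, Finset.sum_sub_distrib, ← Finset.sum_mul, hs]
  ring

theorem exists_Jf_min [Nonempty ι] {τ : Measure (E d)} [IsFiniteMeasure τ] {K : Set (E d)}
    (hK : IsCompact K) (hτK : τ Kᶜ = 0) (y : ι → E d) {p : ι → ℝ≥0∞} (hp : ∀ i, 0 < p i)
    (hsum : ∑ i, p i = τ univ) :
    ∃ a : ι → ℝ, ∀ b : ι → ℝ, Jf τ y p a ≤ Jf τ y p b := by
  have hne : ∀ i, p i ≠ ⊤ := by
    intro i hi
    have h1 : p i ≤ ∑ i, p i := Finset.single_le_sum (fun _ _ => zero_le) (Finset.mem_univ i)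
    rw [hsum, hi] at h1
    exact absurd (top_le_iff.1 h1) (measure_ne_top τ univ)
  have hpos : ∀ i, 0 < (p i).toReal := fun i => ENNReal.toReal_pos (hp i).ne' (hne i)
  -- bound for the inner products on K
  obtain ⟨r, hr⟩ := hK.isBounded.exists_norm_le
  obtain ⟨L, hL⟩ : ∃ L, ∀ i, ‖y i‖ ≤ L := by
    obtain ⟨L, hL⟩ := (Set.finite_range fun i => ‖y i‖).bddAbove
    exact ⟨L, fun i => hL ⟨i, rfl⟩⟩
  have hL0 : 0 ≤ L := (norm_nonneg _).trans (hL (Classical.arbitrary ι))
  have hKae : ∀ᵐ x ∂τ, x ∈ K := by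
    rw [ae_iff]; exact hτK
  -- lower bound
  have hlow : ∀ a : ι → ℝ, (∃ i, a i = 0) →
      -(|r| * L) * τ.real univ + ∑ i, (p i).toReal * a i ≤ Jf τ y p a := by
    rintro a ⟨i, hi⟩
    unfold Jf
    have h1 : ∫ _x, -(|r| * L) ∂τ ≤ ∫ x, uPot y a x ∂τ := by
      refine integral_mono_ae (integrable_const _)
        (integrable_of_cont hK hτK (continuous_uPot y a)) ?_
      filter_upwards [hKae] with x hx
      have h2 := le_uPot y a x i
      have h3 : |inner ℝ x (y i)| ≤ ‖x‖ * ‖y i‖ := abs_real_inner_le_norm _ _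
      have h4 : ‖x‖ * ‖y i‖ ≤ |r| * L := by
        have := (hr x hx).trans (le_abs_self r)
        have h5 := hL i
        gcongr
      have := (abs_le.1 h3).1
      rw [hi] at h2
      linarith
    rw [integral_const, smul_eq_mul] at h1
    linarith
  obtain ⟨i0, hi0⟩ := Finite.exists_min fun i => (p i).toReal
  set M : ℝ := (|Jf τ y p 0| + |r| * L * τ.real univ) / (p i0).toReal with hM
  have hM0 : 0 ≤ M := by
    have : 0 ≤ τ.real univ := measureReal_nonneg
    have := hpos i0
    positivity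
  let S : Set (ι → ℝ) := (Set.pi univ fun _ => Icc 0 M) ∩ ⋃ i, {a | a i = 0}
  have hS : IsCompact S := by
    refine (isCompact_univ_pi fun _ => isCompact_Icc).inter_right ?_
    exact isClosed_iUnion_of_finite fun i => isClosed_eq (by fun_prop) (by fun_prop)
  have h0S : (0 : ι → ℝ) ∈ S := by
    refine ⟨fun i _ => ⟨le_rfl, hM0⟩, mem_iUnion.2 ⟨Classical.arbitrary ι, rfl⟩⟩
  obtain ⟨a, haS, ha⟩ := hS.exists_isMinOn ⟨0, h0S⟩ (Jf_continuous hK hτK y p).continuousOn
  refine ⟨a, fun b => ?_⟩
  -- normalise b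
  obtain ⟨j, hj⟩ := Finite.exists_min b
  rw [← Jf_sub_const hK hτK y hsum b (b j)]
  set b' : ι → ℝ := fun i => b i - b j with hb'
  have hb0 : ∀ i, 0 ≤ b' i := fun i => sub_nonneg.2 (hj i)
  have hbj : b' j = 0 := sub_self _
  by_cases hbM : ∀ i, b' i ≤ M
  · exact ha (a := b') ⟨fun i _ => ⟨hb0 i, hbM i⟩, mem_iUnion.2 ⟨j, hbj⟩⟩
  · push Not at hbM
    obtain ⟨k, hk⟩ := hbM
    have h1 : Jf τ y p a ≤ Jf τ y p 0 := ha h0S
    have h2 := hlow b' ⟨j, hbj⟩
    have h3 : (p k).toReal * b' k ≤ ∑ i, (p i).toReal * b' i :=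
      Finset.single_le_sum (f := fun i => (p i).toReal * b' i)
        (fun i _ => mul_nonneg ENNReal.toReal_nonneg (hb0 i)) (Finset.mem_univ k)
    have h4 : (p i0).toReal * M ≤ (p k).toReal * b' k :=
      mul_le_mul (hi0 k) hk.le hM0 ENNReal.toReal_nonneg
    have h5 : (p i0).toReal * M = |Jf τ y p 0| + |r| * L * τ.real univ := by
      rw [hM]; field_simp [(hpos i0).ne']
    have h6 := le_abs_self (Jf τ y p 0)
    nlinarith

/-- The set where `i` wins by a margin `t`. -/
def DSet (y : ι → E d) (a : ι → ℝ) (i : ι) (t : ℝ) : Set (E d) :=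
  {x | ∀ j, j ≠ i → inner ℝ x (y j) - a j ≤ inner ℝ x (y i) - a i - t}

omit [Fintype ι] in
theorem isClosed_DSet (y : ι → E d) (a : ι → ℝ) (i : ι) (t : ℝ) : IsClosed (DSet y a i t) := by
  have : DSet y a i t
      = ⋂ j, ⋂ (_ : j ≠ i), {x | inner ℝ x (y j) - a j ≤ inner ℝ x (y i) - a i - t} := by
    ext x; simp [DSet]
  rw [this]
  exact isClosed_iInter fun j => isClosed_iInter fun _ => isClosed_le (by fun_prop) (by fun_prop)

theorem measure_DSet_le [Nonempty ι] {τ : Measure (E d)} [IsFiniteMeasure τ] {K : Set (E d)}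
    (hK : IsCompact K) (hτK : τ Kᶜ = 0) {y : ι → E d} {p : ι → ℝ≥0∞} {a : ι → ℝ}
    (ha : ∀ b : ι → ℝ, Jf τ y p a ≤ Jf τ y p b) (i : ι) {t : ℝ} (ht : 0 < t) :
    τ.real (DSet y a i t) ≤ (p i).toReal := by
  classical
  let b : ι → ℝ := Function.update a i (a i + t)
  have hb := ha b
  have hbi : b i = a i + t := by simp [b]
  have hbj : ∀ j, j ≠ i → b j = a j := fun j hj => by simp [b, hj]
  have hsumb : ∑ j, (p j).toReal * b j = ∑ j, (p j).toReal * a j + (p i).toReal * t := by
    have h1 : ∀ j, (p j).toReal * b j = (p j).toReal * a j + if j = i then (p i).toReal * t else 0 := by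
      intro j
      by_cases hj : j = i
      · subst hj; simp only [hbi, if_true]; ring
      · simp [hbj j hj, hj]
    simp only [h1, Finset.sum_add_distrib, Finset.sum_ite_eq', Finset.mem_univ, if_true]
  have hD := (isClosed_DSet y a i t).measurableSet
  have hpt : ∀ x, uPot y b x ≤ uPot y a x - (DSet y a i t).indicator (fun _ => t) x := by
    intro x
    by_cases hx : x ∈ DSet y a i t
    · rw [indicator_of_mem hx]
      refine uPot_le fun j => ?_
      have h2 := le_uPot y a x i
      by_cases hj : j = i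
      · subst hj
        rw [hbi]; linarith
      · rw [hbj j hj]
        have := hx j hj
        linarith
    · rw [indicator_of_notMem hx, sub_zero]
      refine uPot_le fun j => ?_
      have h2 := le_uPot y a x j
      by_cases hj : j = i
      · subst hj
        rw [hbi]; linarith
      · rw [hbj j hj]; exact h2
  have hint : ∫ x, uPot y b x ∂τ ≤ ∫ x, uPot y a x ∂τ - τ.real (DSet y a i t) * t := by
    have h3 : ∫ x, (DSet y a i t).indicator (fun _ => t) x ∂τ = τ.real (DSet y a i t) * t := by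
      rw [integral_indicator_const _ hD, smul_eq_mul]
    rw [← h3, ← integral_sub (integrable_of_cont hK hτK (continuous_uPot y a))
      ((integrable_const t).indicator hD)]
    exact integral_mono (integrable_of_cont hK hτK (continuous_uPot y b))
      ((integrable_of_cont hK hτK (continuous_uPot y a)).sub ((integrable_const t).indicator hD))
      hpt
  unfold Jf at hb
  rw [hsumb] at hb
  have : τ.real (DSet y a i t) * t ≤ (p i).toReal * t := by linarith
  exact le_of_mul_le_mul_right this ht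

/-- **Module B**: semi-discrete potentials exist. -/
theorem exists_semidiscrete {τ : Measure (E d)} [IsFiniteMeasure τ]
    (hτ : τ ≪ volume) {K : Set (E d)} (hK : IsCompact K) (hτK : τ Kᶜ = 0) {y : ι → E d}
    (hy : Function.Injective y) {p : ι → ℝ≥0∞} (hp : ∀ i, 0 < p i) (hsum : ∑ i, p i = τ univ) :
    ∃ a : ι → ℝ, ∀ i, τ (Cell y a i) = p i := by
  classical
  rcases isEmpty_or_nonempty ι with hι | hι
  · exact ⟨fun _ => 0, fun i => (hι.false i).elim⟩
  obtain ⟨a, ha⟩ := exists_Jf_min hK hτK y hp hsum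
  refine ⟨a, ?_⟩
  have hne : ∀ i, p i ≠ ⊤ := by
    intro i hi
    have h1 : p i ≤ ∑ i, p i := Finset.single_le_sum (fun _ _ => zero_le) (Finset.mem_univ i)
    rw [hsum, hi] at h1
    exact absurd (top_le_iff.1 h1) (measure_ne_top τ univ)
  have hle : ∀ i, τ (Cell y a i) ≤ p i := by
    intro i
    have hmono : Monotone fun n : ℕ => DSet y a i (1 / ((n : ℝ) + 1)) := by
      intro m n hmn x hx j hj
      have h1 := hx j hj
      have h2 : (1 : ℝ) / ((n : ℝ) + 1) ≤ 1 / ((m : ℝ) + 1) := by
        have : (m : ℝ) ≤ n := by exact_mod_cast hmn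
        gcongr
      linarith
    have hU : τ (⋃ n : ℕ, DSet y a i (1 / ((n : ℝ) + 1))) ≤ p i := by
      rw [hmono.measure_iUnion]
      refine iSup_le fun n => ?_
      have h1 := measure_DSet_le hK hτK ha i (t := 1 / ((n : ℝ) + 1)) (by positivity)
      rw [measureReal_def] at h1
      exact (ENNReal.toReal_le_toReal (measure_ne_top _ _) (hne i)).1 h1
    have hsub : Cell y a i ⊆ (⋃ n : ℕ, DSet y a i (1 / ((n : ℝ) + 1))) ∪
        ⋃ j ∈ (Finset.univ.erase i : Finset ι), (Cell y a i ∩ Cell y a j) := by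
      intro x hx
      by_cases hx2 : ∀ j, j ≠ i → inner ℝ x (y j) - a j < inner ℝ x (y i) - a i
      · left
        -- minimal margin
        by_cases hs : ∃ j, j ≠ i
        · obtain ⟨j0, hj0⟩ := hs
          have hne' : (Finset.univ.erase i : Finset ι).Nonempty :=
            ⟨j0, Finset.mem_erase.2 ⟨hj0, Finset.mem_univ _⟩⟩
          obtain ⟨j1, hj1, hmin⟩ := Finset.exists_min_image (Finset.univ.erase i)
            (fun j => (inner ℝ x (y i) - a i) - (inner ℝ x (y j) - a j)) hne'
          have hpos : 0 < (inner ℝ x (y i) - a i) - (inner ℝ x (y j1) - a j1) :=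
            sub_pos.2 (hx2 j1 (Finset.mem_erase.1 hj1).1)
          obtain ⟨n, hn⟩ := exists_nat_one_div_lt hpos
          refine mem_iUnion.2 ⟨n, fun j hj => ?_⟩
          have := hmin j (Finset.mem_erase.2 ⟨hj, Finset.mem_univ _⟩)
          linarith
        · push Not at hs
          exact mem_iUnion.2 ⟨0, fun j hj => absurd (hs j) hj⟩
      · right
        push Not at hx2
        obtain ⟨j, hj, hle⟩ := hx2
        refine mem_iUnion₂.2 ⟨j, Finset.mem_erase.2 ⟨hj, Finset.mem_univ _⟩, hx, fun k => ?_⟩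
        exact (hx k).trans hle
    calc τ (Cell y a i) ≤ τ (⋃ n : ℕ, DSet y a i (1 / ((n : ℝ) + 1))) +
          τ (⋃ j ∈ (Finset.univ.erase i : Finset ι), (Cell y a i ∩ Cell y a j)) :=
          (measure_mono hsub).trans (measure_union_le _ _)
      _ ≤ p i + 0 := by
          refine add_le_add hU (le_of_eq ?_)
          refine (measure_biUnion_null_iff (Finset.countable_toSet _)).2 fun j hj => ?_
          exact measure_Cell_inter hτ hy a (Finset.mem_erase.1 hj).1.symm
      _ = p i := add_zero _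
  -- equality
  have hge : ∑ i, p i ≤ ∑ i, τ (Cell y a i) := by
    rw [hsum, ← iUnion_Cell y a]
    exact measure_iUnion_fintype_le _ _
  have hfin : ∀ i, τ (Cell y a i) ≠ ⊤ := fun i => measure_ne_top _ _
  have hreal : ∀ i, (τ (Cell y a i)).toReal = (p i).toReal := by
    have h1 : ∀ i ∈ (Finset.univ : Finset ι), (τ (Cell y a i)).toReal ≤ (p i).toReal :=
      fun i _ => (ENNReal.toReal_le_toReal (hfin i) (hne i)).2 (hle i)
    have h2 : ∑ i, (τ (Cell y a i)).toReal = ∑ i, (p i).toReal := by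
      apply le_antisymm (Finset.sum_le_sum h1)
      rw [← ENNReal.toReal_sum (fun i _ => hne i), ← ENNReal.toReal_sum (fun i _ => hfin i)]
      exact (ENNReal.toReal_le_toReal (ENNReal.sum_ne_top.2 fun i _ => hne i)
        (ENNReal.sum_ne_top.2 fun i _ => hfin i)).2 hge
    intro i
    exact (Finset.sum_eq_sum_iff_of_le h1).1 h2 i (Finset.mem_univ i)
  intro i
  exact (ENNReal.toReal_eq_toReal_iff' (hfin i) (hne i)).1 (hreal i)

end Semi

end Vale.Agent.P074
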