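import Mathlib
import Vale.Agent.P074.Semi

open MeasureTheory Set Filter
open scoped ENNReal NNReal Topology

namespace Vale.Agent.P074

variable {d : ℕ}

/-- The conclusion of module C (key lemma), as a proposition about `K` and `R`. -/
def CellStab (K : Set (E d)) (R : ℝ) : Prop :=
  ∀ (ι : Type) [Fintype ι] [Nonempty ι] (y : ι → E d), Function.Injective y →
    ∀ κ : E d → ℝ, Measurable κ → (∀ x, |κ x| ≤ 1 / 2) → ∫ x, κ x ∂(unif K) = 0 →
    ∀ (p : ι → ℝ≥0∞), (∀ i, 0 < p i) → ∀ (a b : ι → ℝ),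
      (∀ i, unif K (Cell y a i) = p i) →
      (∀ i, ((unif K).withDensity (fun x => ENNReal.ofReal (1 + κ x))) (Cell y b i) = p i) →
      ∀ η : ℝ, 0 < η →
      ∃ π : Measure (E d × E d), π.map Prod.fst = unif K ∧
        π.map Prod.snd = (unif K).withDensity (fun x => ENNReal.ofReal (1 + κ x)) ∧
        π (⋃ i, Cell y a i ×ˢ Cell y b i)ᶜ = 0 ∧
        ∫ q, ‖q.1 - q.2‖ ^ 2 ∂π ≤ 25 * R ^ 2 * ∫ x, κ x ^ 2 ∂(unif K) + η

section Prelim

variable {K : Set (E d)}

theorem unif_isProb (hK : IsCompact K) (hKi : (interior K).Nonempty) :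
    IsProbabilityMeasure (unif K) := by
  refine ⟨?_⟩
  have h0 : volume K ≠ 0 := by
    have : 0 < volume (interior K) := isOpen_interior.measure_pos volume hKi
    exact (this.trans_le (measure_mono interior_subset)).ne'
  have h1 : volume K ≠ ⊤ := hK.measure_lt_top.ne
  simp only [unif, Measure.smul_apply, Measure.restrict_apply_univ, smul_eq_mul]
  exact ENNReal.inv_mul_cancel h0 h1

theorem unif_compl (hK : IsCompact K) : unif K Kᶜ = 0 := by
  simp only [unif, Measure.smul_apply, smul_eq_mul]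
  rw [Measure.restrict_apply hK.measurableSet.compl]
  simp

/-- Perturbed measure. -/
noncomputable abbrev sig (K : Set (E d)) (κ : E d → ℝ) : Measure (E d) :=
  (unif K).withDensity (fun x => ENNReal.ofReal (1 + κ x))

theorem integral_sig {κ : E d → ℝ} (hκm : Measurable κ) (hκ : ∀ x, |κ x| ≤ 1 / 2)
    (f : E d → ℝ) : ∫ x, f x ∂(sig K κ) = ∫ x, (1 + κ x) * f x ∂(unif K) := by
  unfold sig
  rw [integral_withDensity_eq_integral_toReal_smul (by fun_prop)
    (Eventually.of_forall fun x => ENNReal.ofReal_lt_top)]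
  refine integral_congr_ae (Eventually.of_forall fun x => ?_)
  simp only [smul_eq_mul]
  rw [ENNReal.toReal_ofReal]
  have := (abs_le.1 (hκ x)).1
  linarith

theorem sig_ac (K : Set (E d)) (κ : E d → ℝ) : sig K κ ≪ volume :=
  (withDensity_absolutelyContinuous _ _).trans (unif_absolutelyContinuous K)

theorem sig_compl (hK : IsCompact K) (κ : E d → ℝ) : sig K κ Kᶜ = 0 :=
  withDensity_absolutelyContinuous _ _ (unif_compl hK)

theorem integrable_kappa (hK : IsCompact K) (hKi : (interior K).Nonempty) {κ : E d → ℝ}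
    (hκm : Measurable κ) (hκ : ∀ x, |κ x| ≤ 1 / 2) : Integrable κ (unif K) := by
  have := unif_isProb hK hKi
  exact Integrable.of_bound hκm.aestronglyMeasurable (1 / 2) (Eventually.of_forall hκ)

theorem sig_isProb (hK : IsCompact K) (hKi : (interior K).Nonempty) {κ : E d → ℝ}
    (hκm : Measurable κ) (hκ : ∀ x, |κ x| ≤ 1 / 2) (h0 : ∫ x, κ x ∂(unif K) = 0) :
    IsProbabilityMeasure (sig K κ) := by
  have := unif_isProb hK hKi
  refine ⟨?_⟩
  rw [withDensity_apply _ MeasurableSet.univ, Measure.restrict_univ]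
  have hi : Integrable (fun x => 1 + κ x) (unif K) :=
    (integrable_const 1).add (integrable_kappa hK hKi hκm hκ)
  rw [← ofReal_integral_eq_lintegral_ofReal hi (Eventually.of_forall fun x => ?_)]
  · rw [integral_add (integrable_const 1) (integrable_kappa hK hKi hκm hκ), h0]
    simp
  · have := (abs_le.1 (hκ x)).1
    change (0 : ℝ) ≤ 1 + κ x
    linarith

end Prelim

section Cells

variable {ι : Type*} [Fintype ι]

/-- `x` lies in exactly one cell, the one of index `i`. -/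
def Only (C : ι → Set (E d)) (x : E d) (i : ι) : Prop := x ∈ C i ∧ ∀ j, j ≠ i → x ∉ C j

theorem ae_only [Nonempty ι] {σ : Measure (E d)} (hσ : σ ≪ volume) {y : ι → E d}
    (hy : Function.Injective y) (a : ι → ℝ) :
    ∀ᵐ x ∂σ, ∃ i, Only (Cell y a) x i := by
  have h1 : ∀ᵐ x ∂σ, ∀ i j, i ≠ j → ¬ (x ∈ Cell y a i ∩ Cell y a j) := by
    rw [ae_all_iff]; intro i
    rw [ae_all_iff]; intro j
    by_cases hij : i = j
    · exact Eventually.of_forall fun x h => absurd hij h
    · have := measure_Cell_inter hσ hy a hij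
      filter_upwards [measure_eq_zero_iff_ae_notMem.1 this] with x hx _
      exact hx
  filter_upwards [h1] with x hx
  have hx2 : x ∈ ⋃ i, Cell y a i := by rw [iUnion_Cell]; trivial
  obtain ⟨i, hi⟩ := mem_iUnion.1 hx2
  exact ⟨i, hi, fun j hj hxj => hx i j (Ne.symm hj) ⟨hi, hxj⟩⟩

theorem sum_indicator_of_only {C : ι → Set (E d)} {x : E d} {i : ι} (h : Only C x i)
    (g : ι → E d → ℝ) : ∑ j, (C j).indicator (g j) x = g i x := by
  classical
  rw [Finset.sum_eq_single i]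
  · rw [indicator_of_mem h.1]
  · intro j _ hj
    rw [indicator_of_notMem (h.2 j hj)]
  · intro h; exact absurd (Finset.mem_univ i) h

/-- Potentials for `σ`. -/
def IsPot (σ : Measure (E d)) (p : ι → ℝ) (y : ι → E d) (a : ι → ℝ) : Prop :=
  ∀ i, σ (Cell y a i) = ENNReal.ofReal (p i)

theorem exists_isPot {σ : Measure (E d)} [IsProbabilityMeasure σ] (hσ : σ ≪ volume)
    {K : Set (E d)} (hK : IsCompact K) (hσK : σ Kᶜ = 0) {p : ι → ℝ} (hp : ∀ i, 0 < p i)
    (hsum : ∑ i, p i = 1) {y : ι → E d} (hy : Function.Injective y) :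
    ∃ a, IsPot σ p y a := by
  refine exists_semidiscrete hσ hK hσK hy (p := fun i => ENNReal.ofReal (p i))
    (fun i => ENNReal.ofReal_pos.2 (hp i)) ?_
  rw [← ENNReal.ofReal_sum_of_nonneg (fun i _ => (hp i).le), hsum]
  simp

/-- The dual value. -/
noncomputable def Val (σ : Measure (E d)) (p : ι → ℝ) (y : ι → E d) (a : ι → ℝ) : ℝ :=
  ∫ x, uPot y a x ∂σ + ∑ i, p i * a i

theorem integrable_sum_indicator {σ : Measure (E d)} [IsFiniteMeasure σ]
    {K : Set (E d)} (hK : IsCompact K) (hσK : σ Kᶜ = 0) {C : ι → Set (E d)}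
    (hC : ∀ i, MeasurableSet (C i)) {g : ι → E d → ℝ} (hg : ∀ i, Continuous (g i)) :
    Integrable (fun x => ∑ i, (C i).indicator (g i) x) σ :=
  integrable_finsetSum _ fun i _ => (integrable_of_cont hK hσK (hg i)).indicator (hC i)

theorem integral_sum_indicator_const {σ : Measure (E d)} [IsFiniteMeasure σ]
    {p : ι → ℝ} (hp : ∀ i, 0 < p i) {y : ι → E d} {a : ι → ℝ} (ha : IsPot σ p y a)
    (c : ι → ℝ) :
    ∫ x, ∑ i, (Cell y a i).indicator (fun _ => c i) x ∂σ = ∑ i, p i * c i := by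
  rw [integral_finsetSum _ fun i _ =>
    (integrable_const (c i)).indicator (measurableSet_Cell y a i)]
  refine Finset.sum_congr rfl fun i _ => ?_
  rw [integral_indicator_const _ (measurableSet_Cell y a i), smul_eq_mul, measureReal_def, ha i,
    ENNReal.toReal_ofReal (hp i).le]

/-- The transport value of the cell partition of `(y', a')` against the points `y`. -/
theorem weak_duality [Nonempty ι] {σ : Measure (E d)} [IsFiniteMeasure σ] (hσ : σ ≪ volume)
    {K : Set (E d)} (hK : IsCompact K) (hσK : σ Kᶜ = 0) {p : ι → ℝ} (hp : ∀ i, 0 < p i)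
    {y' : ι → E d} (hy' : Function.Injective y') {a' : ι → ℝ} (ha' : IsPot σ p y' a')
    (y : ι → E d) (a : ι → ℝ) :
    ∫ x, ∑ i, (Cell y' a' i).indicator (fun x => inner ℝ x (y i)) x ∂σ ≤ Val σ p y a := by
  unfold Val
  rw [← integral_sum_indicator_const hp ha' a, ← integral_add
    (integrable_of_cont hK hσK (continuous_uPot y a))
    (integrable_sum_indicator hK hσK (measurableSet_Cell y' a') fun i => continuous_const)]
  refine integral_mono_ae
    (integrable_sum_indicator hK hσK (measurableSet_Cell y' a') fun i => by fun_prop)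
    ((integrable_of_cont hK hσK (continuous_uPot y a)).add
    (integrable_sum_indicator hK hσK (measurableSet_Cell y' a') fun i => continuous_const)) ?_
  filter_upwards [ae_only hσ hy' a'] with x hx
  obtain ⟨i, hi⟩ := hx
  rw [sum_indicator_of_only hi, sum_indicator_of_only hi]
  have := le_uPot y a x i
  linarith

theorem val_eq [Nonempty ι] {σ : Measure (E d)} [IsFiniteMeasure σ] (hσ : σ ≪ volume)
    {K : Set (E d)} (hK : IsCompact K) (hσK : σ Kᶜ = 0) {p : ι → ℝ} (hp : ∀ i, 0 < p i)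
    {y : ι → E d} (hy : Function.Injective y) {a : ι → ℝ} (ha : IsPot σ p y a) :
    ∫ x, ∑ i, (Cell y a i).indicator (fun x => inner ℝ x (y i)) x ∂σ = Val σ p y a := by
  unfold Val
  rw [← integral_sum_indicator_const hp ha a, ← integral_add
    (integrable_of_cont hK hσK (continuous_uPot y a))
    (integrable_sum_indicator hK hσK (measurableSet_Cell y a) fun i => continuous_const)]
  refine integral_congr_ae ?_
  filter_upwards [ae_only hσ hy a] with x hx
  obtain ⟨i, hi⟩ := hx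
  rw [sum_indicator_of_only hi, sum_indicator_of_only hi, mem_Cell_iff.1 hi.1]
  ring

/-- The optimal dual value. -/
noncomputable def OV (σ : Measure (E d)) (p : ι → ℝ) (y : ι → E d) : ℝ := ⨅ a, Val σ p y a

theorem ov_bddBelow [Nonempty ι] {σ : Measure (E d)} [IsProbabilityMeasure σ] (hσ : σ ≪ volume)
    {K : Set (E d)} (hK : IsCompact K) (hσK : σ Kᶜ = 0) {p : ι → ℝ} (hp : ∀ i, 0 < p i)
    (hsum : ∑ i, p i = 1) {y' : ι → E d} (hy' : Function.Injective y') (y : ι → E d) :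
    BddBelow (Set.range (Val σ p y)) := by
  obtain ⟨a', ha'⟩ := exists_isPot hσ hK hσK hp hsum hy'
  refine ⟨∫ x, ∑ i, (Cell y' a' i).indicator (fun x => inner ℝ x (y i)) x ∂σ, ?_⟩
  rintro _ ⟨a, rfl⟩
  exact weak_duality hσ hK hσK hp hy' ha' y a

theorem ov_eq [Nonempty ι] {σ : Measure (E d)} [IsProbabilityMeasure σ] (hσ : σ ≪ volume)
    {K : Set (E d)} (hK : IsCompact K) (hσK : σ Kᶜ = 0) {p : ι → ℝ} (hp : ∀ i, 0 < p i)
    (hsum : ∑ i, p i = 1)
    {y : ι → E d} (hy : Function.Injective y) {a : ι → ℝ} (ha : IsPot σ p y a) :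
    OV σ p y = Val σ p y a := by
  apply le_antisymm
  · exact ciInf_le (ov_bddBelow hσ hK hσK hp hsum hy y) a
  · refine le_ciInf fun b => ?_
    rw [← val_eq hσ hK hσK hp hy ha]
    exact weak_duality hσ hK hσK hp hy ha y b

theorem ov_ge [Nonempty ι] {σ : Measure (E d)} [IsFiniteMeasure σ] (hσ : σ ≪ volume)
    {K : Set (E d)} (hK : IsCompact K) (hσK : σ Kᶜ = 0) {p : ι → ℝ} (hp : ∀ i, 0 < p i)
    {y' : ι → E d} (hy' : Function.Injective y') {a' : ι → ℝ} (ha' : IsPot σ p y' a')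
    (y : ι → E d) :
    ∫ x, ∑ i, (Cell y' a' i).indicator (fun x => inner ℝ x (y i)) x ∂σ ≤ OV σ p y :=
  le_ciInf fun a => weak_duality hσ hK hσK hp hy' ha' y a

theorem ov_le_add [Nonempty ι] {σ : Measure (E d)} [IsProbabilityMeasure σ] (hσ : σ ≪ volume)
    {K : Set (E d)} (hK : IsCompact K) (hσK : σ Kᶜ = 0) {p : ι → ℝ} (hp : ∀ i, 0 < p i)
    (hsum : ∑ i, p i = 1) {y0 : ι → E d} (hy0 : Function.Injective y0)
    {R : ℝ} (hR : K ⊆ Metric.closedBall 0 R) (hR0 : 0 ≤ R) {D : ℝ} {y y' : ι → E d}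
    (hD : ∀ i, ‖y i - y' i‖ ≤ D) :
    OV σ p y ≤ OV σ p y' + R * D := by
  have hKae : ∀ᵐ x ∂σ, x ∈ K := by rw [ae_iff]; exact hσK
  suffices h : ∀ a, OV σ p y - R * D ≤ Val σ p y' a by
    have := le_ciInf h
    unfold OV at *
    linarith
  intro a
  have h1 : OV σ p y ≤ Val σ p y a := ciInf_le (ov_bddBelow hσ hK hσK hp hsum hy0 y) a
  have h2 : ∫ x, uPot y a x ∂σ ≤ ∫ x, (uPot y' a x + R * D) ∂σ := by
    refine integral_mono_ae (integrable_of_cont hK hσK (continuous_uPot y a))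
      ((integrable_of_cont hK hσK (continuous_uPot y' a)).add (integrable_const _)) ?_
    filter_upwards [hKae] with x hx
    refine uPot_le fun i => ?_
    have h3 := le_uPot y' a x i
    have h4 : inner ℝ x (y i) - inner ℝ x (y' i) ≤ ‖x‖ * ‖y i - y' i‖ := by
      rw [← inner_sub_right]; exact real_inner_le_norm _ _
    have h5 : ‖x‖ ≤ R := by simpa using hR hx
    have h6 : ‖x‖ * ‖y i - y' i‖ ≤ R * D :=
      mul_le_mul h5 (hD i) (norm_nonneg _) hR0
    linarith
  rw [integral_add (integrable_of_cont hK hσK (continuous_uPot y' a)) (integrable_const _)] at h2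
  simp only [integral_const, probReal_univ, one_smul] at h2
  unfold Val at *
  linarith

/-- Interpolation of the points. -/
def yt (y0 y1 : ι → E d) (t : ℝ) (i : ι) : E d := y0 i + t • (y1 i - y0 i)

theorem countable_collision {y0 y1 : ι → E d} (hy0 : Function.Injective y0) :
    {t : ℝ | ¬ Function.Injective (yt y0 y1 t)}.Countable := by
  have hsub : {t : ℝ | ¬ Function.Injective (yt y0 y1 t)} ⊆
      ⋃ i, ⋃ j, {t : ℝ | i ≠ j ∧ yt y0 y1 t i = yt y0 y1 t j} := by
    intro t ht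
    have ht' : ¬ Function.Injective (yt y0 y1 t) := ht
    rw [Function.Injective] at ht'
    push Not at ht'
    obtain ⟨i, j, h1, h2⟩ := ht'
    exact mem_iUnion₂.2 ⟨i, j, h2, h1⟩
  refine Countable.mono hsub (countable_iUnion fun i => countable_iUnion fun j => ?_)
  refine Set.Subsingleton.countable fun t ht s hs => ?_
  obtain ⟨hij, h1⟩ := ht
  obtain ⟨_, h2⟩ := hs
  by_contra hts
  have h3 : (t - s) • ((y1 i - y0 i) - (y1 j - y0 j)) = 0 := by
    have h1' : y0 i + t • (y1 i - y0 i) = y0 j + t • (y1 j - y0 j) := h1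
    have h2' : y0 i + s • (y1 i - y0 i) = y0 j + s • (y1 j - y0 j) := h2
    have h4 : (t - s) • ((y1 i - y0 i) - (y1 j - y0 j)) =
      ((y0 i + t • (y1 i - y0 i)) - (y0 j + t • (y1 j - y0 j))) -
      ((y0 i + s • (y1 i - y0 i)) - (y0 j + s • (y1 j - y0 j))) := by
      module
    rw [h4, h1', h2']; simp
  rcases smul_eq_zero.1 h3 with h | h
  · exact hts (sub_eq_zero.1 h)
  · have h5 : y1 i - y0 i = y1 j - y0 j := sub_eq_zero.1 h
    have h1' : y0 i + t • (y1 i - y0 i) = y0 j + t • (y1 j - y0 j) := h1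
    rw [h5] at h1'
    exact hij (hy0 (add_right_cancel h1'))

theorem lipschitz_ov [Nonempty ι] {σ : Measure (E d)} [IsProbabilityMeasure σ] (hσ : σ ≪ volume)
    {K : Set (E d)} (hK : IsCompact K) (hσK : σ Kᶜ = 0) {p : ι → ℝ} (hp : ∀ i, 0 < p i)
    (hsum : ∑ i, p i = 1) {y0 : ι → E d} (hy0 : Function.Injective y0)
    {R : ℝ} (hR : K ⊆ Metric.closedBall 0 R) (hR0 : 0 ≤ R) {D : ℝ} (y1 : ι → E d)
    (hD : ∀ i, ‖y1 i - y0 i‖ ≤ D) (hD0 : 0 ≤ D) :
    LipschitzWith (Real.toNNReal (R * D)) (fun t => OV σ p (yt y0 y1 t)) := by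
  have key : ∀ s t : ℝ, OV σ p (yt y0 y1 s) ≤ OV σ p (yt y0 y1 t) + R * (D * |s - t|) := by
    intro s t
    refine ov_le_add hσ hK hσK hp hsum hy0 hR hR0 fun i => ?_
    have : yt y0 y1 s i - yt y0 y1 t i = (s - t) • (y1 i - y0 i) := by
      simp only [yt, sub_smul]; abel
    rw [this, norm_smul, Real.norm_eq_abs, mul_comm]
    exact mul_le_mul_of_nonneg_right (hD i) (abs_nonneg _)
  refine LipschitzWith.of_dist_le_mul fun s t => ?_
  rw [Real.dist_eq, Real.dist_eq, Real.coe_toNNReal _ (mul_nonneg hR0 hD0), abs_le]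
  have h1 := key s t
  have h2 := key t s
  rw [abs_sub_comm] at h2
  constructor <;> nlinarith

theorem deriv_ov [Nonempty ι] {σ : Measure (E d)} [IsProbabilityMeasure σ] (hσ : σ ≪ volume)
    {K : Set (E d)} (hK : IsCompact K) (hσK : σ Kᶜ = 0) {p : ι → ℝ} (hp : ∀ i, 0 < p i)
    (hsum : ∑ i, p i = 1) {y0 y1 : ι → E d} {t : ℝ}
    (hyt : Function.Injective (yt y0 y1 t)) {a : ι → ℝ} (ha : IsPot σ p (yt y0 y1 t) a)
    (hd : DifferentiableAt ℝ (fun t => OV σ p (yt y0 y1 t)) t) :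
    deriv (fun t => OV σ p (yt y0 y1 t)) t =
      ∫ x, ∑ i, (Cell (yt y0 y1 t) a i).indicator (fun x => inner ℝ x (y1 i - y0 i)) x ∂σ := by
  set G : ℝ := ∫ x, ∑ i, (Cell (yt y0 y1 t) a i).indicator
    (fun x => inner ℝ x (y1 i - y0 i)) x ∂σ with hG
  have hineq : ∀ s : ℝ, OV σ p (yt y0 y1 t) + (s - t) * G ≤ OV σ p (yt y0 y1 s) := by
    intro s
    refine le_trans (le_of_eq ?_) (ov_ge hσ hK hσK hp hyt ha (yt y0 y1 s))
    rw [ov_eq hσ hK hσK hp hsum hyt ha, ← val_eq hσ hK hσK hp hyt ha, hG,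
      ← integral_const_mul, ← integral_add
      (integrable_sum_indicator hK hσK (measurableSet_Cell _ a) fun i => by fun_prop)
      ((integrable_sum_indicator hK hσK (measurableSet_Cell _ a) fun i => by fun_prop).const_mul _)]
    refine integral_congr_ae ?_
    filter_upwards [ae_only hσ hyt a] with x hx
    obtain ⟨i, hi⟩ := hx
    rw [sum_indicator_of_only hi, sum_indicator_of_only hi, sum_indicator_of_only hi]
    simp only [yt, inner_add_right, inner_smul_right]
    ring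
  have hmin : IsLocalMin (fun s => OV σ p (yt y0 y1 s) - (s - t) * G) t := by
    refine Eventually.of_forall fun s => ?_
    have := hineq s
    simp only [sub_self, zero_mul, sub_zero]
    linarith
  have hder : HasDerivAt (fun s => OV σ p (yt y0 y1 s) - (s - t) * G)
      (deriv (fun t => OV σ p (yt y0 y1 t)) t - G) t := by
    have h1 : HasDerivAt (fun s : ℝ => (s - t) * G) G t := by
      simpa using ((hasDerivAt_id t).sub_const t).mul_const G
    exact hd.hasDerivAt.sub h1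
  have := hmin.hasDerivAt_eq_zero hder
  linarith

/-- Mean value inequality for Lipschitz functions. -/
theorem mean_ineq {φ : ℝ → ℝ} {C : ℝ≥0} (hφ : LipschitzWith C φ) {B : ℝ}
    (hB : ∀ᵐ t : ℝ, DifferentiableAt ℝ φ t → deriv φ t ≤ B) : φ 1 - φ 0 ≤ B := by
  have hac : AbsolutelyContinuousOnInterval φ 0 1 :=
    (hφ.lipschitzOnWith (s := uIcc 0 1)).absolutelyContinuousOnInterval
  rw [← hac.integral_deriv_eq_sub]
  have h1 : ∫ t in (0 : ℝ)..1, deriv φ t ≤ ∫ _t in (0 : ℝ)..1, B := by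
    refine intervalIntegral.integral_mono_ae (by norm_num) hac.intervalIntegrable_deriv
      intervalIntegrable_const ?_
    filter_upwards [hB, hφ.ae_differentiableAt_real] with t h2 h3
    exact h2 h3
  simpa using h1

end Cells

section Coupling

variable {ι : Type*} [Fintype ι]

/-- Basic facts on the couplings of module C. -/
theorem ae_coupling [Nonempty ι] {ρ σ : Measure (E d)} (hρ : ρ ≪ volume) (hσ : σ ≪ volume)
    {y : ι → E d} (hy : Function.Injective y) {a b : ι → ℝ} {π : Measure (E d × E d)}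
    (h1 : π.map Prod.fst = ρ) (h2 : π.map Prod.snd = σ)
    (h3 : π (⋃ i, Cell y a i ×ˢ Cell y b i)ᶜ = 0) :
    ∀ᵐ q ∂π, ∃ i, Only (Cell y a) q.1 i ∧ Only (Cell y b) q.2 i := by
  have e1 : ∀ᵐ q ∂π, ∃ i, Only (Cell y a) (Prod.fst q) i := by
    have := ae_only hρ hy a
    rw [← h1] at this
    exact ae_of_ae_map measurable_fst.aemeasurable this
  have e2 : ∀ᵐ q ∂π, ∃ i, Only (Cell y b) (Prod.snd q) i := by
    have := ae_only hσ hy b
    rw [← h2] at this
    exact ae_of_ae_map measurable_snd.aemeasurable this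
  have e3 : ∀ᵐ q ∂π, q ∈ ⋃ i, Cell y a i ×ˢ Cell y b i := by
    rw [ae_iff]; exact h3
  filter_upwards [e1, e2, e3] with q h4 h5 h6
  obtain ⟨i, hi1, hi2⟩ := mem_iUnion.1 h6
  obtain ⟨j, hj⟩ := h4
  obtain ⟨k, hk⟩ := h5
  have hij : i = j := by
    by_contra h
    exact hj.2 i h hi1
  have hik : i = k := by
    by_contra h
    exact hk.2 i h hi2
  subst hij; subst hik
  exact ⟨i, hj, hk⟩

theorem integrable_sq_dist {ρ σ : Measure (E d)} [IsProbabilityMeasure ρ]
    {K : Set (E d)} (hK : IsCompact K) (hρK : ρ Kᶜ = 0) (hσK : σ Kᶜ = 0)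
    {π : Measure (E d × E d)} (h1 : π.map Prod.fst = ρ) (h2 : π.map Prod.snd = σ) :
    IsProbabilityMeasure π ∧ Integrable (fun q : E d × E d => ‖q.1 - q.2‖ ^ 2) π := by
  have hπ : IsProbabilityMeasure π := by
    refine ⟨?_⟩
    have : (π.map Prod.fst) univ = π univ := by
      rw [Measure.map_apply measurable_fst MeasurableSet.univ]; rfl
    rw [← this, h1]; exact measure_univ
  refine ⟨hπ, ?_⟩
  obtain ⟨r, hr⟩ := hK.isBounded.exists_norm_le
  have e1 : ∀ᵐ q ∂π, Prod.fst q ∈ K := by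
    have : ∀ᵐ x ∂ρ, x ∈ K := by rw [ae_iff]; exact hρK
    rw [← h1] at this
    exact ae_of_ae_map measurable_fst.aemeasurable this
  have e2 : ∀ᵐ q ∂π, Prod.snd q ∈ K := by
    have : ∀ᵐ x ∂σ, x ∈ K := by rw [ae_iff]; exact hσK
    rw [← h2] at this
    exact ae_of_ae_map measurable_snd.aemeasurable this
  refine Integrable.of_bound (by fun_prop) ((r + r) ^ 2) ?_
  filter_upwards [e1, e2] with q h4 h5
  rw [norm_pow, norm_norm]
  have : ‖q.1 - q.2‖ ≤ r + r := (norm_sub_le _ _).trans (add_le_add (hr _ h4) (hr _ h5))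
  gcongr

theorem young {a b ε : ℝ} (hε : 0 < ε) : a * b ≤ ε / 2 * a ^ 2 + 1 / (2 * ε) * b ^ 2 := by
  have h : 0 ≤ (ε * a - b) ^ 2 / (2 * ε) := by positivity
  have h2 : (ε * a - b) ^ 2 / (2 * ε) = ε / 2 * a ^ 2 + 1 / (2 * ε) * b ^ 2 - a * b := by
    field_simp; ring
  linarith

/-- First use of module C. -/
theorem key_upper [Nonempty ι] {ρ σ : Measure (E d)} [IsProbabilityMeasure ρ]
    [IsProbabilityMeasure σ] (hρ : ρ ≪ volume) (hσ : σ ≪ volume)
    {K : Set (E d)} (hK : IsCompact K) (hρK : ρ Kᶜ = 0) (hσK : σ Kᶜ = 0)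
    {p : ι → ℝ} (hp : ∀ i, 0 < p i)
    {y : ι → E d} (hy : Function.Injective y) {a b : ι → ℝ} (ha : IsPot ρ p y a)
    {D2 : ℝ} {π : Measure (E d × E d)}
    (h1 : π.map Prod.fst = ρ) (h2 : π.map Prod.snd = σ)
    (h3 : π (⋃ i, Cell y a i ×ˢ Cell y b i)ᶜ = 0) (h4 : ∫ q, ‖q.1 - q.2‖ ^ 2 ∂π ≤ D2)
    (Δ : ι → E d) {ε : ℝ} (hε : 0 < ε) :
    ∫ x, ∑ i, (Cell y b i).indicator (fun x => inner ℝ x (Δ i)) x ∂σ
      - ∫ x, ∑ i, (Cell y a i).indicator (fun x => inner ℝ x (Δ i)) x ∂ρ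
      ≤ ε / 2 * ∑ i, p i * ‖Δ i‖ ^ 2 + 1 / (2 * ε) * D2 := by
  obtain ⟨hπ, hint⟩ := integrable_sq_dist hK hρK hσK h1 h2
  have hFb : Integrable (fun x => ∑ i, (Cell y b i).indicator (fun x => inner ℝ x (Δ i)) x) σ :=
    integrable_sum_indicator hK hσK (measurableSet_Cell y b) fun i => by fun_prop
  have hFa : Integrable (fun x => ∑ i, (Cell y a i).indicator (fun x => inner ℝ x (Δ i)) x) ρ :=
    integrable_sum_indicator hK hρK (measurableSet_Cell y a) fun i => by fun_prop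
  have hH : Integrable (fun x => ∑ i, (Cell y a i).indicator (fun _ => ‖Δ i‖ ^ 2) x) ρ :=
    integrable_sum_indicator hK hρK (measurableSet_Cell y a) fun i => by fun_prop
  have hHi := integral_sum_indicator_const hp ha fun i => ‖Δ i‖ ^ 2
  have jb : ∫ x, ∑ i, (Cell y b i).indicator (fun x => inner ℝ x (Δ i)) x ∂σ =
      ∫ q, ∑ i, (Cell y b i).indicator (fun x => inner ℝ x (Δ i)) q.2 ∂π := by
    rw [← h2] at hFb ⊢
    exact integral_map measurable_snd.aemeasurable hFb.aestronglyMeasurable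
  have ja : ∫ x, ∑ i, (Cell y a i).indicator (fun x => inner ℝ x (Δ i)) x ∂ρ =
      ∫ q, ∑ i, (Cell y a i).indicator (fun x => inner ℝ x (Δ i)) q.1 ∂π := by
    rw [← h1] at hFa ⊢
    exact integral_map measurable_fst.aemeasurable hFa.aestronglyMeasurable
  have jh : ∫ x, ∑ i, (Cell y a i).indicator (fun _ => ‖Δ i‖ ^ 2) x ∂ρ =
      ∫ q, ∑ i, (Cell y a i).indicator (fun _ => ‖Δ i‖ ^ 2) q.1 ∂π := by
    rw [← h1] at hH ⊢
    exact integral_map measurable_fst.aemeasurable hH.aestronglyMeasurable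
  have ib : Integrable (fun q : E d × E d =>
      ∑ i, (Cell y b i).indicator (fun x => inner ℝ x (Δ i)) q.2) π := by
    rw [← h2] at hFb; exact hFb.comp_measurable measurable_snd
  have ia : Integrable (fun q : E d × E d =>
      ∑ i, (Cell y a i).indicator (fun x => inner ℝ x (Δ i)) q.1) π := by
    rw [← h1] at hFa; exact hFa.comp_measurable measurable_fst
  have ih : Integrable (fun q : E d × E d =>
      ∑ i, (Cell y a i).indicator (fun _ => ‖Δ i‖ ^ 2) q.1) π := by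
    rw [← h1] at hH; exact hH.comp_measurable measurable_fst
  rw [jb, ja, ← integral_sub ib ia]
  have hmono : ∫ q, (∑ i, (Cell y b i).indicator (fun x => inner ℝ x (Δ i)) q.2
      - ∑ i, (Cell y a i).indicator (fun x => inner ℝ x (Δ i)) q.1) ∂π ≤
      ∫ q, (ε / 2 * ∑ i, (Cell y a i).indicator (fun _ => ‖Δ i‖ ^ 2) q.1
        + 1 / (2 * ε) * ‖q.1 - q.2‖ ^ 2) ∂π := by
    refine integral_mono_ae (ib.sub ia) ((ih.const_mul _).add (hint.const_mul _)) ?_
    filter_upwards [ae_coupling hρ hσ hy h1 h2 h3] with q hq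
    obtain ⟨i, hi1, hi2⟩ := hq
    rw [sum_indicator_of_only hi1, sum_indicator_of_only hi2, sum_indicator_of_only hi1,
      ← inner_sub_left]
    have h5 : inner ℝ (q.2 - q.1) (Δ i) ≤ ‖Δ i‖ * ‖q.1 - q.2‖ := by
      rw [norm_sub_rev, mul_comm]
      exact real_inner_le_norm _ _
    exact h5.trans (young hε)
  refine hmono.trans ?_
  rw [integral_add (ih.const_mul _) (hint.const_mul _), integral_const_mul, integral_const_mul,
    ← jh, hHi]
  have : 1 / (2 * ε) * ∫ q, ‖q.1 - q.2‖ ^ 2 ∂π ≤ 1 / (2 * ε) * D2 :=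
    mul_le_mul_of_nonneg_left h4 (by positivity)
  linarith

/-- The boundary layer between two cells. -/
def Zset (y : ι → E d) (a : ι → ℝ) (τ : ℝ) (i j : ι) : Set (E d) :=
  {x | i ≠ j ∧ x ∈ Cell y a i ∧ x ∈ Metric.cthickening τ (Cell y a j)}

omit [Fintype ι] in
theorem measurableSet_Zset (y : ι → E d) (a : ι → ℝ) (τ : ℝ) (i j : ι) :
    MeasurableSet (Zset y a τ i j) := by
  by_cases h : i = j
  · have : Zset y a τ i j = ∅ := by
      ext x; simp [Zset, h]
    rw [this]; exact MeasurableSet.empty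
  · have : Zset y a τ i j = Cell y a i ∩ Metric.cthickening τ (Cell y a j) := by
      ext x
      constructor
      · rintro ⟨_, h1, h2⟩; exact ⟨h1, h2⟩
      · rintro ⟨h1, h2⟩; exact ⟨h, h1, h2⟩
    rw [this]
    exact (measurableSet_Cell y a i).inter Metric.isClosed_cthickening.measurableSet

omit [Fintype ι] in
theorem tendsto_Zset {ρ : Measure (E d)} [IsFiniteMeasure ρ] (hρ : ρ ≪ volume) {y : ι → E d}
    (hy : Function.Injective y) (a : ι → ℝ) (i j : ι) :
    Tendsto (fun τ : ℝ => ρ.real (Zset y a τ i j)) (𝓝 0) (𝓝 0) := by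
  by_cases h : i = j
  · have : ∀ τ, Zset y a τ i j = ∅ := by
      intro τ; ext x; simp [Zset, h]
    simp [this]
  · have : ∀ τ, Zset y a τ i j = Metric.cthickening τ (Cell y a j) ∩ Cell y a i := by
      intro τ; ext x
      constructor
      · rintro ⟨_, h1, h2⟩; exact ⟨h2, h1⟩
      · rintro ⟨h2, h1⟩; exact ⟨h, h1, h2⟩
    have h2 : Tendsto (fun τ : ℝ => (ρ.restrict (Cell y a i)) (Metric.cthickening τ (Cell y a j)))
        (𝓝 0) (𝓝 ((ρ.restrict (Cell y a i)) (Cell y a j))) :=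
      tendsto_measure_cthickening_of_isClosed ⟨1, one_pos, measure_ne_top _ _⟩
        (isClosed_Cell y a j)
    have h3 : (ρ.restrict (Cell y a i)) (Cell y a j) = 0 := by
      rw [Measure.restrict_apply (measurableSet_Cell y a j)]
      exact measure_Cell_inter hρ hy a (Ne.symm h)
    rw [h3] at h2
    have h4 := (ENNReal.tendsto_toReal ENNReal.zero_ne_top).comp h2
    simp only [ENNReal.toReal_zero] at h4
    refine h4.congr fun τ => ?_
    simp only [Function.comp, this]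
    rw [Measure.restrict_apply Metric.isClosed_cthickening.measurableSet, measureReal_def]

/-- Second use of module C. -/
theorem key_lower [Nonempty ι] {ρ σ : Measure (E d)} [IsProbabilityMeasure ρ]
    [IsProbabilityMeasure σ] (hρ : ρ ≪ volume) (hσ : σ ≪ volume)
    {K : Set (E d)} (hK : IsCompact K) (hρK : ρ Kᶜ = 0) (hσK : σ Kᶜ = 0)
    {p : ι → ℝ} (hp : ∀ i, 0 < p i)
    {y : ι → E d} (hy : Function.Injective y) {a b : ι → ℝ}
    (hb : IsPot σ p y b) {D2 : ℝ} {π : Measure (E d × E d)}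
    (h1 : π.map Prod.fst = ρ) (h2 : π.map Prod.snd = σ)
    (h3 : π (⋃ i, Cell y a i ×ˢ Cell y b i)ᶜ = 0) (h4 : ∫ q, ‖q.1 - q.2‖ ^ 2 ∂π ≤ D2)
    {L : ℝ} (hL : ∀ i, ‖y i‖ ≤ L) {l τ : ℝ} (hl : 0 < l) (hτ : 0 < τ) :
    Val σ p y a - Val σ p y b ≤ (l + L ^ 2 / l / τ ^ 2) * D2
      + L ^ 2 / l * ∑ i, ∑ j, ρ.real (Zset y a τ i j) := by
  obtain ⟨hπ, hint⟩ := integrable_sq_dist hK hρK hσK h1 h2
  have hL0 : 0 ≤ L := (norm_nonneg _).trans (hL (Classical.arbitrary ι))
  have iu : Integrable (uPot y a) σ := integrable_of_cont hK hσK (continuous_uPot y a)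
  have ic : Integrable (fun x => ∑ i, (Cell y b i).indicator (fun _ => a i) x) σ :=
    integrable_sum_indicator hK hσK (measurableSet_Cell y b) fun i => by fun_prop
  have iy : Integrable (fun x => ∑ i, (Cell y b i).indicator (fun x => inner ℝ x (y i)) x) σ :=
    integrable_sum_indicator hK hσK (measurableSet_Cell y b) fun i => by fun_prop
  have e1 : Val σ p y a - Val σ p y b = ∫ x, (uPot y a x
      + ∑ i, (Cell y b i).indicator (fun _ => a i) x
      - ∑ i, (Cell y b i).indicator (fun x => inner ℝ x (y i)) x) ∂σ := by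
    have iuc : Integrable (fun x => uPot y a x
      + ∑ i, (Cell y b i).indicator (fun _ => a i) x) σ := iu.add ic
    rw [integral_sub iuc iy, integral_add iu ic, integral_sum_indicator_const hp hb a,
      val_eq hσ hK hσK hp hy hb]
    rfl
  have iΨ : Integrable (fun x => uPot y a x
      + ∑ i, (Cell y b i).indicator (fun _ => a i) x
      - ∑ i, (Cell y b i).indicator (fun x => inner ℝ x (y i)) x) σ := (iu.add ic).sub iy
  have iZ : Integrable (fun x => ∑ i, ∑ j, (Zset y a τ i j).indicator (fun _ => (1 : ℝ)) x) ρ :=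
    integrable_finsetSum _ fun i _ => integrable_finsetSum _ fun j _ =>
      (integrable_const _).indicator (measurableSet_Zset y a τ i j)
  have eZ : ∫ x, ∑ i, ∑ j, (Zset y a τ i j).indicator (fun _ => (1 : ℝ)) x ∂ρ =
      ∑ i, ∑ j, ρ.real (Zset y a τ i j) := by
    rw [integral_finsetSum _ fun i _ => integrable_finsetSum _ fun j _ =>
      (integrable_const _).indicator (measurableSet_Zset y a τ i j)]
    refine Finset.sum_congr rfl fun i _ => ?_
    rw [integral_finsetSum _ fun j _ =>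
      (integrable_const _).indicator (measurableSet_Zset y a τ i j)]
    refine Finset.sum_congr rfl fun j _ => ?_
    rw [integral_indicator_const _ (measurableSet_Zset y a τ i j)]; simp
  have jΨ : ∫ x, (uPot y a x + ∑ i, (Cell y b i).indicator (fun _ => a i) x
      - ∑ i, (Cell y b i).indicator (fun x => inner ℝ x (y i)) x) ∂σ =
      ∫ q, (uPot y a q.2 + ∑ i, (Cell y b i).indicator (fun _ => a i) q.2
      - ∑ i, (Cell y b i).indicator (fun x => inner ℝ x (y i)) q.2) ∂π := by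
    rw [← h2] at iΨ ⊢
    exact integral_map measurable_snd.aemeasurable iΨ.aestronglyMeasurable
  have jZ : ∫ x, ∑ i, ∑ j, (Zset y a τ i j).indicator (fun _ => (1 : ℝ)) x ∂ρ =
      ∫ q, ∑ i, ∑ j, (Zset y a τ i j).indicator (fun _ => (1 : ℝ)) q.1 ∂π := by
    rw [← h1] at iZ ⊢
    exact integral_map measurable_fst.aemeasurable iZ.aestronglyMeasurable
  have kΨ : Integrable (fun q : E d × E d => uPot y a q.2
      + ∑ i, (Cell y b i).indicator (fun _ => a i) q.2
      - ∑ i, (Cell y b i).indicator (fun x => inner ℝ x (y i)) q.2) π := by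
    rw [← h2] at iΨ; exact iΨ.comp_measurable measurable_snd
  have kZ : Integrable (fun q : E d × E d =>
      ∑ i, ∑ j, (Zset y a τ i j).indicator (fun _ => (1 : ℝ)) q.1) π := by
    rw [← h1] at iZ; exact iZ.comp_measurable measurable_fst
  rw [e1, jΨ]
  have hmono : ∫ q, (uPot y a q.2 + ∑ i, (Cell y b i).indicator (fun _ => a i) q.2
      - ∑ i, (Cell y b i).indicator (fun x => inner ℝ x (y i)) q.2) ∂π ≤
      ∫ q, ((l + L ^ 2 / l / τ ^ 2) * ‖q.1 - q.2‖ ^ 2
        + L ^ 2 / l * ∑ i, ∑ j, (Zset y a τ i j).indicator (fun _ => (1 : ℝ)) q.1) ∂π := by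
    refine integral_mono_ae kΨ ((hint.const_mul _).add (kZ.const_mul _)) ?_
    filter_upwards [ae_coupling hρ hσ hy h1 h2 h3] with q hq
    obtain ⟨i, hi1, hi2⟩ := hq
    rw [sum_indicator_of_only hi2, sum_indicator_of_only hi2]
    have hZ0 : 0 ≤ ∑ i, ∑ j, (Zset y a τ i j).indicator (fun _ => (1 : ℝ)) q.1 :=
      Finset.sum_nonneg fun i _ => Finset.sum_nonneg fun j _ =>
        indicator_nonneg (fun _ _ => zero_le_one) _
    by_cases hq2 : q.2 ∈ Cell y a i
    · have := mem_Cell_iff.1 hq2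
      have hr : 0 ≤ (l + L ^ 2 / l / τ ^ 2) * ‖q.1 - q.2‖ ^ 2
        + L ^ 2 / l * ∑ i, ∑ j, (Zset y a τ i j).indicator (fun _ => (1 : ℝ)) q.1 := by
        positivity
      linarith
    · -- pointwise bound
      have hG : uPot y a q.2 + a i - inner ℝ q.2 (y i) ≤ 2 * L * ‖q.1 - q.2‖ := by
        have g1 := uPot_sub_le (a := a) hL q.2 q.1
        have g2 := mem_Cell_iff.1 hi1.1
        have g3 : inner ℝ q.1 (y i) - inner ℝ q.2 (y i) ≤ ‖q.1 - q.2‖ * ‖y i‖ := by
          rw [← inner_sub_left]; exact real_inner_le_norm _ _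
        have g4 : ‖q.1 - q.2‖ * ‖y i‖ ≤ L * ‖q.1 - q.2‖ := by
          rw [mul_comm]; exact mul_le_mul_of_nonneg_right (hL i) (norm_nonneg _)
        rw [norm_sub_rev] at g1
        linarith
      have hN : 1 ≤ ‖q.1 - q.2‖ ^ 2 / τ ^ 2
          + ∑ i, ∑ j, (Zset y a τ i j).indicator (fun _ => (1 : ℝ)) q.1 := by
        by_cases hd : ‖q.1 - q.2‖ ≤ τ
        · have hx : q.2 ∈ ⋃ i, Cell y a i := by rw [iUnion_Cell]; trivial
          obtain ⟨j, hj⟩ := mem_iUnion.1 hx
          have hij : i ≠ j := by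
            rintro rfl; exact hq2 hj
          have hmem : q.1 ∈ Zset y a τ i j := by
            refine ⟨hij, hi1.1, ?_⟩
            refine Metric.mem_cthickening_of_dist_le q.1 q.2 τ _ hj ?_
            rw [dist_eq_norm]; exact hd
          have h5 : (1 : ℝ) ≤ ∑ i, ∑ j, (Zset y a τ i j).indicator (fun _ => (1 : ℝ)) q.1 := by
            calc (1 : ℝ) = (Zset y a τ i j).indicator (fun _ => (1 : ℝ)) q.1 := by
                  rw [indicator_of_mem hmem]
              _ ≤ ∑ j, (Zset y a τ i j).indicator (fun _ => (1 : ℝ)) q.1 :=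
                  Finset.single_le_sum (f := fun j => (Zset y a τ i j).indicator
                    (fun _ => (1 : ℝ)) q.1) (fun j _ => indicator_nonneg
                    (fun _ _ => zero_le_one) _) (Finset.mem_univ j)
              _ ≤ ∑ i, ∑ j, (Zset y a τ i j).indicator (fun _ => (1 : ℝ)) q.1 :=
                  Finset.single_le_sum (f := fun i => ∑ j, (Zset y a τ i j).indicator
                    (fun _ => (1 : ℝ)) q.1) (fun i _ => Finset.sum_nonneg fun j _ =>
                    indicator_nonneg (fun _ _ => zero_le_one) _) (Finset.mem_univ i)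
          have : 0 ≤ ‖q.1 - q.2‖ ^ 2 / τ ^ 2 := by positivity
          linarith
        · push Not at hd
          have : 1 ≤ ‖q.1 - q.2‖ ^ 2 / τ ^ 2 := by
            rw [le_div_iff₀ (by positivity)]
            nlinarith
          linarith
      have hY : 2 * L * ‖q.1 - q.2‖ ≤ l * ‖q.1 - q.2‖ ^ 2 + L ^ 2 / l := by
        have h6 : 0 ≤ (l * ‖q.1 - q.2‖ - L) ^ 2 / l := by positivity
        have h7 : (l * ‖q.1 - q.2‖ - L) ^ 2 / l =
          l * ‖q.1 - q.2‖ ^ 2 + L ^ 2 / l - 2 * L * ‖q.1 - q.2‖ := by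
          field_simp; ring
        linarith
      have h8 : L ^ 2 / l * 1 ≤ L ^ 2 / l * (‖q.1 - q.2‖ ^ 2 / τ ^ 2
          + ∑ i, ∑ j, (Zset y a τ i j).indicator (fun _ => (1 : ℝ)) q.1) :=
        mul_le_mul_of_nonneg_left hN (by positivity)
      have h9 : (l + L ^ 2 / l / τ ^ 2) * ‖q.1 - q.2‖ ^ 2 =
        l * ‖q.1 - q.2‖ ^ 2 + L ^ 2 / l * (‖q.1 - q.2‖ ^ 2 / τ ^ 2) := by ring
      rw [h9]
      linarith
  refine hmono.trans ?_
  rw [integral_add (hint.const_mul _) (kZ.const_mul _), integral_const_mul, integral_const_mul,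
    ← jZ, eZ]
  have : (l + L ^ 2 / l / τ ^ 2) * ∫ q, ‖q.1 - q.2‖ ^ 2 ∂π ≤ (l + L ^ 2 / l / τ ^ 2) * D2 :=
    mul_le_mul_of_nonneg_left h4 (by positivity)
  linarith

end Coupling

theorem val_sig_sub {K : Set (E d)} (hK : IsCompact K) (hKi : (interior K).Nonempty)
    {κ : E d → ℝ} (hκm : Measurable κ) (hκ : ∀ x, |κ x| ≤ 1 / 2) {ι : Type*} [Fintype ι]
    (p : ι → ℝ) (y : ι → E d) (a : ι → ℝ) :
    Val (sig K κ) p y a - Val (unif K) p y a = ∫ x, κ x * uPot y a x ∂(unif K) := by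
  have := unif_isProb hK hKi
  have iu : Integrable (uPot y a) (unif K) :=
    integrable_of_cont hK (unif_compl hK) (continuous_uPot y a)
  have iκ : Integrable (fun x => κ x * uPot y a x) (unif K) :=
    iu.bdd_mul hκm.aestronglyMeasurable (c := 1 / 2) (Eventually.of_forall hκ)
  unfold Val
  rw [integral_sig hκm hκ]
  have : ∫ x, (1 + κ x) * uPot y a x ∂(unif K) =
      ∫ x, uPot y a x ∂(unif K) + ∫ x, κ x * uPot y a x ∂(unif K) := by
    rw [← integral_add iu iκ]
    refine integral_congr_ae (Eventually.of_forall fun x => ?_)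
    simp only
    ring
  rw [this]; ring

/-- The quantitative inequality behind module D, for a perturbation `κ`. -/
theorem stab_ineq {K : Set (E d)} (hK : IsCompact K)
    (hKi : (interior K).Nonempty) {R : ℝ} (hR0 : 0 < R) (hR : K ⊆ Metric.closedBall 0 R)
    (hC : CellStab K R)
    {ι : Type} [Fintype ι] [Nonempty ι] {y0 y1 : ι → E d} (hy0 : Function.Injective y0)
    (hy1 : Function.Injective y1) {p : ι → ℝ} (hp : ∀ i, 0 < p i) (hsum : ∑ i, p i = 1)
    {a0 a1 : ι → ℝ} (ha0 : IsPot (unif K) p y0 a0)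
    (ha1 : IsPot (unif K) p y1 a1)
    {κ : E d → ℝ} (hκm : Measurable κ) (hκ : ∀ x, |κ x| ≤ 1 / 2)
    (hκ0 : ∫ x, κ x ∂(unif K) = 0)
    {L : ℝ} (hL : ∀ i, ‖y1 i‖ ≤ L) {ε η l τ : ℝ} (hε : 0 < ε) (hη : 0 < η) (hl : 0 < l)
    (hτ : 0 < τ) :
    ∫ x, κ x * (uPot y1 a1 x - uPot y0 a0 x) ∂(unif K) ≤
      (ε / 2 * ∑ i, p i * ‖y1 i - y0 i‖ ^ 2
        + 1 / (2 * ε) * (25 * R ^ 2 * ∫ x, κ x ^ 2 ∂(unif K) + η))
      + ((l + L ^ 2 / l / τ ^ 2) * (25 * R ^ 2 * ∫ x, κ x ^ 2 ∂(unif K) + η)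
      + L ^ 2 / l * ∑ i, ∑ j, (unif K).real (Zset y1 a1 τ i j)) := by
  have hρp := unif_isProb hK hKi
  have hσp := sig_isProb hK hKi hκm hκ hκ0
  have hρ := unif_absolutelyContinuous K
  have hσ := sig_ac K κ
  have hρK := unif_compl hK
  have hσK := sig_compl hK κ
  -- the value functions
  have hy0t : yt y0 y1 0 = y0 := by funext i; simp [yt]
  have hy1t : yt y0 y1 1 = y1 := by funext i; simp [yt]
  obtain ⟨D, hD⟩ : ∃ D, ∀ i, ‖y1 i - y0 i‖ ≤ D := by
    obtain ⟨D, hD⟩ := (Set.finite_range fun i => ‖y1 i - y0 i‖).bddAbove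
    exact ⟨D, fun i => hD ⟨i, rfl⟩⟩
  have hD0 : 0 ≤ D := (norm_nonneg _).trans (hD (Classical.arbitrary ι))
  have l1 := lipschitz_ov hσ hK hσK hp hsum hy0 hR hR0.le y1 hD hD0
  have l2 := lipschitz_ov hρ hK hρK hp hsum hy0 hR hR0.le y1 hD hD0
  have up : (OV (sig K κ) p y1 - OV (unif K) p y1) - (OV (sig K κ) p y0 - OV (unif K) p y0) ≤
      ε / 2 * ∑ i, p i * ‖y1 i - y0 i‖ ^ 2
        + 1 / (2 * ε) * (25 * R ^ 2 * ∫ x, κ x ^ 2 ∂(unif K) + η) := by
    have hm := mean_ineq (l1.sub l2) (B := ε / 2 * ∑ i, p i * ‖y1 i - y0 i‖ ^ 2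
        + 1 / (2 * ε) * (25 * R ^ 2 * ∫ x, κ x ^ 2 ∂(unif K) + η)) ?_
    · simp only [hy0t, hy1t] at hm
      exact hm
    · filter_upwards [l1.ae_differentiableAt_real, l2.ae_differentiableAt_real,
        (countable_collision (y1 := y1) hy0).ae_notMem volume] with t d1 d2 ht _
      have hinj : Function.Injective (yt y0 y1 t) := by
        by_contra h; exact ht h
      obtain ⟨a, ha⟩ := exists_isPot hρ hK hρK hp hsum hinj
      obtain ⟨b, hb⟩ := exists_isPot hσ hK hσK hp hsum hinj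
      rw [deriv_fun_sub d1 d2, deriv_ov hσ hK hσK hp hsum hinj hb d1,
        deriv_ov hρ hK hρK hp hsum hinj ha d2]
      obtain ⟨π, h1, h2, h3, h4⟩ := hC ι (yt y0 y1 t) hinj κ hκm hκ hκ0
        (fun i => ENNReal.ofReal (p i)) (fun i => ENNReal.ofReal_pos.2 (hp i)) a b ha hb η hη
      exact key_upper hρ hσ hK hρK hσK hp hinj ha h1 h2 h3 h4 _ hε
  obtain ⟨b, hb⟩ := exists_isPot hσ hK hσK hp hsum hy1
  obtain ⟨π, h1, h2, h3, h4⟩ := hC ι y1 hy1 κ hκm hκ hκ0
    (fun i => ENNReal.ofReal (p i)) (fun i => ENNReal.ofReal_pos.2 (hp i)) a1 b ha1 hb η hη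
  have low := key_lower hρ hσ hK hρK hσK hp hy1 (a := a1) hb h1 h2 h3 h4 hL hl hτ
  have e1 := ov_eq hσ hK hσK hp hsum hy1 hb
  have e2 := ov_eq hρ hK hρK hp hsum hy1 ha1
  have e3 := ov_eq hρ hK hρK hp hsum hy0 ha0
  have e4 : OV (sig K κ) p y0 ≤ Val (sig K κ) p y0 a0 :=
    ciInf_le (ov_bddBelow hσ hK hσK hp hsum hy0 y0) a0
  have e5 := val_sig_sub hK hKi hκm hκ p y1 a1
  have e6 := val_sig_sub hK hKi hκm hκ p y0 a0
  have iu : ∀ (y : ι → E d) (a : ι → ℝ), Integrable (fun x => κ x * uPot y a x) (unif K) :=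
    fun y a => (integrable_of_cont hK (unif_compl hK) (continuous_uPot y a)).bdd_mul
      hκm.aestronglyMeasurable (c := 1 / 2) (Eventually.of_forall hκ)
  have e7 : ∫ x, κ x * (uPot y1 a1 x - uPot y0 a0 x) ∂(unif K) =
      ∫ x, κ x * uPot y1 a1 x ∂(unif K) - ∫ x, κ x * uPot y0 a0 x ∂(unif K) := by
    rw [← integral_sub (iu y1 a1) (iu y0 a0)]
    refine integral_congr_ae (Eventually.of_forall fun x => ?_)
    simp only
    ring
  rw [e7]
  linarith

/-- **Module D**: stability of potentials for finite targets. -/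
theorem finite_stab {K : Set (E d)} (hK : IsCompact K)
    (hKi : (interior K).Nonempty) {R : ℝ} (hR0 : 0 < R) (hR : K ⊆ Metric.closedBall 0 R)
    (hC : CellStab K R)
    {ι : Type} [Fintype ι] {y0 y1 : ι → E d} (hy0 : Function.Injective y0)
    (hy1 : Function.Injective y1) {p : ι → ℝ} (hp : ∀ i, 0 < p i) (hsum : ∑ i, p i = 1)
    {a0 a1 : ι → ℝ} (ha0 : ∀ i, unif K (Cell y0 a0 i) = ENNReal.ofReal (p i))
    (ha1 : ∀ i, unif K (Cell y1 a1 i) = ENNReal.ofReal (p i)) :
    ∫ x, ((uPot y1 a1 x - uPot y0 a0 x)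
        - ∫ z, (uPot y1 a1 z - uPot y0 a0 z) ∂(unif K)) ^ 2 ∂(unif K)
      ≤ 25 * R ^ 2 * ∑ i, p i * ‖y1 i - y0 i‖ ^ 2 := by
  have hne : Nonempty ι := by
    by_contra h
    rw [not_nonempty_iff] at h
    simp at hsum
  have hρp := unif_isProb hK hKi
  have hρK := unif_compl hK
  have hKae : ∀ᵐ x ∂(unif K), x ∈ K := by rw [ae_iff]; exact hρK
  set m : ℝ := ∫ z, (uPot y1 a1 z - uPot y0 a0 z) ∂(unif K) with hm
  set k : E d → ℝ := fun x => (uPot y1 a1 x - uPot y0 a0 x) - m with hk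
  have hkc : Continuous k := ((continuous_uPot y1 a1).sub (continuous_uPot y0 a0)).sub
    continuous_const
  have ik : Integrable k (unif K) := integrable_of_cont hK hρK hkc
  have ik2 : Integrable (fun x => k x ^ 2) (unif K) := integrable_of_cont hK hρK (hkc.pow 2)
  have hk0 : ∫ x, k x ∂(unif K) = 0 := by
    have ih : Integrable (fun z => uPot y1 a1 z - uPot y0 a0 z) (unif K) :=
      integrable_of_cont hK hρK ((continuous_uPot y1 a1).sub (continuous_uPot y0 a0))
    simp only [hk]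
    rw [integral_sub ih (integrable_const _), ← hm]
    simp
  set N : ℝ := ∫ x, k x ^ 2 ∂(unif K) with hN
  have hN0 : 0 ≤ N := integral_nonneg fun x => sq_nonneg _
  set δ2 : ℝ := ∑ i, p i * ‖y1 i - y0 i‖ ^ 2 with hδ2
  change N ≤ 25 * R ^ 2 * δ2
  obtain ⟨C0, hC0⟩ := hK.exists_bound_of_continuousOn hkc.continuousOn
  set C : ℝ := |C0| + 1 with hCdef
  have hCpos : 0 < C := by positivity
  have hkC : ∀ x ∈ K, |k x| ≤ C := fun x hx => by
    have h1 := hC0 x hx
    have h2 := le_abs_self C0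
    rw [Real.norm_eq_abs] at h1
    linarith
  obtain ⟨L, hL⟩ : ∃ L, ∀ i, ‖y1 i‖ ≤ L := by
    obtain ⟨L, hL⟩ := (Set.finite_range fun i => ‖y1 i‖).bddAbove
    exact ⟨L, fun i => hL ⟨i, rfl⟩⟩
  -- main inequality for small s
  have main : ∀ s : ℝ, 0 < s → s ≤ 1 / (2 * C) → ∀ μ : ℝ, 0 < μ → ∀ τ : ℝ, 0 < τ →
      N ≤ 25 * R ^ 2 / 2 * δ2 + N / 2 + s / (50 * R ^ 2)
        + (μ + L ^ 2 * s ^ 2 / (μ * τ ^ 2)) * (25 * R ^ 2 * N + s)
        + L ^ 2 / μ * ∑ i, ∑ j, (unif K).real (Zset y1 a1 τ i j) := by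
    intro s hs hsC μ hμ τ hτ
    let κ : E d → ℝ := K.indicator fun x => s * k x
    have hκm : Measurable κ := (measurable_const.mul hkc.measurable).indicator hK.measurableSet
    have hκK : ∀ᵐ x ∂(unif K), κ x = s * k x := by
      filter_upwards [hKae] with x hx
      exact indicator_of_mem hx _
    have hκ : ∀ x, |κ x| ≤ 1 / 2 := by
      intro x
      by_cases hx : x ∈ K
      · have h1 : κ x = s * k x := indicator_of_mem hx _
        rw [h1, abs_mul, abs_of_pos hs]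
        have h2 := hkC x hx
        calc s * |k x| ≤ 1 / (2 * C) * C := by
              apply mul_le_mul hsC h2 (abs_nonneg _) (by positivity)
          _ = 1 / 2 := by field_simp
      · have h1 : κ x = 0 := indicator_of_notMem hx _
        rw [h1]; norm_num
    have hκ0 : ∫ x, κ x ∂(unif K) = 0 := by
      rw [integral_congr_ae hκK, integral_const_mul, hk0, mul_zero]
    have hκ2 : ∫ x, κ x ^ 2 ∂(unif K) = s ^ 2 * N := by
      rw [hN, ← integral_const_mul]
      refine integral_congr_ae ?_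
      filter_upwards [hκK] with x hx
      rw [hx]; ring
    have hκh : ∫ x, κ x * (uPot y1 a1 x - uPot y0 a0 x) ∂(unif K) = s * N := by
      have h1 : ∫ x, κ x * (uPot y1 a1 x - uPot y0 a0 x) ∂(unif K) =
          ∫ x, (s * k x ^ 2 + s * m * k x) ∂(unif K) := by
        refine integral_congr_ae ?_
        filter_upwards [hκK] with x hx
        rw [hx]
        simp only [hk]; ring
      rw [h1, integral_add (ik2.const_mul _) (ik.const_mul _), integral_const_mul,
        integral_const_mul, hk0, ← hN]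
      ring
    have h := stab_ineq hK hKi hR0 hR hC hy0 hy1 hp hsum ha0 ha1 hκm hκ hκ0 hL
      (ε := 25 * R ^ 2 * s) (η := s ^ 3) (l := μ / s) (τ := τ) (by positivity) (by positivity)
      (by positivity) hτ
    rw [hκh, hκ2, ← hδ2] at h
    set z : ℝ := ∑ i, ∑ j, (unif K).real (Zset y1 a1 τ i j) with hz
    have e : (25 * R ^ 2 * s / 2 * δ2 + 1 / (2 * (25 * R ^ 2 * s)) *
          (25 * R ^ 2 * (s ^ 2 * N) + s ^ 3))
        + ((μ / s + L ^ 2 / (μ / s) / τ ^ 2) * (25 * R ^ 2 * (s ^ 2 * N) + s ^ 3)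
        + L ^ 2 / (μ / s) * z) =
        s * (25 * R ^ 2 / 2 * δ2 + N / 2 + s / (50 * R ^ 2)
        + (μ + L ^ 2 * s ^ 2 / (μ * τ ^ 2)) * (25 * R ^ 2 * N + s)
        + L ^ 2 / μ * z) := by
      field_simp
      ring
    rw [e] at h
    exact le_of_mul_le_mul_left h hs
  -- s → 0
  have step1 : ∀ μ : ℝ, 0 < μ → ∀ τ : ℝ, 0 < τ →
      N ≤ 25 * R ^ 2 / 2 * δ2 + N / 2 + μ * (25 * R ^ 2 * N)
        + L ^ 2 / μ * ∑ i, ∑ j, (unif K).real (Zset y1 a1 τ i j) := by
    intro μ hμ τ hτ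
    set z : ℝ := ∑ i, ∑ j, (unif K).real (Zset y1 a1 τ i j) with hz
    have hcont : Continuous fun s : ℝ => 25 * R ^ 2 / 2 * δ2 + N / 2 + s / (50 * R ^ 2)
        + (μ + L ^ 2 * s ^ 2 / (μ * τ ^ 2)) * (25 * R ^ 2 * N + s) + L ^ 2 / μ * z := by
      fun_prop
    have ht := (hcont.tendsto 0).mono_left (nhdsWithin_le_nhds (s := Ioi 0))
    have hev : ∀ᶠ s in 𝓝[>] (0 : ℝ), N ≤ 25 * R ^ 2 / 2 * δ2 + N / 2 + s / (50 * R ^ 2)
        + (μ + L ^ 2 * s ^ 2 / (μ * τ ^ 2)) * (25 * R ^ 2 * N + s) + L ^ 2 / μ * z := by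
      filter_upwards [Ioc_mem_nhdsGT (show (0 : ℝ) < 1 / (2 * C) by positivity)] with s hs
      exact main s hs.1 hs.2 μ hμ τ hτ
    have := ge_of_tendsto ht hev
    simpa using this
  -- τ → 0
  have step2 : ∀ μ : ℝ, 0 < μ →
      N ≤ 25 * R ^ 2 / 2 * δ2 + N / 2 + μ * (25 * R ^ 2 * N) := by
    intro μ hμ
    have hz : Tendsto (fun τ : ℝ => ∑ i, ∑ j, (unif K).real (Zset y1 a1 τ i j)) (𝓝 0)
        (𝓝 (∑ _i : ι, ∑ _j : ι, (0 : ℝ))) :=
      tendsto_finsetSum _ fun i _ => tendsto_finsetSum _ fun j _ =>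
        tendsto_Zset (unif_absolutelyContinuous K) hy1 a1 i j
    simp only [Finset.sum_const_zero] at hz
    have ht : Tendsto (fun τ : ℝ => 25 * R ^ 2 / 2 * δ2 + N / 2 + μ * (25 * R ^ 2 * N)
        + L ^ 2 / μ * ∑ i, ∑ j, (unif K).real (Zset y1 a1 τ i j)) (𝓝[>] 0)
        (𝓝 (25 * R ^ 2 / 2 * δ2 + N / 2 + μ * (25 * R ^ 2 * N) + L ^ 2 / μ * 0)) :=
      (tendsto_const_nhds.add (hz.const_mul _)).mono_left nhdsWithin_le_nhds
    have hev : ∀ᶠ τ in 𝓝[>] (0 : ℝ), N ≤ 25 * R ^ 2 / 2 * δ2 + N / 2 + μ * (25 * R ^ 2 * N)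
        + L ^ 2 / μ * ∑ i, ∑ j, (unif K).real (Zset y1 a1 τ i j) := by
      filter_upwards [self_mem_nhdsWithin] with τ hτ
      exact step1 μ hμ τ hτ
    have := ge_of_tendsto ht hev
    simpa using this
  -- μ → 0
  have step3 : N ≤ 25 * R ^ 2 / 2 * δ2 + N / 2 := by
    have hcont : Continuous fun μ : ℝ =>
      25 * R ^ 2 / 2 * δ2 + N / 2 + μ * (25 * R ^ 2 * N) := by fun_prop
    have ht := (hcont.tendsto 0).mono_left (nhdsWithin_le_nhds (s := Ioi 0))
    have hev : ∀ᶠ μ in 𝓝[>] (0 : ℝ),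
        N ≤ 25 * R ^ 2 / 2 * δ2 + N / 2 + μ * (25 * R ^ 2 * N) := by
      filter_upwards [self_mem_nhdsWithin] with μ hμ
      exact step2 μ hμ
    have := ge_of_tendsto ht hev
    simpa using this
  linarith

end Vale.Agent.P074
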