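import Mathlib
import Vale.Agent.P074.CellA
import Vale.Agent.P074.FiniteStab

open MeasureTheory Set Filter
open scoped ENNReal NNReal

namespace Vale.Agent.P074

variable {d : ℕ}

theorem lintegral_unif (K : Set (E d)) (hK : MeasurableSet K) (f : E d → ℝ≥0∞) :
    ∫⁻ x, f x ∂(unif K) = (volume K)⁻¹ * ∫⁻ x, K.indicator f x := by
  unfold unif
  rw [lintegral_smul_measure, lintegral_indicator hK, smul_eq_mul]

/-- Prékopa–Leindler for the uniform measure on a convex body. -/
theorem pl_unif (hPL : PLStmt d) {K : Set (E d)} (hK : IsCompact K) (hKc : Convex ℝ K)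
    (hKi : (interior K).Nonempty) {t : ℝ} (ht : 0 < t) (ht' : t < 1) {F G H : E d → ℝ≥0∞}
    (hF : Measurable F) (hG : Measurable G) (hH : Measurable H)
    (h : ∀ x ∈ K, ∀ y ∈ K, F x ^ (1 - t) * G y ^ t ≤ H ((1 - t) • x + t • y)) :
    (∫⁻ x, F x ∂(unif K)) ^ (1 - t) * (∫⁻ x, G x ∂(unif K)) ^ t ≤ ∫⁻ x, H x ∂(unif K) := by
  have hKm := hK.measurableSet
  have h1 := hPL t ht ht' (K.indicator F) (K.indicator G) (K.indicator H)
    (hF.indicator hKm) (hG.indicator hKm) (hH.indicator hKm) (by
      intro x y
      by_cases hx : x ∈ K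
      · by_cases hy : y ∈ K
        · have hxy : (1 - t) • x + t • y ∈ K :=
            hKc hx hy (by linarith) ht.le (by ring)
          rw [indicator_of_mem hx, indicator_of_mem hy, indicator_of_mem hxy]
          exact h x hx y hy
        · rw [indicator_of_notMem hy, ENNReal.zero_rpow_of_pos ht, mul_zero]
          exact zero_le
      · rw [indicator_of_notMem hx, ENNReal.zero_rpow_of_pos (by linarith : 0 < 1 - t), zero_mul]
        exact zero_le)
  rw [lintegral_unif K hKm, lintegral_unif K hKm, lintegral_unif K hKm]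
  set c := (volume K)⁻¹ with hc
  have hc0 : c ≠ 0 := ENNReal.inv_ne_zero.2 hK.measure_lt_top.ne
  have hc1 : c ≠ ⊤ := by
    refine ENNReal.inv_ne_top.2 ?_
    have : 0 < volume (interior K) := isOpen_interior.measure_pos volume hKi
    exact (this.trans_le (measure_mono interior_subset)).ne'
  rw [ENNReal.mul_rpow_of_nonneg _ _ (by linarith : 0 ≤ 1 - t),
    ENNReal.mul_rpow_of_nonneg _ _ ht.le]
  have h2 : c ^ (1 - t) * c ^ t = c := by
    rw [← ENNReal.rpow_add _ _ hc0 hc1]
    simp
  calc c ^ (1 - t) * (∫⁻ x, K.indicator F x) ^ (1 - t) * (c ^ t * (∫⁻ x, K.indicator G x) ^ t)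
      = (c ^ (1 - t) * c ^ t) *
        ((∫⁻ x, K.indicator F x) ^ (1 - t) * (∫⁻ x, K.indicator G x) ^ t) := by ring
    _ = c * ((∫⁻ x, K.indicator F x) ^ (1 - t) * (∫⁻ x, K.indicator G x) ^ t) := by rw [h2]
    _ ≤ _ := by gcongr

/-- The per-cell inequality. -/
theorem per_cell (hPL : PLStmt d) {K : Set (E d)} (hK : IsCompact K) (hKc : Convex ℝ K)
    (hKi : (interior K).Nonempty) {R : ℝ} (hR0 : 0 < R) (hR : K ⊆ Metric.closedBall 0 R)
    {κ : E d → ℝ} (hκm : Measurable κ) (hκ : ∀ x, |κ x| ≤ 1 / 2)
    {t : ℝ} (ht : 0 < t) (ht' : t ≤ 1 / 32) {z : E d} (hz : z ∈ K)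
    {C C' M : Set (E d)} (hC : MeasurableSet C) (hC' : MeasurableSet C') (hM : MeasurableSet M)
    (hCz : ∀ x ∈ K, x ∈ C → ‖x - z‖ ≤ R * t ^ 2)
    (hCM : ∀ x ∈ C, ∀ x' ∈ C', (1 - t) • x + t • x' ∈ M)
    {p : ℝ} (hp : 0 < p) (hpC : unif K C = ENNReal.ofReal p)
    (hpC' : ∫ x in C', (1 + κ x) ∂(unif K) = p) :
    ENNReal.ofReal (wt R z * p + t * (wt R z *
      ∫ x in C', (ell R z x - Real.log (1 + κ x)) * (1 + κ x) ∂(unif K)) -
        t * (50 * t) * (wt R z * p)) ≤
      ∫⁻ x in M, ENNReal.ofReal (wt R x) ∂(unif K) := by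
  have := unif_isProb hK hKi
  have hKn : ∀ x ∈ K, ‖x‖ ≤ R := fun x hx => by simpa using hR hx
  have hKae : ∀ᵐ x ∂(unif K), x ∈ K := by rw [ae_iff]; exact unif_compl hK
  have hw := wt_pos hR0 (hKn z hz)
  set ρ := unif K with hρ
  set w := wt R z with hwdef
  -- PL
  have h1 := pl_unif hPL hK hKc hKi ht (by linarith : t < 1)
    (F := C.indicator fun _ => ENNReal.ofReal w)
    (G := C'.indicator fun x => ENNReal.ofReal (w * Real.exp (ell R z x - 50 * t)))
    (H := M.indicator fun x => ENNReal.ofReal (wt R x))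
    (measurable_const.indicator hC)
    ((ENNReal.measurable_ofReal.comp
      ((continuous_const.mul (Real.continuous_exp.comp
        ((continuous_ell R z).sub continuous_const))).measurable)).indicator hC')
    ((ENNReal.measurable_ofReal.comp (continuous_wt R).measurable).indicator hM) (by
      intro x hx x' hx'
      by_cases hxC : x ∈ C
      · by_cases hxC' : x' ∈ C'
        · rw [indicator_of_mem hxC, indicator_of_mem hxC', indicator_of_mem (hCM x hxC x' hxC')]
          have h2 := pointwise hR0 ht ht' (hKn z hz) (hKn x' hx') (hCz x hx hxC)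
          rw [ENNReal.ofReal_rpow_of_pos hw, ENNReal.ofReal_rpow_of_pos (by positivity),
            ← ENNReal.ofReal_mul (by positivity)]
          apply ENNReal.ofReal_le_ofReal
          refine le_trans (le_of_eq ?_) h2
          rw [Real.mul_rpow hw.le (Real.exp_pos _).le, ← Real.exp_mul, ← mul_assoc,
            ← Real.rpow_add hw]
          simp only [sub_add_cancel, Real.rpow_one]
          congr 2
          ring
        · rw [indicator_of_notMem hxC', ENNReal.zero_rpow_of_pos ht, mul_zero]
          exact zero_le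
      · rw [indicator_of_notMem hxC, ENNReal.zero_rpow_of_pos (by linarith : 0 < 1 - t), zero_mul]
        exact zero_le)
  rw [lintegral_indicator hC, lintegral_indicator hC', lintegral_indicator hM] at h1
  refine le_trans ?_ h1
  clear h1
  rw [setLIntegral_const, hpC, ← ENNReal.ofReal_mul hw.le]
  -- mean
  set f : E d → ℝ := fun x => ell R z x - Real.log (1 + κ x) with hf
  set I : ℝ := ∫ x in C', f x * (1 + κ x) ∂ρ with hI
  set m : ℝ := I / p with hm
  have hlogm : Measurable fun x => Real.log (1 + κ x) :=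
    Real.measurable_log.comp (measurable_const.add hκm)
  have hfm : Measurable f := ((continuous_ell R z).measurable).sub hlogm
  have hκ1 : ∀ x, 1 / 2 ≤ 1 + κ x ∧ 1 + κ x ≤ 3 / 2 := fun x => by
    have := abs_le.1 (hκ x)
    constructor <;> linarith
  have hfb : ∀ x ∈ K, |f x| ≤ 5 := by
    intro x hx
    have e1 := abs_ell_le hR0 (hKn z hz) (hKn x hx)
    have e2 := hκ1 x
    have e3 : |Real.log (1 + κ x)| ≤ 1 := by
      rw [abs_le]
      constructor
      · have := Real.one_sub_inv_le_log_of_pos (by linarith : 0 < 1 + κ x)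
        have h3 : (1 + κ x)⁻¹ ≤ 2 := by
          rw [inv_le_comm₀ (by linarith) (by norm_num)]
          linarith
        linarith
      · have := Real.log_le_sub_one_of_pos (by linarith : 0 < 1 + κ x)
        linarith
    exact (abs_sub _ _).trans (by linarith)
  have hint1 : Integrable (fun x => (1 + κ x)) ρ :=
    (integrable_const 1).add (integrable_kappa hK hKi hκm hκ)
  have hint2 : Integrable (fun x => f x * (1 + κ x)) ρ := by
    refine Integrable.of_bound (hfm.mul (measurable_const.add hκm)).aestronglyMeasurable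
      (5 * (3 / 2)) ?_
    filter_upwards [hKae] with x hx
    rw [norm_mul, Real.norm_eq_abs, Real.norm_eq_abs]
    have e2 := hκ1 x
    have : |1 + κ x| ≤ 3 / 2 := by rw [abs_le]; constructor <;> linarith
    exact mul_le_mul (hfb x hx) this (abs_nonneg _) (by norm_num)
  have hint3 : Integrable (fun x => w * Real.exp (ell R z x - 50 * t)) ρ :=
    integrable_of_cont hK (unif_compl hK) (continuous_const.mul (Real.continuous_exp.comp
        ((continuous_ell R z).sub continuous_const)))
  have hint12 : Integrable (fun x => (1 + κ x) + f x * (1 + κ x)) ρ := hint1.add hint2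
  have hB : w * p * Real.exp (m - 50 * t) ≤
      ∫ x in C', w * Real.exp (ell R z x - 50 * t) ∂ρ := by
    have e1 : w * p * Real.exp (m - 50 * t) =
        ∫ x in C', w * Real.exp (m - 50 * t) * ((1 + κ x) + f x * (1 + κ x) - m * (1 + κ x)) ∂ρ := by
      rw [integral_const_mul, integral_sub hint12.integrableOn
        (hint1.const_mul m).integrableOn, integral_add hint1.integrableOn hint2.integrableOn,
        integral_const_mul, hpC', ← hI]
      have : m * p = I := by rw [hm]; field_simp
      rw [this]; ring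
    rw [e1]
    refine setIntegral_mono_ae_restrict ?_ hint3.integrableOn ?_
    · exact (((hint1.add hint2).sub (hint1.const_mul m)).const_mul _).integrableOn
    · refine Eventually.of_forall fun x => ?_
      have e2 := hκ1 x
      have e3 : Real.exp (ell R z x - 50 * t) =
          Real.exp (m - 50 * t) * (Real.exp (f x - m) * (1 + κ x)) := by
        have : (1 + κ x) = Real.exp (Real.log (1 + κ x)) := (Real.exp_log (by linarith)).symm
        rw [this, ← Real.exp_add, ← Real.exp_add]
        congr 1
        simp only [hf]; ring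
      have e4 : 1 + f x - m ≤ Real.exp (f x - m) := by
        have := Real.add_one_le_exp (f x - m)
        linarith
      simp only
      rw [e3]
      have e5 : (1 + κ x) + f x * (1 + κ x) - m * (1 + κ x) ≤ Real.exp (f x - m) * (1 + κ x) := by
        have : (1 + κ x) + f x * (1 + κ x) - m * (1 + κ x) = (1 + f x - m) * (1 + κ x) := by ring
        rw [this]
        exact mul_le_mul_of_nonneg_right e4 (by linarith)
      have e6 : 0 ≤ w * Real.exp (m - 50 * t) := by positivity
      have := mul_le_mul_of_nonneg_left e5 e6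
      linarith
  have hBl : ∫⁻ x in C', ENNReal.ofReal (w * Real.exp (ell R z x - 50 * t)) ∂ρ =
      ENNReal.ofReal (∫ x in C', w * Real.exp (ell R z x - 50 * t) ∂ρ) := by
    rw [ofReal_integral_eq_lintegral_ofReal hint3.integrableOn
      (Eventually.of_forall fun x => by positivity)]
  rw [hBl]
  have hwp : 0 < w * p := by positivity
  have hfin : w * p + t * (w * I) - t * (50 * t) * (w * p) ≤
      (w * p) ^ (1 - t) * (w * p * Real.exp (m - 50 * t)) ^ t := by
    have e0 : (w * p) ^ (1 - t) * (w * p * Real.exp (m - 50 * t)) ^ t =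
        w * p * Real.exp ((m - 50 * t) * t) := by
      rw [Real.mul_rpow hwp.le (Real.exp_pos _).le, ← Real.exp_mul,
        ← mul_assoc ((w * p) ^ (1 - t)), ← Real.rpow_add hwp]
      simp only [sub_add_cancel, Real.rpow_one]
    rw [e0]
    have e1 := Real.add_one_le_exp ((m - 50 * t) * t)
    have e2 := mul_le_mul_of_nonneg_left e1 hwp.le
    have e3 : w * p * ((m - 50 * t) * t + 1) =
        w * p + t * (w * I) - t * (50 * t) * (w * p) := by
      have : m * p = I := by rw [hm]; field_simp
      rw [← this]; ring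
    linarith
  calc ENNReal.ofReal (w * p + t * (w * I) - t * (50 * t) * (w * p))
      ≤ ENNReal.ofReal ((w * p) ^ (1 - t) * (w * p * Real.exp (m - 50 * t)) ^ t) :=
        ENNReal.ofReal_le_ofReal hfin
    _ = ENNReal.ofReal (w * p) ^ (1 - t) * ENNReal.ofReal (w * p * Real.exp (m - 50 * t)) ^ t := by
        rw [ENNReal.ofReal_rpow_of_pos hwp, ENNReal.ofReal_rpow_of_pos (by positivity),
          ← ENNReal.ofReal_mul (by positivity)]
    _ ≤ _ := by
        gcongr

end Vale.Agent.P074
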