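import Mathlib
import Vale.Agent.P074.CellB

open MeasureTheory Set Filter
open scoped ENNReal NNReal

namespace Vale.Agent.P074

variable {d : ℕ}

theorem sum_setIntegral {α : Type*} [MeasurableSpace α] {μ : Measure α} {S : Type*} [Fintype S]
    {A : S → Set α} (hA : ∀ c, MeasurableSet (A c))
    (hd : Pairwise (Function.onFun (AEDisjoint μ) A)) {f : α → ℝ} (hf : Integrable f μ) :
    ∑ c, ∫ x in A c, f x ∂μ = ∫ x in ⋃ c, A c, f x ∂μ := by
  rw [integral_iUnion_ae (fun c => (hA c).nullMeasurableSet) hd hf.integrableOn, tsum_fintype]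

theorem setIntegral_full {α : Type*} [MeasurableSpace α] {μ : Measure α} {B : Set α}
    (hu : μ Bᶜ = 0) (f : α → ℝ) : ∫ x in B, f x ∂μ = ∫ x, f x ∂μ := by
  rw [Measure.restrict_eq_self_of_ae_mem]
  exact mem_ae_iff.2 hu

/-- The summed inequality. -/
theorem core (hPL : PLStmt d) {K : Set (E d)} (hK : IsCompact K) (hKc : Convex ℝ K)
    (hKi : (interior K).Nonempty) {R : ℝ} (hR0 : 0 < R) (hR : K ⊆ Metric.closedBall 0 R)
    {κ : E d → ℝ} (hκm : Measurable κ) (hκ : ∀ x, |κ x| ≤ 1 / 2)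
    {t : ℝ} (ht : 0 < t) (ht' : t ≤ 1 / 32) {S : Type*} [Fintype S] {z : S → E d}
    (hz : ∀ c, z c ∈ K)
    {C C' M : S → Set (E d)} (hC : ∀ c, MeasurableSet (C c)) (hC' : ∀ c, MeasurableSet (C' c))
    (hM : ∀ c, MeasurableSet (M c))
    (hCz : ∀ c, ∀ x ∈ K, x ∈ C c → ‖x - z c‖ ≤ R * t ^ 2)
    (hCM : ∀ c, ∀ x ∈ C c, ∀ x' ∈ C' c, (1 - t) • x + t • x' ∈ M c)
    {p : S → ℝ} (hp : ∀ c, 0 < p c) (hpC : ∀ c, unif K (C c) = ENNReal.ofReal (p c))
    (hpC' : ∀ c, ∫ x in C' c, (1 + κ x) ∂(unif K) = p c)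
    (hCd : Pairwise (Function.onFun (AEDisjoint (unif K)) C)) (hCu : unif K (⋃ c, C c)ᶜ = 0)
    (hCd' : Pairwise (Function.onFun (AEDisjoint (unif K)) C')) (hCu' : unif K (⋃ c, C' c)ᶜ = 0)
    (hMd : Pairwise (Function.onFun (AEDisjoint (unif K)) M)) :
    ∑ c, ∫ x in C' c, ‖x - z c‖ ^ 2 * (1 + κ x) ∂(unif K) ≤
      22 * R ^ 2 * ∫ x, κ x ^ 2 ∂(unif K) + 210 * R ^ 2 * t := by
  have := unif_isProb hK hKi
  have hKn : ∀ x ∈ K, ‖x‖ ≤ R := fun x hx => by simpa using hR hx
  have hKae : ∀ᵐ x ∂(unif K), x ∈ K := by rw [ae_iff]; exact unif_compl hK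
  have hpc := fun c => per_cell hPL hK hKc hKi hR0 hR hκm hκ ht ht' (hz c) (hC c) (hC' c) (hM c)
    (hCz c) (hCM c) (hp c) (hpC c) (hpC' c)
  set ρ := unif K with hρ
  have hwi : Integrable (wt (d := d) R) ρ := integrable_of_cont hK (unif_compl hK) (continuous_wt R)
  have hwae : 0 ≤ᵐ[ρ] (wt (d := d) R) := by
    filter_upwards [hKae] with x hx
    exact (wt_pos hR0 (hKn x hx)).le
  set I : S → ℝ := fun c => ∫ x in C' c, (ell R (z c) x - Real.log (1 + κ x)) * (1 + κ x) ∂ρ with hI
  set w : S → ℝ := fun c => wt R (z c) with hw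
  -- Step A
  have hA : ∑ c, (w c * p c + t * (w c * I c) - t * (50 * t) * (w c * p c)) ≤ ∫ x, wt R x ∂ρ := by
    calc ∑ c, (w c * p c + t * (w c * I c) - t * (50 * t) * (w c * p c))
        ≤ ∑ c, ∫ x in M c, wt R x ∂ρ := by
          refine Finset.sum_le_sum fun c _ => ?_
          have h1 := hpc c
          rw [← ofReal_integral_eq_lintegral_ofReal hwi.integrableOn (ae_restrict_of_ae hwae)] at h1
          rwa [ENNReal.ofReal_le_ofReal_iff] at h1
          exact integral_nonneg_of_ae (ae_restrict_of_ae hwae)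
      _ = ∫ x in ⋃ c, M c, wt R x ∂ρ := sum_setIntegral hM hMd hwi
      _ ≤ _ := setIntegral_le_integral hwi hwae
  -- Step C
  have hsum1 : ∑ c, p c = 1 := by
    have h1 : ∑ c, ∫ x in C c, (1 : ℝ) ∂ρ = ∫ x, (1 : ℝ) ∂ρ := by
      rw [sum_setIntegral hC hCd (integrable_const 1), setIntegral_full hCu]
    simp only [integral_const, smul_eq_mul, mul_one, probReal_univ] at h1
    rw [← h1]
    refine Finset.sum_congr rfl fun c _ => ?_
    simp only [measureReal_def, Measure.restrict_apply_univ, hpC, ENNReal.toReal_ofReal (hp c).le]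
  have hwC : |∑ c, w c * p c - ∫ x, wt R x ∂ρ| ≤ 2 * R ^ 2 * t ^ 2 := by
    have h1 : ∫ x, wt R x ∂ρ = ∑ c, ∫ x in C c, wt R x ∂ρ := by
      rw [sum_setIntegral hC hCd hwi, setIntegral_full hCu]
    rw [h1, ← Finset.sum_sub_distrib]
    refine (Finset.abs_sum_le_sum_abs _ _).trans ?_
    have h2 : ∀ c, |w c * p c - ∫ x in C c, wt R x ∂ρ| ≤ 2 * R ^ 2 * t ^ 2 * p c := by
      intro c
      have h3 : w c * p c - ∫ x in C c, wt R x ∂ρ = ∫ x in C c, (w c - wt R x) ∂ρ := by
        rw [integral_sub (integrable_const _).integrableOn hwi.integrableOn, setIntegral_const]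
        simp only [measureReal_def, hpC, ENNReal.toReal_ofReal (hp c).le, smul_eq_mul]
        ring
      rw [h3]
      have h4 := norm_setIntegral_le_of_norm_le_const_ae' (μ := ρ) (s := C c)
        (f := fun x => w c - wt R x) (C := 2 * R ^ 2 * t ^ 2) (measure_lt_top _ _) (by
          filter_upwards [hKae] with x hx hxC
          rw [Real.norm_eq_abs, hw, abs_sub_comm]
          refine (wt_sub_le (hKn x hx) (hKn _ (hz c))).trans ?_
          have := hCz c x hx hxC
          have h5 : 2 * R * ‖x - z c‖ ≤ 2 * R * (R * t ^ 2) := by gcongr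
          linarith)
      rw [Real.norm_eq_abs] at h4
      refine h4.trans (le_of_eq ?_)
      simp only [measureReal_def, hpC, ENNReal.toReal_ofReal (hp c).le]
    calc ∑ c, |w c * p c - ∫ x in C c, wt R x ∂ρ| ≤ ∑ c, 2 * R ^ 2 * t ^ 2 * p c :=
          Finset.sum_le_sum fun c _ => h2 c
      _ = 2 * R ^ 2 * t ^ 2 := by rw [← Finset.mul_sum, hsum1, mul_one]
  have hwp : ∑ c, w c * p c ≤ 2 * R ^ 2 := by
    calc ∑ c, w c * p c ≤ ∑ c, 2 * R ^ 2 * p c :=
          Finset.sum_le_sum fun c _ => mul_le_mul_of_nonneg_right (wt_le _) (hp c).le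
      _ = 2 * R ^ 2 := by rw [← Finset.mul_sum, hsum1, mul_one]
  have hA' : ∑ c, w c * I c ≤ 102 * R ^ 2 * t := by
    rw [Finset.sum_sub_distrib, Finset.sum_add_distrib, ← Finset.mul_sum, ← Finset.mul_sum] at hA
    have h1 := (abs_le.1 hwC).1
    have h2 : t * ∑ c, w c * I c ≤ t * (102 * R ^ 2 * t) := by
      have h3 : t * (50 * t) * ∑ c, w c * p c ≤ t * (50 * t) * (2 * R ^ 2) := by
        gcongr
      nlinarith
    exact le_of_mul_le_mul_left h2 ht
  -- Step D
  have hlogm : Measurable fun x => Real.log (1 + κ x) :=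
    Real.measurable_log.comp (measurable_const.add hκm)
  have hκ1 : ∀ x, 1 / 2 ≤ 1 + κ x ∧ 1 + κ x ≤ 3 / 2 := fun x => by
    have := abs_le.1 (hκ x)
    constructor <;> linarith
  have hint1 : Integrable (fun x => (1 + κ x)) ρ :=
    (integrable_const 1).add (integrable_kappa hK hKi hκm hκ)
  have hintk : Integrable (fun x => κ x ^ 2) ρ := by
    refine Integrable.of_bound (hκm.pow_const 2).aestronglyMeasurable 1
      (Eventually.of_forall fun x => ?_)
    have := abs_le.1 (hκ x)
    rw [Real.norm_eq_abs, abs_le]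
    constructor <;> nlinarith
  have hint2 : ∀ c, Integrable
      (fun x => (ell R (z c) x - Real.log (1 + κ x)) * (1 + κ x)) ρ := by
    intro c
    refine Integrable.of_bound ((((continuous_ell R (z c)).measurable).sub hlogm).mul
      (measurable_const.add hκm)).aestronglyMeasurable (5 * (3 / 2)) ?_
    filter_upwards [hKae] with x hx
    rw [norm_mul, Real.norm_eq_abs, Real.norm_eq_abs]
    have e1 := abs_ell_le hR0 (hKn _ (hz c)) (hKn x hx)
    have e2 := hκ1 x
    have e3 : |Real.log (1 + κ x)| ≤ 1 := by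
      rw [abs_le]
      constructor
      · have := Real.one_sub_inv_le_log_of_pos (by linarith : 0 < 1 + κ x)
        have h3 : (1 + κ x)⁻¹ ≤ 2 := by
          rw [inv_le_comm₀ (by linarith) (by norm_num)]
          linarith
        linarith
      · have := Real.log_le_sub_one_of_pos (by linarith : 0 < 1 + κ x)
        linarith
    have e4 : |ell R (z c) x - Real.log (1 + κ x)| ≤ 5 := (abs_sub _ _).trans (by linarith)
    have : |1 + κ x| ≤ 3 / 2 := by rw [abs_le]; constructor <;> linarith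
    exact mul_le_mul e4 this (abs_nonneg _) (by norm_num)
  have hint3 : ∀ c, Integrable (fun x => ‖x - z c‖ ^ 2 * (1 + κ x)) ρ := by
    intro c
    refine Integrable.of_bound (((continuous_id.sub continuous_const).norm.pow 2).measurable.mul
      (measurable_const.add hκm)).aestronglyMeasurable ((2 * R) ^ 2 * (3 / 2)) ?_
    filter_upwards [hKae] with x hx
    rw [norm_mul, Real.norm_eq_abs, Real.norm_eq_abs]
    have e2 := hκ1 x
    have : |1 + κ x| ≤ 3 / 2 := by rw [abs_le]; constructor <;> linarith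
    refine mul_le_mul ?_ this (abs_nonneg _) (by positivity)
    rw [abs_of_nonneg (by positivity)]
    have e5 : ‖x - z c‖ ≤ 2 * R := by
      have := norm_sub_le x (z c)
      have := hKn x hx
      have := hKn _ (hz c)
      linarith
    gcongr
  have hD : ∀ c, 1 / 2 * ∫ x in C' c, ‖x - z c‖ ^ 2 * (1 + κ x) ∂ρ ≤
      w c * I c + w c * p c - ∫ x in C' c, wt R x ∂ρ + 11 * R ^ 2 * ∫ x in C' c, κ x ^ 2 ∂ρ := by
    intro c
    have h1 : w c * I c + w c * p c - ∫ x in C' c, wt R x ∂ρ +
        11 * R ^ 2 * ∫ x in C' c, κ x ^ 2 ∂ρ =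
        ∫ x in C' c, (wt R (z c) * ((ell R (z c) x - Real.log (1 + κ x)) * (1 + κ x)) +
          wt R (z c) * (1 + κ x) - wt R x + 11 * R ^ 2 * κ x ^ 2) ∂ρ := by
      have i1 : Integrable (fun x => wt R (z c) *
        ((ell R (z c) x - Real.log (1 + κ x)) * (1 + κ x))) ρ := (hint2 c).const_mul _
      have i2 : Integrable (fun x => wt R (z c) * (1 + κ x)) ρ := hint1.const_mul _
      have i3 : Integrable (fun x => wt R (z c) *
        ((ell R (z c) x - Real.log (1 + κ x)) * (1 + κ x)) + wt R (z c) * (1 + κ x)) ρ := i1.add i2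
      have i4 : Integrable (fun x => wt R (z c) *
        ((ell R (z c) x - Real.log (1 + κ x)) * (1 + κ x)) + wt R (z c) * (1 + κ x) - wt R x) ρ :=
        i3.sub hwi
      have i5 : Integrable (fun x => 11 * R ^ 2 * κ x ^ 2) ρ := hintk.const_mul _
      rw [integral_add i4.integrableOn i5.integrableOn, integral_sub i3.integrableOn
        hwi.integrableOn, integral_add i1.integrableOn i2.integrableOn, integral_const_mul,
        integral_const_mul, integral_const_mul, hpC' c]
    rw [h1, ← integral_const_mul]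
    refine setIntegral_mono_ae_restrict ((hint3 c).const_mul _).integrableOn ?_ ?_
    · exact (((((hint2 c).const_mul _).add (hint1.const_mul _)).sub hwi).add
        (hintk.const_mul _)).integrableOn
    · refine ae_restrict_of_ae ?_
      filter_upwards [hKae] with x hx
      exact pointwise2 hR0 (hKn _ (hz c)) (hKn x hx) (hκ x)
  have hDs := Finset.sum_le_sum (s := Finset.univ) fun c _ => hD c
  rw [← Finset.mul_sum, Finset.sum_add_distrib, Finset.sum_sub_distrib, Finset.sum_add_distrib,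
    ← Finset.mul_sum, sum_setIntegral hC' hCd' hwi, setIntegral_full hCu',
    sum_setIntegral hC' hCd' hintk, setIntegral_full hCu'] at hDs
  have h1 := (abs_le.1 hwC).2
  have h2 : t ^ 2 ≤ t * (1 / 32) := by
    have : t ^ 2 = t * t := by ring
    rw [this]; gcongr
  have h3 : 2 * R ^ 2 * t ^ 2 ≤ 2 * R ^ 2 * (t * (1 / 32)) := by gcongr
  have h4 : 0 < R ^ 2 * t := by positivity
  nlinarith

end Vale.Agent.P074
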