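import Mathlib
import Vale.Agent.P074.CellC

open MeasureTheory Set Filter
open scoped ENNReal NNReal

namespace Vale.Agent.P074

variable {d : ℕ}

theorem restrict_union_full {α : Type*} [MeasurableSpace α] {μ : Measure α} {S : Type*}
    [Fintype S] {A : S → Set α} (hA : ∀ c, MeasurableSet (A c))
    (hd : Pairwise (Function.onFun (AEDisjoint μ) A)) (hu : μ (⋃ c, A c)ᶜ = 0) :
    Measure.sum (fun c => μ.restrict (A c)) = μ := by
  rw [← Measure.restrict_iUnion_ae hd fun c => (hA c).nullMeasurableSet,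
    Measure.restrict_eq_self_of_ae_mem]
  exact mem_ae_iff.2 hu

theorem cell_coupling {ρ σ : Measure (E d)} [IsProbabilityMeasure ρ] [IsProbabilityMeasure σ]
    {K : Set (E d)} (hρK : ρ Kᶜ = 0) (hσK : σ Kᶜ = 0)
    {R : ℝ} (hR0 : 0 < R) (hR : K ⊆ Metric.closedBall 0 R)
    {S : Type*} [Fintype S] {z : S → E d} (hz : ∀ c, z c ∈ K) {δ : ℝ}
    {C C' : S → Set (E d)} (hC : ∀ c, MeasurableSet (C c)) (hC' : ∀ c, MeasurableSet (C' c))
    (hCz : ∀ c, ∀ x ∈ K, x ∈ C c → ‖x - z c‖ ≤ δ)
    {p : S → ℝ} (hp : ∀ c, 0 < p c) (hpC : ∀ c, ρ (C c) = ENNReal.ofReal (p c))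
    (hpC' : ∀ c, σ (C' c) = ENNReal.ofReal (p c))
    (hCd : Pairwise (Function.onFun (AEDisjoint ρ) C)) (hCu : ρ (⋃ c, C c)ᶜ = 0)
    (hCd' : Pairwise (Function.onFun (AEDisjoint σ) C')) (hCu' : σ (⋃ c, C' c)ᶜ = 0)
    {A : Set (E d × E d)} (hA : MeasurableSet A) (hAC : ∀ c, C c ×ˢ C' c ⊆ A) :
    ∃ π : Measure (E d × E d), π.map Prod.fst = ρ ∧ π.map Prod.snd = σ ∧ π Aᶜ = 0 ∧
      ∫ q, ‖q.1 - q.2‖ ^ 2 ∂π ≤ ∑ c, ∫ x in C' c, ‖x - z c‖ ^ 2 ∂σ + 4 * R * δ := by
  have hKn : ∀ x ∈ K, ‖x‖ ≤ R := fun x hx => by simpa using hR hx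
  set P : S → ℝ≥0∞ := fun c => ENNReal.ofReal (p c) with hP
  have hP0 : ∀ c, P c ≠ 0 := fun c => (ENNReal.ofReal_pos.2 (hp c)).ne'
  have hP1 : ∀ c, P c ≠ ⊤ := fun c => ENNReal.ofReal_ne_top
  set π : Measure (E d × E d) := Measure.sum fun c =>
    (P c)⁻¹ • (ρ.restrict (C c)).prod (σ.restrict (C' c)) with hπ
  have hsum1 : ∑ c, p c = 1 := by
    have h1 : ∑ c, ∫ x in C c, (1 : ℝ) ∂ρ = ∫ x, (1 : ℝ) ∂ρ := by
      rw [sum_setIntegral hC hCd (integrable_const 1), setIntegral_full hCu]
    simp only [integral_const, smul_eq_mul, mul_one, probReal_univ] at h1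
    rw [← h1]
    refine Finset.sum_congr rfl fun c _ => ?_
    simp only [measureReal_def, Measure.restrict_apply_univ, hpC, ENNReal.toReal_ofReal (hp c).le]
  refine ⟨π, ?_, ?_, ?_, ?_⟩
  · rw [hπ, Measure.map_sum measurable_fst.aemeasurable]
    have h1 : (fun c => Measure.map Prod.fst ((P c)⁻¹ • (ρ.restrict (C c)).prod
        (σ.restrict (C' c)))) = fun c => ρ.restrict (C c) := by
      funext c
      rw [Measure.map_smul, Measure.map_fst_prod, Measure.restrict_apply_univ, hpC' c, smul_smul,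
        ENNReal.inv_mul_cancel (hP0 c) (hP1 c), one_smul]
    rw [h1]
    exact restrict_union_full hC hCd hCu
  · rw [hπ, Measure.map_sum measurable_snd.aemeasurable]
    have h1 : (fun c => Measure.map Prod.snd ((P c)⁻¹ • (ρ.restrict (C c)).prod
        (σ.restrict (C' c)))) = fun c => σ.restrict (C' c) := by
      funext c
      rw [Measure.map_smul, Measure.map_snd_prod, Measure.restrict_apply_univ, hpC c, smul_smul,
        ENNReal.inv_mul_cancel (hP0 c) (hP1 c), one_smul]
    rw [h1]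
    exact restrict_union_full hC' hCd' hCu'
  · rw [hπ, Measure.sum_apply _ hA.compl, ENNReal.tsum_eq_zero]
    intro c
    rw [Measure.smul_apply, smul_eq_mul, Measure.prod_restrict,
      Measure.restrict_apply hA.compl]
    have : Aᶜ ∩ C c ×ˢ C' c = ∅ := by
      ext q
      simp only [mem_inter_iff, mem_compl_iff, mem_empty_iff_false, iff_false, not_and]
      intro h1 h2
      exact h1 (hAC c h2)
    rw [this]
    simp
  · have haek : ∀ c, ∀ᵐ q ∂((ρ.restrict (C c)).prod (σ.restrict (C' c))),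
        (q.1 ∈ K ∧ q.1 ∈ C c) ∧ q.2 ∈ K := by
      intro c
      have e1 : ∀ᵐ x ∂(ρ.restrict (C c)), x ∈ K ∧ x ∈ C c := by
        have : ∀ᵐ x ∂ρ, x ∈ K := by rw [ae_iff]; exact hρK
        filter_upwards [ae_restrict_of_ae this, ae_restrict_mem (hC c)] with x h1 h2
        exact ⟨h1, h2⟩
      have e2 : ∀ᵐ x ∂(σ.restrict (C' c)), x ∈ K := by
        have : ∀ᵐ x ∂σ, x ∈ K := by rw [ae_iff]; exact hσK
        exact ae_restrict_of_ae this
      filter_upwards [Measure.quasiMeasurePreserving_fst.ae e1,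
        Measure.quasiMeasurePreserving_snd.ae e2] with q h1 h2
      exact ⟨h1, h2⟩
    have hint1 : ∀ c, Integrable (fun q : E d × E d => ‖q.1 - q.2‖ ^ 2)
        ((ρ.restrict (C c)).prod (σ.restrict (C' c))) := by
      intro c
      refine Integrable.of_bound (by fun_prop) ((2 * R) ^ 2) ?_
      filter_upwards [haek c] with q hq
      rw [Real.norm_eq_abs, abs_of_nonneg (by positivity)]
      have e5 : ‖q.1 - q.2‖ ≤ 2 * R := by
        have := norm_sub_le q.1 q.2
        have := hKn _ hq.1.1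
        have := hKn _ hq.2
        linarith
      gcongr
    have hint2 : ∀ c, Integrable (fun q : E d × E d => ‖q.2 - z c‖ ^ 2 + 4 * R * δ)
        ((ρ.restrict (C c)).prod (σ.restrict (C' c))) := by
      intro c
      refine Integrable.add ?_ (integrable_const _)
      refine Integrable.of_bound (by fun_prop) ((2 * R) ^ 2) ?_
      filter_upwards [haek c] with q hq
      rw [Real.norm_eq_abs, abs_of_nonneg (by positivity)]
      have e5 : ‖q.2 - z c‖ ≤ 2 * R := by
        have := norm_sub_le q.2 (z c)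
        have := hKn _ (hz c)
        have := hKn _ hq.2
        linarith
      gcongr
    have hint3 : ∀ c, Integrable (fun q : E d × E d => ‖q.2 - z c‖ ^ 2)
        ((ρ.restrict (C c)).prod (σ.restrict (C' c))) := by
      intro c
      refine Integrable.of_bound (by fun_prop) ((2 * R) ^ 2) ?_
      filter_upwards [haek c] with q hq
      rw [Real.norm_eq_abs, abs_of_nonneg (by positivity)]
      have e5 : ‖q.2 - z c‖ ≤ 2 * R := by
        have := norm_sub_le q.2 (z c)
        have := hKn _ (hz c)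
        have := hKn _ hq.2
        linarith
      gcongr
    rw [hπ, Measure.sum_fintype, integral_finsetSum_measure fun c _ =>
      (hint1 c).smul_measure (ENNReal.inv_ne_top.2 (hP0 c))]
    have hc : ∀ c, ∫ q, ‖q.1 - q.2‖ ^ 2
        ∂((P c)⁻¹ • (ρ.restrict (C c)).prod (σ.restrict (C' c))) ≤
        ∫ x in C' c, ‖x - z c‖ ^ 2 ∂σ + 4 * R * δ * p c := by
      intro c
      rw [integral_smul_measure, ENNReal.toReal_inv, hP, ENNReal.toReal_ofReal (hp c).le,
        smul_eq_mul]
      have h1 : ∫ q, ‖q.1 - q.2‖ ^ 2 ∂((ρ.restrict (C c)).prod (σ.restrict (C' c))) ≤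
          ∫ q, (‖q.2 - z c‖ ^ 2 + 4 * R * δ) ∂((ρ.restrict (C c)).prod (σ.restrict (C' c))) := by
        refine integral_mono_ae (hint1 c) (hint2 c) ?_
        filter_upwards [haek c] with q hq
        refine (sq_dist_le (hKn _ hq.1.1) (hKn _ hq.2) (hKn _ (hz c))).trans ?_
        have := hCz c _ hq.1.1 hq.1.2
        gcongr
      have h2 : ∫ q, (‖q.2 - z c‖ ^ 2 + 4 * R * δ)
          ∂((ρ.restrict (C c)).prod (σ.restrict (C' c))) =
          p c * ∫ x in C' c, ‖x - z c‖ ^ 2 ∂σ + p c * (p c * (4 * R * δ)) := by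
        rw [integral_add (hint3 c) (integrable_const _), integral_fun_snd
          (fun x : E d => ‖x - z c‖ ^ 2), integral_const]
        simp only [measureReal_def, Measure.restrict_apply_univ, hpC, hpC',
          ENNReal.toReal_ofReal (hp c).le, smul_eq_mul, ← univ_prod_univ, Measure.prod_prod,
          ENNReal.toReal_mul]
        ring
      rw [h2] at h1
      have h3 : 0 < (p c)⁻¹ := inv_pos.2 (hp c)
      have h4 := mul_le_mul_of_nonneg_left h1 h3.le
      refine h4.trans (le_of_eq ?_)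
      have := (hp c).ne'
      field_simp
    refine (Finset.sum_le_sum fun c _ => hc c).trans (le_of_eq ?_)
    rw [Finset.sum_add_distrib, ← Finset.mul_sum, hsum1, mul_one]

end Vale.Agent.P074
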