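import Mathlib
import Vale.Agent.P074.CellD

open MeasureTheory Set Filter
open scoped ENNReal NNReal

namespace Vale.Agent.P074

variable {d : ℕ}

theorem aedisj_sigma {μ : Measure (E d)} (hμ : μ ≪ volume) {ι : Type*} {y : ι → E d}
    (hy : Function.Injective y) (a : ι → ℝ) {J : ι → Type*} (B : ∀ i, J i → Set (E d))
    (hB : ∀ i j j', j ≠ j' → μ (B i j ∩ B i j') = 0) :
    Pairwise (Function.onFun (AEDisjoint μ)
      (fun c : Σ i, J i => Cell y a c.1 ∩ B c.1 c.2)) := by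
  rintro ⟨i, j⟩ ⟨i', j'⟩ hne
  change μ ((Cell y a i ∩ B i j) ∩ (Cell y a i' ∩ B i' j')) = 0
  by_cases hi : i = i'
  · subst hi
    have hj : j ≠ j' := by
      rintro rfl
      exact hne rfl
    refine measure_mono_null ?_ (hB i j j' hj)
    rintro x ⟨⟨_, h1⟩, ⟨_, h2⟩⟩
    exact ⟨h1, h2⟩
  · refine measure_mono_null ?_ (measure_Cell_inter hμ hy a hi)
    rintro x ⟨⟨h1, _⟩, ⟨h2, _⟩⟩
    exact ⟨h1, h2⟩

/-- The Voronoi cell is a Laguerre cell. -/
theorem voronoi {N : Type*} {z : N → E d} {j : N} {x : E d}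
    (hx : x ∈ Cell z (fun j => ‖z j‖ ^ 2 / 2) j) (k : N) : ‖x - z j‖ ≤ ‖x - z k‖ := by
  have h := hx k
  have h1 : ‖x - z j‖ ^ 2 ≤ ‖x - z k‖ ^ 2 := by
    rw [norm_sub_sq_real, norm_sub_sq_real]
    linarith
  exact le_of_sq_le_sq h1 (norm_nonneg _)

/-- Partition of a measure by cells. -/
theorem sum_cell_inter {μ : Measure (E d)} (hμ : μ ≪ volume) {N : Type*} [Fintype N] [Nonempty N]
    {z : N → E d} (hz : Function.Injective z) (v : N → ℝ) (A : Set (E d)) :
    ∑ j, μ (A ∩ Cell z v j) = μ A := by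
  have h1 : μ A = (μ.restrict A) (⋃ j, Cell z v j) := by
    rw [iUnion_Cell, Measure.restrict_apply_univ]
  rw [h1, measure_iUnion₀]
  · rw [tsum_fintype]
    refine Finset.sum_congr rfl fun j _ => ?_
    rw [Measure.restrict_apply (measurableSet_Cell z v j), inter_comm]
  · intro j j' hjj
    exact measure_Cell_inter (Measure.restrict_le_self.absolutelyContinuous.trans hμ) hz v hjj
  · exact fun j => (measurableSet_Cell z v j).nullMeasurableSet

/-- **Module C**: the key lemma. -/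
theorem cellStab (hPL : PLStmt d) {K : Set (E d)} (hK : IsCompact K) (hKc : Convex ℝ K)
    (hKi : (interior K).Nonempty) {R : ℝ} (hR0 : 0 < R) (hR : K ⊆ Metric.closedBall 0 R) :
    CellStab K R := by
  classical
  intro ι _ _ y hy κ hκm hκ hκ0 p hp a b hpa hpb η hη
  have hρp := unif_isProb hK hKi
  have hσp := sig_isProb hK hKi hκm hκ hκ0
  have hρK := unif_compl hK
  have hσK := sig_compl hK κ
  have hρac := unif_absolutelyContinuous K
  have hσac := sig_ac K κ
  obtain ⟨t, ht0, ht1, ht2⟩ : ∃ t : ℝ, 0 < t ∧ t ≤ 1 / 32 ∧ 214 * R ^ 2 * t ≤ η := by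
    refine ⟨min (1 / 32) (η / (214 * R ^ 2)), by positivity, min_le_left _ _, ?_⟩
    have h1 : min (1 / 32) (η / (214 * R ^ 2)) ≤ η / (214 * R ^ 2) := min_le_right _ _
    have h2 : 214 * R ^ 2 * min (1 / 32) (η / (214 * R ^ 2)) ≤
        214 * R ^ 2 * (η / (214 * R ^ 2)) := by gcongr
    refine h2.trans (le_of_eq ?_)
    field_simp
  -- net
  obtain ⟨N, hNK, hNfin, hNcov⟩ := hK.finite_cover_balls (e := R * t ^ 2) (by positivity)
  have : Fintype N := hNfin.fintype
  have hKne : K.Nonempty := hKi.mono interior_subset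
  have : Nonempty N := by
    obtain ⟨x, hx⟩ := hKne
    obtain ⟨w, hw, _⟩ := mem_iUnion₂.1 (hNcov hx)
    exact ⟨⟨w, hw⟩⟩
  set z : N → E d := Subtype.val with hz
  have hzinj : Function.Injective z := Subtype.val_injective
  have hzK : ∀ j, z j ∈ K := fun j => hNK j.2
  set v : N → ℝ := fun j => ‖z j‖ ^ 2 / 2 with hv
  have hvor : ∀ x ∈ K, ∀ j, x ∈ Cell z v j → ‖x - z j‖ ≤ R * t ^ 2 := by
    intro x hx j hxj
    obtain ⟨w, hw, hxw⟩ := mem_iUnion₂.1 (hNcov hx)
    have h1 := voronoi hxj ⟨w, hw⟩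
    have h2 : ‖x - w‖ < R * t ^ 2 := by
      rw [← dist_eq_norm]; exact hxw
    exact h1.trans h2.le
  set Q : ι → N → ℝ≥0∞ := fun i j => unif K (Cell y a i ∩ Cell z v j) with hQ
  have hQsum : ∀ i, ∑ j, Q i j = p i := by
    intro i
    rw [← hpa i]
    exact sum_cell_inter hρac hzinj v (Cell y a i)
  let J : ι → Type := fun i => {j : N // Q i j ≠ 0}
  have hJfin : ∀ i, Fintype (J i) := fun i => by
    change Fintype {j : N // Q i j ≠ 0}
    infer_instance
  have hJsum : ∀ i, ∑ j : J i, Q i j.1 = p i := by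
    intro i
    rw [← hQsum i]
    have h1 : ∑ j : J i, Q i j.1 = ∑ j ∈ Finset.univ.filter (fun j => Q i j ≠ 0), Q i j := by
      rw [← Finset.sum_subtype_of_mem (p := fun j => Q i j ≠ 0) (fun j => Q i j)
        (s := Finset.univ.filter (fun j => Q i j ≠ 0)) (fun x hx => (Finset.mem_filter.1 hx).2)]
      refine Finset.sum_congr ?_ fun _ _ => rfl
      ext j
      exact ⟨fun _ => Finset.mem_subtype.2 (Finset.mem_filter.2 ⟨Finset.mem_univ _, j.2⟩),
        fun _ => Finset.mem_univ _⟩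
    rw [h1, Finset.sum_filter_ne_zero]
  have hJne : ∀ i, Nonempty (J i) := by
    intro i
    by_contra h
    rw [not_nonempty_iff] at h
    have := hJsum i
    rw [Finset.univ_eq_empty, Finset.sum_empty] at this
    exact (hp i).ne this
  set zJ : ∀ i, J i → E d := fun i j => z j.1 with hzJ
  have hzJinj : ∀ i, Function.Injective (zJ i) := fun i j j' h => Subtype.ext (hzinj h)
  have hsemi : ∀ i, ∃ ζ : J i → ℝ, ∀ j, ((sig K κ).restrict (Cell y b i)) (Cell (zJ i) ζ j) =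
      Q i j.1 := by
    intro i
    refine exists_semidiscrete (K := K)
      (Measure.restrict_le_self.absolutelyContinuous.trans hσac) hK ?_ (hzJinj i)
      (fun j => pos_iff_ne_zero.2 j.2) ?_
    · exact measure_mono_null (le_refl _) (Measure.restrict_le_self.absolutelyContinuous hσK)
    · rw [hJsum i, Measure.restrict_apply_univ]
      exact (hpb i).symm
  choose ζ hζ using hsemi
  -- the cells
  set C : (Σ i, J i) → Set (E d) := fun c => Cell y a c.1 ∩ Cell z v c.2.1 with hCdef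
  set C' : (Σ i, J i) → Set (E d) := fun c => Cell y b c.1 ∩ Cell (zJ c.1) (ζ c.1) c.2
    with hC'def
  set M : (Σ i, J i) → Set (E d) := fun c => Cell y (fun k => (1 - t) * a k + t * b k) c.1 ∩
    Cell (zJ c.1) (fun k => (1 - t) * v k.1 + t * ζ c.1 k) c.2 with hMdef
  set P : (Σ i, J i) → ℝ := fun c => (Q c.1 c.2.1).toReal with hPdef
  have hCm : ∀ c, MeasurableSet (C c) := fun c =>
    (measurableSet_Cell _ _ _).inter (measurableSet_Cell _ _ _)
  have hC'm : ∀ c, MeasurableSet (C' c) := fun c =>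
    (measurableSet_Cell _ _ _).inter (measurableSet_Cell _ _ _)
  have hMm : ∀ c, MeasurableSet (M c) := fun c =>
    (measurableSet_Cell _ _ _).inter (measurableSet_Cell _ _ _)
  have hQtop : ∀ i j, Q i j ≠ ⊤ := fun i j => measure_ne_top _ _
  have hPpos : ∀ c, 0 < P c := fun c => ENNReal.toReal_pos c.2.2 (hQtop _ _)
  have hPof : ∀ c, ENNReal.ofReal (P c) = Q c.1 c.2.1 := fun c => ENNReal.ofReal_toReal (hQtop _ _)
  have hpC : ∀ c, unif K (C c) = ENNReal.ofReal (P c) := fun c => (hPof c).symm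
  have hpC's : ∀ c, sig K κ (C' c) = ENNReal.ofReal (P c) := by
    intro c
    rw [hPof c, ← hζ c.1 c.2, Measure.restrict_apply (measurableSet_Cell _ _ _), inter_comm]
  have hint1 : Integrable (fun x => (1 + κ x)) (unif K) :=
    (integrable_const 1).add (integrable_kappa hK hKi hκm hκ)
  have hκ1 : ∀ x, 0 ≤ 1 + κ x := fun x => by
    have := abs_le.1 (hκ x)
    linarith
  have hpC' : ∀ c, ∫ x in C' c, (1 + κ x) ∂(unif K) = P c := by
    intro c
    have h1 := hpC's c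
    rw [withDensity_apply _ (hC'm c), ← ofReal_integral_eq_lintegral_ofReal hint1.integrableOn
      (Eventually.of_forall hκ1)] at h1
    exact (ENNReal.ofReal_eq_ofReal_iff (integral_nonneg hκ1) (hPpos c).le).1 h1
  have hCd : ∀ {μ : Measure (E d)}, μ ≪ volume →
      Pairwise (Function.onFun (AEDisjoint μ) C) := by
    intro μ hμ
    exact aedisj_sigma hμ hy a (fun i (j : J i) => Cell z v j.1) fun i j j' hj =>
      measure_Cell_inter hμ hzinj v fun h => hj (Subtype.ext h)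
  have hCd' : ∀ {μ : Measure (E d)}, μ ≪ volume →
      Pairwise (Function.onFun (AEDisjoint μ) C') := by
    intro μ hμ
    exact aedisj_sigma hμ hy b (fun i (j : J i) => Cell (zJ i) (ζ i) j) fun i j j' hj =>
      measure_Cell_inter hμ (hzJinj i) _ hj
  have hMd : ∀ {μ : Measure (E d)}, μ ≪ volume →
      Pairwise (Function.onFun (AEDisjoint μ) M) := by
    intro μ hμ
    exact aedisj_sigma hμ hy _ (fun i (j : J i) => Cell (zJ i)
      (fun k => (1 - t) * v k.1 + t * ζ i k) j) fun i j j' hj =>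
      measure_Cell_inter hμ (hzJinj i) _ hj
  have hCu : unif K (⋃ c, C c)ᶜ = 0 := by
    have h1 : (⋃ c, C c)ᶜ ⊆ ⋃ i, ⋃ j, ⋃ (_ : Q i j = 0), (Cell y a i ∩ Cell z v j) := by
      intro x hx
      have hxi : x ∈ ⋃ i, Cell y a i := by rw [iUnion_Cell]; trivial
      have hxj : x ∈ ⋃ j, Cell z v j := by rw [iUnion_Cell]; trivial
      obtain ⟨i, hi⟩ := mem_iUnion.1 hxi
      obtain ⟨j, hj⟩ := mem_iUnion.1 hxj
      by_cases hq : Q i j = 0
      · exact mem_iUnion.2 ⟨i, mem_iUnion.2 ⟨j, mem_iUnion.2 ⟨hq, hi, hj⟩⟩⟩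
      · exact (hx (mem_iUnion.2 ⟨(⟨i, ⟨j, hq⟩⟩ : Σ i, J i), hi, hj⟩)).elim
    refine measure_mono_null h1 ?_
    rw [measure_iUnion_null_iff]; intro i
    rw [measure_iUnion_null_iff]; intro j
    rw [measure_iUnion_null_iff]; intro h
    exact h
  have hCu' : (⋃ c, C' c)ᶜ = ∅ := by
    rw [compl_empty_iff, eq_univ_iff_forall]
    intro x
    have hxi : x ∈ ⋃ i, Cell y b i := by rw [iUnion_Cell]; trivial
    obtain ⟨i, hi⟩ := mem_iUnion.1 hxi
    have hxj : x ∈ ⋃ j, Cell (zJ i) (ζ i) j := by rw [iUnion_Cell]; trivial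
    obtain ⟨j, hj⟩ := mem_iUnion.1 hxj
    exact mem_iUnion.2 ⟨(⟨i, j⟩ : Σ i, J i), hi, hj⟩
  have hCM : ∀ c, ∀ x ∈ C c, ∀ x' ∈ C' c, (1 - t) • x + t • x' ∈ M c := by
    intro c x hx x' hx'
    refine ⟨cell_combo hx.1 hx'.1 ht0.le (by linarith), ?_⟩
    have h1 : x ∈ Cell (zJ c.1) (fun k => v k.1) c.2 := fun k => hx.2 k.1
    exact cell_combo h1 hx'.2 ht0.le (by linarith)
  have hcore := core hPL hK hKc hKi hR0 hR hκm hκ ht0 ht1 (S := Σ i, J i)
    (z := fun c => z c.2.1) (fun c => hzK _) hCm hC'm hMm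
    (fun c x hx hxC => hvor x hx _ hxC.2) hCM hPpos hpC hpC' (hCd hρac) hCu (hCd' hρac)
    (by rw [hCu']; exact measure_empty) (hMd hρac)
  obtain ⟨π, h1, h2, h3, h4⟩ := cell_coupling (ρ := unif K) (σ := sig K κ) hρK hσK hR0 hR
    (S := Σ i, J i) (z := fun c => z c.2.1) (fun c => hzK _) (δ := R * t ^ 2)
    hCm hC'm (fun c x hx hxC => hvor x hx _ hxC.2) hPpos hpC hpC's (hCd hρac) hCu
    (hCd' hσac) (by rw [hCu']; exact measure_empty)
    (A := ⋃ i, Cell y a i ×ˢ Cell y b i)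
    (MeasurableSet.iUnion fun i => (measurableSet_Cell y a i).prod (measurableSet_Cell y b i))
    (fun c q hq => mem_iUnion.2 ⟨c.1, hq.1.1, hq.2.1⟩)
  refine ⟨π, h1, h2, h3, h4.trans ?_⟩
  have h5 : ∀ c : Σ i, J i, ∫ x in C' c, ‖x - z c.2.1‖ ^ 2 ∂(sig K κ) =
      ∫ x in C' c, ‖x - z c.2.1‖ ^ 2 * (1 + κ x) ∂(unif K) := by
    intro c
    rw [← integral_indicator (hC'm c), integral_sig hκm hκ, ← integral_indicator (hC'm c)]
    refine integral_congr_ae (Eventually.of_forall fun x => ?_)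
    by_cases hx : x ∈ C' c
    · simp only [indicator_of_mem hx]; ring
    · simp only [indicator_of_notMem hx]; ring
  rw [Finset.sum_congr rfl fun c _ => h5 c]
  have h6 : 0 ≤ ∫ x, κ x ^ 2 ∂(unif K) := integral_nonneg fun x => sq_nonneg _
  have h7 : 22 * R ^ 2 * ∫ x, κ x ^ 2 ∂(unif K) ≤ 25 * R ^ 2 * ∫ x, κ x ^ 2 ∂(unif K) := by
    gcongr; norm_num
  have h8 : 4 * R * (R * t ^ 2) ≤ 4 * R ^ 2 * t := by
    have : t ^ 2 ≤ t := by nlinarith
    have h9 : 4 * R * (R * t ^ 2) = 4 * R ^ 2 * t ^ 2 := by ring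
    rw [h9]; gcongr
  linarith

end Vale.Agent.P074
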