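import Mathlib
import Vale.Agent.P074.Defs
import Vale.Agent.P074.Approx

open MeasureTheory Set
open scoped ENNReal NNReal

namespace Vale.Agent.P074

variable {d : ℕ}

theorem integral_comp_fin {Ω : Type} [Fintype Ω] {α : Type*} [MeasurableSpace α] {μ : Measure α}
    [IsFiniteMeasure μ] {q : α → Ω} (hq : ∀ ω, MeasurableSet (q ⁻¹' {ω})) (g : Ω → ℝ) :
    ∫ x, g (q x) ∂μ = ∑ ω, μ.real (q ⁻¹' {ω}) * g ω := by
  have hU : (⋃ ω, q ⁻¹' {ω}) = univ := by
    ext x; simp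
  rw [← setIntegral_univ, ← hU, integral_iUnion_fintype hq]
  · refine Finset.sum_congr rfl fun ω _ => ?_
    rw [setIntegral_congr_fun (g := fun _ => g ω) (hq ω), setIntegral_const, smul_eq_mul]
    intro x hx
    have : q x = ω := hx
    simp only [this]
  · intro i j hij
    exact Disjoint.preimage q (by simpa using hij)
  · intro ω
    exact (integrable_comp hq g).integrableOn

/-- generic choice of perturbation -/
theorem exists_theta {Ω : Type} [Fintype Ω] (e : Ω → ℕ) (he : Function.Injective e)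
    (c : ℚ → Ω → E d) {w : E d} (hw : w ≠ 0) {t : ℝ} (ht : 0 < t) :
    ∃ θ : ℝ, 0 < θ ∧ θ < t ∧ ∀ s : ℚ, Function.Injective
      (fun ω => c s ω + (θ * ((e ω : ℝ) + 1)) • w) := by
  set B : Set ℝ := ⋃ s : ℚ, ⋃ p : Ω × Ω, {θ : ℝ | p.1 ≠ p.2 ∧
    c s p.1 + (θ * ((e p.1 : ℝ) + 1)) • w = c s p.2 + (θ * ((e p.2 : ℝ) + 1)) • w} with hB
  have hBc : B.Countable := by
    refine countable_iUnion fun s => countable_iUnion fun p => ?_
    apply Set.Subsingleton.countable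
    rintro θ ⟨hne, h1⟩ θ' ⟨_, h2⟩
    have h3 : ((θ - θ') * ((e p.1 : ℝ) - e p.2)) • w = 0 := by
      have : (θ * ((e p.1 : ℝ) + 1)) • w - (θ * ((e p.2 : ℝ) + 1)) • w =
          (θ' * ((e p.1 : ℝ) + 1)) • w - (θ' * ((e p.2 : ℝ) + 1)) • w := by
        have h4 : (θ * ((e p.1 : ℝ) + 1)) • w - (θ * ((e p.2 : ℝ) + 1)) • w =
            c s p.2 - c s p.1 := by
          rw [sub_eq_sub_iff_add_eq_add, add_comm, h1, add_comm]
        have h5 : (θ' * ((e p.1 : ℝ) + 1)) • w - (θ' * ((e p.2 : ℝ) + 1)) • w =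
            c s p.2 - c s p.1 := by
          rw [sub_eq_sub_iff_add_eq_add, add_comm, h2, add_comm]
        rw [h4, h5]
      rw [← sub_smul, ← sub_smul] at this
      have h6 : (θ * ((e p.1 : ℝ) + 1) - θ * ((e p.2 : ℝ) + 1)) -
          (θ' * ((e p.1 : ℝ) + 1) - θ' * ((e p.2 : ℝ) + 1)) =
          (θ - θ') * ((e p.1 : ℝ) - e p.2) := by ring
      rw [← h6, sub_smul, this, sub_self]
    rcases smul_eq_zero.1 h3 with h4 | h4
    · rcases mul_eq_zero.1 h4 with h5 | h5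
      · linarith
      · exfalso
        apply hne
        apply he
        have : (e p.1 : ℝ) = e p.2 := by linarith
        exact_mod_cast this
    · exact absurd h4 hw
  obtain ⟨θ, hθ1, hθ2⟩ := (hBc.dense_compl ℝ).inter_open_nonempty (Ioo 0 t) isOpen_Ioo
    ⟨t / 2, by constructor <;> linarith⟩
  refine ⟨θ, hθ1.1, hθ1.2, ?_⟩
  intro s ω ω' h
  by_contra hne
  apply hθ2
  rw [hB, mem_iUnion]
  refine ⟨s, ?_⟩
  rw [mem_iUnion]
  exact ⟨(ω, ω'), hne, h⟩

/-- conditional laws of a coordinate on the pieces of a partition -/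
theorem cond_law {Ω : Type} [Fintype Ω] {α : Type*} [MeasurableSpace α] {π : Measure α}
    [IsProbabilityMeasure π] {q : α → Ω} (hq : ∀ ω, MeasurableSet (q ⁻¹' {ω}))
    (hpos : ∀ ω, π (q ⁻¹' {ω}) ≠ 0) {f : α → E d} (hf : Measurable f) (y : Ω → E d) {η : ℝ}
    (hnear : ∀ᵐ p ∂π, ‖f p - y (q p)‖ ≤ η) :
    ∃ κ : Ω → Measure (E d), (∀ ω, IsProbabilityMeasure (κ ω)) ∧
      (∀ ω, κ ω (Metric.closedBall (y ω) η)ᶜ = 0) ∧
      π.map f = ∑ ω, ENNReal.ofReal (π.real (q ⁻¹' {ω})) • κ ω := by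
  refine ⟨fun ω => (π (q ⁻¹' {ω}))⁻¹ • (π.restrict (q ⁻¹' {ω})).map f, ?_, ?_, ?_⟩
  · intro ω
    constructor
    rw [Measure.smul_apply, Measure.map_apply hf MeasurableSet.univ, preimage_univ,
      Measure.restrict_apply MeasurableSet.univ, univ_inter, smul_eq_mul,
      ENNReal.inv_mul_cancel (hpos ω) (measure_ne_top _ _)]
  · intro ω
    have hms : MeasurableSet (Metric.closedBall (y ω) η)ᶜ :=
      Metric.isClosed_closedBall.measurableSet.compl
    rw [Measure.smul_apply, Measure.map_apply hf hms, Measure.restrict_apply (hf hms)]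
    have : π (f ⁻¹' (Metric.closedBall (y ω) η)ᶜ ∩ q ⁻¹' {ω}) = 0 := by
      rw [measure_eq_zero_iff_ae_notMem]
      filter_upwards [hnear] with p hp
      rintro ⟨h1, h2⟩
      have h2' : q p = ω := h2
      apply h1
      rw [mem_closedBall_iff_norm, ← h2']
      exact hp
    rw [this, smul_zero]
  · ext s hs
    rw [Measure.map_apply hf hs, measure_partition hq (hf hs), Measure.finsetSum_apply]
    refine Finset.sum_congr rfl fun ω _ => ?_
    rw [ofReal_measureReal, Measure.smul_apply, Measure.smul_apply, Measure.map_apply hf hs,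
      Measure.restrict_apply (hf hs), smul_eq_mul, smul_eq_mul, ← mul_assoc,
      ENNReal.mul_inv_cancel (hpos ω) (measure_ne_top _ _), one_mul, inter_comm]


/-- discretisation of a coupling with generic positions -/
theorem exists_discr (hd : 0 < d) {Y : Set (E d)} (hY : IsCompact Y) (hYne : Y.Nonempty)
    {R : ℝ} (hYR : ∀ t ∈ Y, ‖t‖ + 1 ≤ R) {π : Measure (E d × E d)} [IsProbabilityMeasure π]
    (hπY : ∀ᵐ p ∂π, p.1 ∈ Y ∧ p.2 ∈ Y) {η : ℝ} (hη : 0 < η) (hη1 : η ≤ 1) :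
    ∃ (Ω : Type) (_ : Fintype Ω) (_ : Nonempty Ω) (m : Ω → ℝ) (y z : Ω → E d)
      (κ κ' : Ω → Measure (E d)), (∀ ω, 0 < m ω) ∧ ∑ ω, m ω = 1 ∧
      (∀ s : ℚ, Function.Injective (pos y z s)) ∧ (∀ ω, ‖y ω‖ ≤ R) ∧ (∀ ω, ‖z ω‖ ≤ R) ∧
      (∀ ω, IsProbabilityMeasure (κ ω)) ∧ (∀ ω, IsProbabilityMeasure (κ' ω)) ∧
      (∀ ω, κ ω (Metric.closedBall (y ω) η)ᶜ = 0) ∧
      (∀ ω, κ' ω (Metric.closedBall (z ω) η)ᶜ = 0) ∧
      π.map Prod.fst = ∑ ω, ENNReal.ofReal (m ω) • κ ω ∧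
      π.map Prod.snd = ∑ ω, ENNReal.ofReal (m ω) • κ' ω ∧
      ∑ ω, m ω * ‖z ω - y ω‖ ^ 2 ≤ 2 * (∫ p, ‖p.1 - p.2‖ ^ 2 ∂π) + 2 * η ^ 2 := by
  classical
  obtain ⟨t, htY, htf, hcov⟩ := hY.finite_cover_balls (half_pos hη)
  have : Fintype t := htf.fintype
  obtain ⟨y₀, hy₀⟩ := hYne
  have htne : Nonempty t := by
    have := hcov hy₀
    rw [mem_iUnion₂] at this
    obtain ⟨x, hx, -⟩ := this
    exact ⟨⟨x, hx⟩⟩
  have hYm : MeasurableSet Y := hY.isClosed.measurableSet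
  obtain ⟨g, hg1, hg2⟩ := exists_select (Ω := t)
    (fun i => Metric.closedBall (i : E d) (η / 2) ∪ Yᶜ)
    (fun i => Metric.isClosed_closedBall.measurableSet.union hYm.compl) (by
      intro x
      by_cases hx : x ∈ Y
      · have := hcov hx
        rw [mem_iUnion₂] at this
        obtain ⟨c, hc, hxc⟩ := this
        exact ⟨⟨c, hc⟩, Or.inl (Metric.ball_subset_closedBall hxc)⟩
      · exact ⟨Classical.arbitrary _, Or.inr hx⟩)
  have hgY : ∀ x ∈ Y, ‖x - (g x : E d)‖ ≤ η / 2 := by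
    intro x hx
    rcases hg2 x with h | h
    · rwa [mem_closedBall_iff_norm] at h
    · exact absurd hx h
  let L : E d × E d → t × t := fun p => (g p.1, g p.2)
  have hLm : ∀ ij, MeasurableSet (L ⁻¹' {ij}) := by
    rintro ⟨i, j⟩
    have : L ⁻¹' {(i, j)} = (g ⁻¹' {i}) ×ˢ (g ⁻¹' {j}) := by
      ext p; simp [L]
    rw [this]
    exact (hg1 i).prod (hg1 j)
  let Ω := {ij : t × t // π (L ⁻¹' {ij}) ≠ 0}
  have hL0 : ∀ᵐ p ∂π, π (L ⁻¹' {L p}) ≠ 0 := by
    have : ∀ᵐ p ∂π, ∀ ij, π (L ⁻¹' {ij}) = 0 → p ∉ L ⁻¹' {ij} := by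
      rw [ae_all_iff]
      intro ij
      by_cases h : π (L ⁻¹' {ij}) = 0
      · filter_upwards [measure_eq_zero_iff_ae_notMem.1 h] with p hp _
        exact hp
      · exact Filter.Eventually.of_forall fun p h' => absurd h' h
    filter_upwards [this] with p hp h
    exact hp (L p) h rfl
  have hΩne : Nonempty Ω := by
    obtain ⟨p, hp⟩ := hL0.exists
    exact ⟨⟨L p, hp⟩⟩
  let q : E d × E d → Ω := fun p => if h : π (L ⁻¹' {L p}) ≠ 0 then ⟨L p, h⟩ else
    Classical.arbitrary Ω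
  have hqm : ∀ ω, MeasurableSet (q ⁻¹' {ω}) := by
    intro ω
    have : q ⁻¹' {ω} = ⋃ ij ∈ {ij : t × t | (if h : π (L ⁻¹' {ij}) ≠ 0 then
        (⟨ij, h⟩ : Ω) else Classical.arbitrary Ω) = ω}, L ⁻¹' {ij} := by
      ext p
      simp only [mem_preimage, mem_singleton_iff, mem_ofPred_eq, mem_iUnion, exists_prop,
        exists_eq_right']
      rfl
    rw [this]
    exact MeasurableSet.biUnion (Set.to_countable _) fun ij _ => hLm ij
  have hqL : ∀ᵐ p ∂π, (q p).1 = L p := by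
    filter_upwards [hL0] with p hp
    simp only [q]
    rw [dif_pos hp]
  have hqpos : ∀ ω, π (q ⁻¹' {ω}) ≠ 0 := by
    intro ω h
    apply ω.2
    refine measure_mono_null ?_ h
    intro p hp
    have hp' : L p = ω.1 := hp
    have h2 : π (L ⁻¹' {L p}) ≠ 0 := by rw [hp']; exact ω.2
    change q p = ω
    simp only [q]
    rw [dif_pos h2]
    exact Subtype.ext hp'
  -- positions
  let e : Ω → ℕ := fun ω => (Fintype.equivFin Ω ω : ℕ)
  have he : Function.Injective e := fun a b h => (Fintype.equivFin Ω).injective (Fin.ext h)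
  let N : ℕ := Fintype.card Ω
  have hN : 0 < N := Fintype.card_pos
  have heN : ∀ ω, (e ω : ℝ) + 1 ≤ N := by
    intro ω
    have := (Fintype.equivFin Ω ω).2
    exact_mod_cast this
  let i₀ : Fin d := ⟨0, hd⟩
  let w : E d := EuclideanSpace.single i₀ (1 : ℝ)
  have hw1 : ‖w‖ = 1 := by simp [w]
  have hw0 : w ≠ 0 := by
    intro h
    rw [h] at hw1
    simp at hw1
  obtain ⟨θ, hθ0, hθt, hθinj⟩ := exists_theta e he
    (fun (s : ℚ) (ω : Ω) => ((ω.1.1 : t) : E d) + (s : ℝ) • (((ω.1.2 : t) : E d) - ((ω.1.1 : t) : E d)))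
    hw0 (t := η / (2 * N)) (by positivity)
  have hsmall : ∀ ω, ‖(θ * ((e ω : ℝ) + 1)) • w‖ ≤ η / 2 := by
    intro ω
    rw [norm_smul, hw1, mul_one, Real.norm_eq_abs, abs_of_pos (by positivity)]
    calc θ * ((e ω : ℝ) + 1) ≤ η / (2 * N) * N := by
          have := heN ω
          gcongr
      _ = η / 2 := by
          have : (N : ℝ) ≠ 0 := by positivity
          field_simp
  let y : Ω → E d := fun ω => ((ω.1.1 : t) : E d) + (θ * ((e ω : ℝ) + 1)) • w
  let z : Ω → E d := fun ω => ((ω.1.2 : t) : E d) + (θ * ((e ω : ℝ) + 1)) • w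
  have hzy : ∀ ω, z ω - y ω = ((ω.1.2 : t) : E d) - ((ω.1.1 : t) : E d) := by
    intro ω
    simp only [y, z]
    abel
  have hae1 : ∀ᵐ p ∂π, ‖p.1 - y (q p)‖ ≤ η := by
    filter_upwards [hqL, hπY] with p h1 h2
    have h3 : (q p).1.1 = g p.1 := by rw [h1]
    simp only [y]
    rw [h3]
    have h4 : p.1 - ((g p.1 : E d) + (θ * ((e (q p) : ℝ) + 1)) • w) =
        (p.1 - (g p.1 : E d)) - (θ * ((e (q p) : ℝ) + 1)) • w := by abel
    rw [h4]
    refine (norm_sub_le _ _).trans ?_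
    have := hgY _ h2.1
    have := hsmall (q p)
    linarith
  have hae2 : ∀ᵐ p ∂π, ‖p.2 - z (q p)‖ ≤ η := by
    filter_upwards [hqL, hπY] with p h1 h2
    have h3 : (q p).1.2 = g p.2 := by rw [h1]
    simp only [z]
    rw [h3]
    have h4 : p.2 - ((g p.2 : E d) + (θ * ((e (q p) : ℝ) + 1)) • w) =
        (p.2 - (g p.2 : E d)) - (θ * ((e (q p) : ℝ) + 1)) • w := by abel
    rw [h4]
    refine (norm_sub_le _ _).trans ?_
    have := hgY _ h2.2
    have := hsmall (q p)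
    linarith
  obtain ⟨κ, hκ1, hκ2, hκ3⟩ := cond_law hqm hqpos measurable_fst y hae1
  obtain ⟨κ', hκ1', hκ2', hκ3'⟩ := cond_law hqm hqpos measurable_snd z hae2
  have hyR : ∀ ω, ‖y ω‖ ≤ R := by
    intro ω
    refine (norm_add_le _ _).trans ?_
    have h1 := hYR _ (htY (ω.1.1 : t).2)
    have := hsmall ω
    linarith
  have hzR : ∀ ω, ‖z ω‖ ≤ R := by
    intro ω
    refine (norm_add_le _ _).trans ?_
    have h1 := hYR _ (htY (ω.1.2 : t).2)
    have := hsmall ω
    linarith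
  refine ⟨Ω, inferInstance, hΩne, fun ω => π.real (q ⁻¹' {ω}), y, z, κ, κ', ?_, ?_, ?_, hyR,
    hzR, hκ1, hκ1', hκ2, hκ2', hκ3, hκ3', ?_⟩
  · intro ω
    exact ENNReal.toReal_pos (hqpos ω) (measure_ne_top _ _)
  · have := integral_comp_fin (μ := π) hqm (fun _ => 1)
    simpa using this.symm
  · intro s
    have h := hθinj s
    intro ω ω' h'
    apply h
    simp only [pos, hzy] at h'
    simp only
    have e1 : ∀ ω : Ω, y ω + (s : ℝ) • (((ω.1.2 : t) : E d) - ((ω.1.1 : t) : E d)) =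
        ((ω.1.1 : t) : E d) + (s : ℝ) • (((ω.1.2 : t) : E d) - ((ω.1.1 : t) : E d)) +
          (θ * ((e ω : ℝ) + 1)) • w := by
      intro ω
      simp only [y]
      abel
    rw [← e1, ← e1]
    exact h'
  · rw [← integral_comp_fin (μ := π) hqm (fun ω => ‖z ω - y ω‖ ^ 2)]
    have hint : Integrable (fun p : E d × E d => ‖p.1 - p.2‖ ^ 2) π := by
      refine integrable_bdd (Continuous.aestronglyMeasurable (by fun_prop)) (C := (2 * R) ^ 2) ?_
      filter_upwards [hπY] with p hp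
      rw [norm_pow, norm_norm]
      have h1 := hYR _ hp.1
      have h2 := hYR _ hp.2
      have : ‖p.1 - p.2‖ ≤ 2 * R := (norm_sub_le _ _).trans (by linarith)
      gcongr
    have h1 : ∫ p, ‖z (q p) - y (q p)‖ ^ 2 ∂π ≤ ∫ p, (2 * ‖p.1 - p.2‖ ^ 2 + 2 * η ^ 2) ∂π := by
      apply integral_mono_ae (integrable_comp hqm (fun ω => ‖z ω - y ω‖ ^ 2))
        ((hint.const_mul 2).add (integrable_const _))
      filter_upwards [hqL, hπY] with p h1 h2
      rw [hzy, h1]
      have h3 := hgY _ h2.1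
      have h4 := hgY _ h2.2
      have h5 : ‖((L p).2 : E d) - ((L p).1 : E d)‖ ≤ ‖p.1 - p.2‖ + η := by
        have e1 : ((L p).2 : E d) - ((L p).1 : E d) =
            -(p.2 - (g p.2 : E d)) + (p.1 - (g p.1 : E d)) - (p.1 - p.2) := by
          simp only [L]; abel
        rw [e1]
        refine (norm_sub_le _ _).trans ?_
        have := norm_add_le (-(p.2 - (g p.2 : E d))) (p.1 - (g p.1 : E d))
        rw [norm_neg] at this
        linarith
      have h6 := norm_nonneg (((L p).2 : E d) - ((L p).1 : E d))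
      calc ‖((L p).2 : E d) - ((L p).1 : E d)‖ ^ 2 ≤ (‖p.1 - p.2‖ + η) ^ 2 := by gcongr
        _ ≤ 2 * ‖p.1 - p.2‖ ^ 2 + 2 * η ^ 2 := by nlinarith [sq_nonneg (‖p.1 - p.2‖ - η)]
    rw [integral_add (hint.const_mul 2) (integrable_const _), integral_const_mul, integral_const,
      probReal_univ, one_smul] at h1
    exact h1

end Vale.Agent.P074
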