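import Mathlib
import Vale.Agent.P074.Defs
import Vale.Agent.P074.Discr

open MeasureTheory Set
open scoped ENNReal NNReal

namespace Vale.Agent.P074

variable {d : ℕ}

theorem sq_three (a b c : E d) : ‖a + b + c‖ ^ 2 ≤ 3 * (‖a‖ ^ 2 + ‖b‖ ^ 2 + ‖c‖ ^ 2) := by
  have h1 : ‖a + b + c‖ ≤ ‖a‖ + ‖b‖ + ‖c‖ := norm_add₃_le
  have h0 := norm_nonneg (a + b + c)
  calc ‖a + b + c‖ ^ 2 ≤ (‖a‖ + ‖b‖ + ‖c‖) ^ 2 := by gcongr
    _ ≤ _ := by nlinarith [sq_nonneg (‖a‖ - ‖b‖), sq_nonneg (‖b‖ - ‖c‖), sq_nonneg (‖a‖ - ‖c‖)]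

theorem coupling_ae {Y : Set (E d)} (hYm : MeasurableSet Y) {μ ν : Measure (E d)}
    (hμ : ProbOn Y μ) (hν : ProbOn Y ν) {π : Measure (E d × E d)} (hπ : IsCoupling π μ ν) :
    ∀ᵐ p ∂π, p.1 ∈ Y ∧ p.2 ∈ Y := by
  have h1 : π (Prod.fst ⁻¹' Yᶜ) = 0 := by
    rw [← Measure.map_apply measurable_fst hYm.compl, hπ.1, hμ.2]
  have h2 : π (Prod.snd ⁻¹' Yᶜ) = 0 := by
    rw [← Measure.map_apply measurable_snd hYm.compl, hπ.2, hν.2]
  filter_upwards [measure_eq_zero_iff_ae_notMem.1 h1, measure_eq_zero_iff_ae_notMem.1 h2]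
    with p hp1 hp2
  exact ⟨not_not.1 hp1, not_not.1 hp2⟩

theorem coupling_prob {μ ν : Measure (E d)} (hμ : IsProbabilityMeasure μ)
    {π : Measure (E d × E d)} (hπ : IsCoupling π μ ν) : IsProbabilityMeasure π := by
  constructor
  have := hμ.measure_univ
  rw [← hπ.1, Measure.map_apply measurable_fst MeasurableSet.univ, preimage_univ] at this
  exact this

theorem key_bound {K : Set (E d)} (hd : 0 < d) (hK : IsCompact K) (hc : Convex ℝ K)
    (hi : (interior K).Nonempty) {Y : Set (E d)} (hY : IsCompact Y) (hYne : Y.Nonempty)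
    {R : ℝ} (hYR : ∀ t ∈ Y, ‖t‖ + 1 ≤ R) :
    ∃ C : ℝ, 0 ≤ C ∧ ∀ δ : ℝ, 0 < δ → δ ≤ 1 → ∀ μ ν : Measure (E d), ProbOn Y μ → ProbOn Y ν →
      ∀ π, IsCoupling π μ ν → ∀ T S, IsOptMap (unif K) μ T → IsOptMap (unif K) ν S →
      ∫ x, ‖T x - S x‖ ^ 2 ∂(unif K) ≤ C * (δ + (∫ p, ‖p.1 - p.2‖ ^ 2 ∂π) / δ ^ 2) := by
  have hR1 : 1 ≤ R := by
    obtain ⟨t, ht⟩ := hYne
    linarith [hYR t ht, norm_nonneg t]
  obtain ⟨C₁, hC₁, hcore⟩ := core hK hc hi hR1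
  obtain ⟨C₂, hC₂, happ⟩ := approx hd hK hc hi hR1
  have hYm : MeasurableSet Y := hY.isClosed.measurableSet
  have hKm : MeasurableSet K := hK.isClosed.measurableSet
  have hV0' : volume K ≠ 0 := by
    have : 0 < volume (interior K) := isOpen_interior.measure_pos _ hi
    exact (this.trans_le (measure_mono interior_subset)).ne'
  have hp := unif_prob hV0' hK.measure_lt_top.ne
  obtain ⟨a', ha'⟩ := hK.isBounded.exists_norm_le
  obtain ⟨a, ha, ha1⟩ : ∃ a, a' ≤ a ∧ 1 ≤ a := ⟨max a' 1, le_max_left _ _, le_max_right _ _⟩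
  have hKa : K ⊆ Metric.closedBall 0 a := fun x hx => by
    rw [mem_closedBall_zero_iff]; exact (ha' x hx).trans ha
  refine ⟨6 + 12 * C₁, by positivity, ?_⟩
  intro δ hδ hδ1 μ ν hμ hν π hπ T S hT hS
  have hπp := coupling_prob hμ.1 hπ
  have hπY := coupling_ae hYm hμ hν hπ
  set η : ℝ := (δ / (C₂ + 1)) ^ 2 with hη
  have hη0 : 0 < η := by positivity
  have hdc : δ / (C₂ + 1) ≤ δ := div_le_self hδ.le (by linarith)
  have hdc0 : 0 ≤ δ / (C₂ + 1) := by positivity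
  have hηδ : η ≤ δ ^ 2 := by rw [hη]; gcongr
  have hη1 : η ≤ 1 := hηδ.trans (pow_le_one₀ hδ.le hδ1)
  have hsq : C₂ * Real.sqrt η ≤ δ := by
    rw [hη, Real.sqrt_sq hdc0]
    rw [← mul_div_assoc, div_le_iff₀ (by positivity)]
    nlinarith
  obtain ⟨Ω, hΩ1, hΩ2, m, y, z, κ, κ', hm, hm1, hinj, hyR, hzR, hκ1, hκ1', hκ2, hκ2', hκ3,
    hκ3', hE2⟩ := exists_discr hd hY hYne hYR hπY hη0 hη1
  have hy : Function.Injective y := by
    have := hinj 0
    rwa [Rat.cast_zero, pos_zero] at this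
  have hz : Function.Injective z := by
    have := hinj 1
    rwa [Rat.cast_one, pos_one] at this
  obtain ⟨A⟩ := exists_alloc (by linarith) hKm hKa hV0' hy hm hm1
  obtain ⟨B⟩ := exists_alloc (by linarith) hKm hKa hV0' hz hm hm1
  obtain ⟨n, hn⟩ := exists_nat_gt (1 / δ ^ 2)
  have hn0' : (0 : ℝ) < n := lt_trans (by positivity) hn
  have hn0 : 0 < n := by exact_mod_cast hn0'
  have hnδ : 1 / ((n : ℝ) * δ) ≤ δ := by
    rw [div_le_iff₀ (by positivity)]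
    rw [div_lt_iff₀ (by positivity)] at hn
    nlinarith
  have b1 := happ η hη0 hη1 Ω m y hm hyR A κ hκ2 μ (by rw [← hκ3, hπ.1]) T hT
  have b2 := hcore δ hδ hδ1 Ω m y z hm hm1 hinj hyR hzR A B n hn0
  have b3 := happ η hη0 hη1 Ω m z hm hzR B κ' hκ2' ν (by rw [← hκ3', hπ.2]) S hS
  obtain ⟨W, hW⟩ : ∃ W, W = ∫ p, ‖p.1 - p.2‖ ^ 2 ∂π := ⟨_, rfl⟩
  have hW0 : 0 ≤ W := by rw [hW]; exact integral_nonneg fun p => by positivity
  rw [← hW] at hE2 ⊢
  have hE3 : (∑ ω, m ω * ‖z ω - y ω‖ ^ 2) / δ ^ 2 ≤ 2 * (W / δ ^ 2) + 2 * δ := by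
    have e1 : (∑ ω, m ω * ‖z ω - y ω‖ ^ 2) / δ ^ 2 ≤ (2 * W + 2 * η ^ 2) / δ ^ 2 := by gcongr
    have e2 : η ^ 2 / δ ^ 2 ≤ δ := by
      rw [div_le_iff₀ (by positivity)]
      calc η ^ 2 ≤ (δ ^ 2) ^ 2 := by gcongr
        _ = δ * δ ^ 2 * δ := by ring
        _ ≤ δ * δ ^ 2 * 1 := by gcongr
        _ = δ * δ ^ 2 := by ring
    have e3 : (2 * W + 2 * η ^ 2) / δ ^ 2 = 2 * (W / δ ^ 2) + 2 * (η ^ 2 / δ ^ 2) := by ring
    linarith
  have b2' : ∫ x, ‖y (A.q x) - z (B.q x)‖ ^ 2 ∂(unif K) ≤ C₁ * (4 * (δ + W / δ ^ 2)) := by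
    refine b2.trans ?_
    have : 0 ≤ W / δ ^ 2 := by positivity
    gcongr
    linarith
  -- boundedness of T and S
  have hbd : ∀ {μ' : Measure (E d)} {T' : E d → E d}, ProbOn Y μ' → IsOptMap (unif K) μ' T' →
      ∀ᵐ x ∂(unif K), ‖T' x‖ ≤ R := by
    intro μ' T' hμ' hT'
    have h1 : (unif K) (T' ⁻¹' Yᶜ) = 0 := by
      rw [← Measure.map_apply hT'.1 hYm.compl, hT'.2.1, hμ'.2]
    filter_upwards [measure_eq_zero_iff_ae_notMem.1 h1] with x hx
    have hxY : T' x ∈ Y := not_not.1 hx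
    linarith [hYR _ hxY]
  have hTb := hbd hμ hT
  have hSb := hbd hν hS
  have hym : Measurable (fun x => y (A.q x)) := meas_comp A.meas y
  have hzm : Measurable (fun x => z (B.q x)) := meas_comp B.meas z
  have hint : ∀ {f g : E d → E d}, Measurable f → Measurable g →
      (∀ᵐ x ∂(unif K), ‖f x‖ ≤ R) → (∀ᵐ x ∂(unif K), ‖g x‖ ≤ R) →
      Integrable (fun x => ‖f x - g x‖ ^ 2) (unif K) := by
    intro f g hf hg h1 h2
    refine integrable_bdd ((hf.sub hg).norm.pow_const 2).aestronglyMeasurable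
      (C := (2 * R) ^ 2) ?_
    filter_upwards [h1, h2] with x hx1 hx2
    rw [norm_pow, norm_norm]
    have : ‖f x - g x‖ ≤ 2 * R := (norm_sub_le _ _).trans (by linarith)
    gcongr
  have hyb : ∀ᵐ x ∂(unif K), ‖y (A.q x)‖ ≤ R := Filter.Eventually.of_forall fun x => hyR _
  have hzb : ∀ᵐ x ∂(unif K), ‖z (B.q x)‖ ≤ R := Filter.Eventually.of_forall fun x => hzR _
  have j0 := hint hT.1 hS.1 hTb hSb
  have j1 := hint hT.1 hym hTb hyb
  have j2 := hint hym hzm hyb hzb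
  have j3 := hint hS.1 hzm hSb hzb
  have j12 : Integrable (fun x => ‖T x - y (A.q x)‖ ^ 2 + ‖y (A.q x) - z (B.q x)‖ ^ 2)
    (unif K) := j1.add j2
  have j123 : Integrable (fun x => ‖T x - y (A.q x)‖ ^ 2 + ‖y (A.q x) - z (B.q x)‖ ^ 2 +
    ‖S x - z (B.q x)‖ ^ 2) (unif K) := j12.add j3
  have hfin : ∫ x, ‖T x - S x‖ ^ 2 ∂(unif K) ≤
      3 * ((∫ x, ‖T x - y (A.q x)‖ ^ 2 ∂(unif K)) +
        (∫ x, ‖y (A.q x) - z (B.q x)‖ ^ 2 ∂(unif K)) +
        ∫ x, ‖S x - z (B.q x)‖ ^ 2 ∂(unif K)) := by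
    rw [← integral_add j1 j2, ← integral_add j12 j3, ← integral_const_mul]
    apply integral_mono j0 (j123.const_mul 3)
    intro x
    have h := sq_three (T x - y (A.q x)) (y (A.q x) - z (B.q x)) (-(S x - z (B.q x)))
    have e : T x - y (A.q x) + (y (A.q x) - z (B.q x)) + -(S x - z (B.q x)) = T x - S x := by
      abel
    rw [e, norm_neg] at h
    exact h
  have hWδ : 0 ≤ W / δ ^ 2 := by positivity
  refine hfin.trans ?_
  have b1' := b1.trans hsq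
  have b3' := b3.trans hsq
  nlinarith

theorem opt_scale {C W B D : ℝ} (hC : 0 ≤ C) (hW : 0 ≤ W) (hWD : W ≤ D)
    (h : ∀ δ : ℝ, 0 < δ → δ ≤ 1 → B ≤ C * (δ + W / δ ^ 2)) :
    B ≤ C * (2 + D) * W ^ (1 / 3 : ℝ) := by
  have hD : 0 ≤ D := hW.trans hWD
  rcases eq_or_lt_of_le hW with hW0 | hW0
  · rw [← hW0] at h ⊢
    have h1 : B ≤ 0 := by
      apply le_of_forall_pos_le_add
      intro ε hε
      have h2 := h (min 1 (ε / (C + 1))) (by positivity) (min_le_left _ _)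
      rw [zero_div, add_zero] at h2
      have h3 : C * min 1 (ε / (C + 1)) ≤ C * (ε / (C + 1)) := by
        gcongr; exact min_le_right _ _
      have h4 : C * (ε / (C + 1)) ≤ ε := by
        rw [← mul_div_assoc, div_le_iff₀ (by positivity)]
        nlinarith
      linarith
    rw [Real.zero_rpow (by norm_num)]
    linarith
  rcases le_or_gt W 1 with hW1 | hW1
  · set δ := W ^ (1 / 3 : ℝ) with hδ
    have hδ0 : 0 < δ := Real.rpow_pos_of_pos hW0 _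
    have hδ1 : δ ≤ 1 := Real.rpow_le_one hW hW1 (by norm_num)
    have hδ3 : δ ^ 3 = W := by
      rw [hδ, ← Real.rpow_natCast, ← Real.rpow_mul hW]; norm_num
    have h1 := h δ hδ0 hδ1
    have h2 : W / δ ^ 2 = δ := by
      rw [← hδ3]; field_simp
    rw [h2] at h1
    have : 0 ≤ C * D * δ := by positivity
    linarith
  · have h1 := h 1 one_pos le_rfl
    have h2 : 1 ≤ W ^ (1 / 3 : ℝ) := Real.one_le_rpow hW1.le (by norm_num)
    have h3 : C * (1 + W / 1 ^ 2) ≤ C * (2 + D) * 1 := by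
      rw [one_pow, div_one, mul_one]
      gcongr
      · norm_num
    have h4 : C * (2 + D) * 1 ≤ C * (2 + D) * W ^ (1 / 3 : ℝ) := by gcongr
    linarith

theorem le_mul_rpow_iff {a b : ℝ≥0∞} {C : ℝ≥0} (hC : C ≠ 0) :
    a ≤ C * b ^ (1 / 3 : ℝ) ↔ (a / C) ^ (3 : ℝ) ≤ b := by
  rw [← ENNReal.le_rpow_inv_iff (by norm_num : (0 : ℝ) < 3), ENNReal.div_le_iff' (by simpa using hC)
    ENNReal.coe_ne_top, one_div]

/-- the exponent `1/3` is admissible -/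
theorem admissible_third (hd : 0 < d) : Admissible d (1 / 3) := by
  refine ⟨by norm_num, by norm_num, ?_⟩
  intro K hK hc hi Y hY hYne
  have hYm : MeasurableSet Y := hY.isClosed.measurableSet
  obtain ⟨R', hR'⟩ := hY.isBounded.exists_norm_le
  obtain ⟨R, hR⟩ : ∃ R, R = R' + 1 := ⟨_, rfl⟩
  have hYR : ∀ t ∈ Y, ‖t‖ + 1 ≤ R := fun t ht => by linarith [hR' t ht]
  have hR0 : 0 ≤ R := by
    obtain ⟨t, ht⟩ := hYne
    linarith [hYR t ht, norm_nonneg t]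
  obtain ⟨C, hC, hkey⟩ := key_bound hd hK hc hi hY hYne hYR
  have hV0' : volume K ≠ 0 := by
    have : 0 < volume (interior K) := isOpen_interior.measure_pos _ hi
    exact (this.trans_le (measure_mono interior_subset)).ne'
  have hp := unif_prob hV0' hK.measure_lt_top.ne
  obtain ⟨M, hM⟩ : ∃ M, M = C * (2 + (2 * R) ^ 2) := ⟨_, rfl⟩
  have hM0 : 0 ≤ M := by rw [hM]; positivity
  refine ⟨Real.toNNReal (Real.sqrt M + 1), ?_⟩
  intro μ ν hμ hν T S hT hS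
  have hCne : Real.toNNReal (Real.sqrt M + 1) ≠ 0 := by
    have : 0 < Real.sqrt M + 1 := by positivity
    exact (Real.toNNReal_pos.2 this).ne'
  rw [le_mul_rpow_iff hCne, W2]
  refine le_iInf₂ fun π hπ => ?_
  rw [← le_mul_rpow_iff hCne]
  have hπp := coupling_prob hμ.1 hπ
  have hπY := coupling_ae hYm hμ hν hπ
  obtain ⟨W, hW⟩ : ∃ W, W = ∫ p, ‖p.1 - p.2‖ ^ 2 ∂π := ⟨_, rfl⟩
  have hW0 : 0 ≤ W := by rw [hW]; exact integral_nonneg fun p => by positivity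
  have hnorm : ∀ᵐ p ∂π, ‖‖p.1 - p.2‖ ^ 2‖ ≤ (2 * R) ^ 2 := by
    filter_upwards [hπY] with p hp
    rw [norm_pow, norm_norm]
    have h1 := hYR _ hp.1
    have h2 := hYR _ hp.2
    have : ‖p.1 - p.2‖ ≤ 2 * R := (norm_sub_le _ _).trans (by linarith)
    gcongr
  have hint : Integrable (fun p : E d × E d => ‖p.1 - p.2‖ ^ 2) π :=
    integrable_bdd (Continuous.aestronglyMeasurable (by fun_prop)) hnorm
  have hWD : W ≤ (2 * R) ^ 2 := by
    rw [hW]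
    refine (le_abs_self _).trans ?_
    rw [← Real.norm_eq_abs]
    refine (norm_integral_le_of_norm_le_const hnorm).trans ?_
    simp
  have hlint : ∫⁻ p, ‖p.1 - p.2‖ₑ ^ 2 ∂π = ENNReal.ofReal W := by
    rw [hW, ofReal_integral_eq_lintegral_ofReal hint
      (Filter.Eventually.of_forall fun p => by positivity)]
    refine lintegral_congr fun p => ?_
    rw [ENNReal.ofReal_pow (norm_nonneg _), ofReal_norm]
  set B := ∫ x, ‖T x - S x‖ ^ 2 ∂(unif K) with hB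
  have hB0 : 0 ≤ B := integral_nonneg fun x => by positivity
  have hBM : B ≤ M * W ^ (1 / 3 : ℝ) := by
    rw [hM]
    apply opt_scale hC hW0 hWD
    intro δ hδ hδ1
    rw [hW]
    exact hkey δ hδ hδ1 μ ν hμ hν π hπ T S hT hS
  -- the L² norm
  have hbd : ∀ {μ' : Measure (E d)} {T' : E d → E d}, ProbOn Y μ' → IsOptMap (unif K) μ' T' →
      ∀ᵐ x ∂(unif K), ‖T' x‖ ≤ R := by
    intro μ' T' hμ' hT'
    have h1 : (unif K) (T' ⁻¹' Yᶜ) = 0 := by
      rw [← Measure.map_apply hT'.1 hYm.compl, hT'.2.1, hμ'.2]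
    filter_upwards [measure_eq_zero_iff_ae_notMem.1 h1] with x hx
    have hxY : T' x ∈ Y := not_not.1 hx
    linarith [hYR _ hxY]
  have hmem : MemLp (fun x => T x - S x) 2 (unif K) := by
    refine MemLp.of_bound (hT.1.sub hS.1).aestronglyMeasurable (2 * R) ?_
    filter_upwards [hbd hμ hT, hbd hν hS] with x h1 h2
    exact (norm_sub_le _ _).trans (by linarith)
  have hL2 : eLpNorm (fun x => T x - S x) 2 (unif K) = ENNReal.ofReal (B ^ (1 / 2 : ℝ)) := by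
    rw [hmem.eLpNorm_eq_integral_rpow_norm (by norm_num) (by norm_num), hB]
    norm_num
  rw [hL2, hlint, ENNReal.ofReal_rpow_of_nonneg hW0 (by norm_num),
    ENNReal.ofReal_rpow_of_nonneg (by positivity) (by norm_num)]
  have hcoe : (Real.toNNReal (Real.sqrt M + 1) : ℝ≥0∞) =
      ENNReal.ofReal (Real.sqrt M + 1) := rfl
  rw [hcoe, ← ENNReal.ofReal_mul (by positivity)]
  apply ENNReal.ofReal_le_ofReal
  have e1 : (W ^ (1 / 2 : ℝ)) ^ (1 / 3 : ℝ) = (W ^ (1 / 3 : ℝ)) ^ (1 / 2 : ℝ) := by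
    rw [← Real.rpow_mul hW0, ← Real.rpow_mul hW0]; norm_num
  rw [e1]
  calc B ^ (1 / 2 : ℝ) ≤ (M * W ^ (1 / 3 : ℝ)) ^ (1 / 2 : ℝ) := by gcongr
    _ = M ^ (1 / 2 : ℝ) * (W ^ (1 / 3 : ℝ)) ^ (1 / 2 : ℝ) := by
        rw [Real.mul_rpow hM0 (by positivity)]
    _ ≤ (Real.sqrt M + 1) * (W ^ (1 / 3 : ℝ)) ^ (1 / 2 : ℝ) := by
        rw [← Real.sqrt_eq_rpow M]
        gcongr
        linarith

end Vale.Agent.P074
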