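import Mathlib
import Vale.Agent.P074.Defs
import Vale.Agent.P074.Opt
import Vale.Agent.P074.Cube

open MeasureTheory Set
open scoped ENNReal NNReal

namespace Vale.Agent.P074

variable {d : ℕ}

section
variable (i0 i1 : Fin d)

/-- first basis vector -/
noncomputable def bv (i : Fin d) : E d := EuclideanSpace.single i (1 : ℝ)

/-- plus cell -/
def Pc (a s : ℝ) : Set (E d) := {x | a + s * x i1 < x i0}
/-- minus cell -/
def Nc (a s : ℝ) : Set (E d) := {x | x i0 < -(a + s * x i1)}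

open Classical in
/-- the transport map -/
noncomputable def Tm (a s : ℝ) (x : E d) : E d :=
  if a + s * x i1 < x i0 then bv i0 else if x i0 < -(a + s * x i1) then - bv i0 else s • bv i1

theorem meas_coord (i : Fin d) : Measurable (fun x : E d => x i) :=
  (EuclideanSpace.proj i : E d →L[ℝ] ℝ).continuous.measurable

theorem meas_Pc (a s : ℝ) : MeasurableSet (Pc i0 i1 a s) :=
  measurableSet_lt ((measurable_const).add (measurable_const.mul (meas_coord i1))) (meas_coord i0)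

theorem meas_Nc (a s : ℝ) : MeasurableSet (Nc i0 i1 a s) :=
  measurableSet_lt (meas_coord i0)
    (((measurable_const).add (measurable_const.mul (meas_coord i1))).neg)

theorem meas_Tm (a s : ℝ) : Measurable (Tm i0 i1 a s) := by
  unfold Tm
  refine Measurable.ite (meas_Pc i0 i1 a s) measurable_const ?_
  exact Measurable.ite (meas_Nc i0 i1 a s) measurable_const measurable_const

/-- the measure preserving point reflection -/
noncomputable def Rf (a : ℝ) (i : Fin d) : ℝ → ℝ :=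
  if i = i0 then (fun t => 2 * a - t) else if i = i1 then (fun t => -t) else id

theorem Rf_mp (a : ℝ) (i : Fin d) : MeasurePreserving (Rf i0 i1 a i) volume volume := by
  unfold Rf
  split_ifs
  · exact Measure.measurePreserving_sub_left volume (2 * a)
  · exact Measure.measurePreserving_neg volume
  · exact MeasurePreserving.id _

theorem null1 (a : ℝ) : volume {x : E d | x i0 = a} = 0 := by
  have := hyper_null (bv i0) (by
    intro h
    have := congrArg (fun v : E d => v i0) h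
    simp [bv] at this) a
  convert this using 3
  simp [bv, EuclideanSpace.inner_single_left]

theorem null2 (h01 : i0 ≠ i1) (a : ℝ) : volume {x : E d | x i0 = a + a * x i1} = 0 := by
  have := hyper_null (bv i0 - a • bv i1) (by
    intro h
    have := congrArg (fun v : E d => v i0) h
    simp [bv, h01] at this) a
  convert this using 2
  ext x
  simp only [mem_ofPred_eq]
  rw [inner_sub_left, inner_smul_left]
  simp only [bv, EuclideanSpace.inner_single_left, map_one, one_mul, conj_trivial]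
  constructor <;> intro h <;> linarith

theorem vol_P (h01 : i0 ≠ i1) {a : ℝ} (ha : 0 < a) (ha2 : a ≤ 1 / 2) :
    volume (cube d ∩ Pc i0 i1 a a) = volume (cube d ∩ Pc i0 i1 a 0) := by
  have hcube : MeasurableSet (cube d) := (isClosed_boxE _ _).measurableSet
  rw [← measure_inter_add_sdiff (cube d ∩ Pc i0 i1 a a) (meas_Pc i0 i1 a 0),
    ← measure_inter_add_sdiff (cube d ∩ Pc i0 i1 a 0) (meas_Pc i0 i1 a a)]
  have e1 : cube d ∩ Pc i0 i1 a a ∩ Pc i0 i1 a 0 = cube d ∩ Pc i0 i1 a 0 ∩ Pc i0 i1 a a := by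
    rw [inter_right_comm]
  rw [e1]
  congr 1
  have hR := coord_mp (d := d) (Rf i0 i1 a) (Rf_mp i0 i1 a)
  have hm : MeasurableSet ((cube d ∩ Pc i0 i1 a 0) \ Pc i0 i1 a a) :=
    (hcube.inter (meas_Pc i0 i1 a 0)).diff (meas_Pc i0 i1 a a)
  rw [← hR.measure_preimage hm.nullMeasurableSet]
  apply measure_congr
  have n1 : ∀ᵐ x : E d, x i0 ≠ a := by
    rw [ae_iff]; simpa using null1 i0 a
  have n2 : ∀ᵐ x : E d, x i0 ≠ a + a * x i1 := by
    rw [ae_iff]; simpa using null2 i0 i1 h01 a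
  filter_upwards [n1, n2] with x h1 h2
  apply propext
  change (x ∈ (cube d ∩ Pc i0 i1 a a) \ Pc i0 i1 a 0) ↔
    (WithLp.toLp 2 (fun i => Rf i0 i1 a i (x i)) : E d) ∈ (cube d ∩ Pc i0 i1 a 0) \ Pc i0 i1 a a
  simp only [mem_sdiff, mem_inter_iff, mem_cube, Pc, mem_ofPred_eq, not_lt]
  have c0 : Rf i0 i1 a i0 (x i0) = 2 * a - x i0 := by simp [Rf]
  have c1 : Rf i0 i1 a i1 (x i1) = - x i1 := by simp [Rf, h01.symm]
  constructor
  · rintro ⟨⟨hx, h3⟩, h4⟩
    have hx1 := abs_le.1 (hx i1)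
    have h3' : a + a * x i1 < x i0 := h3
    have h4' : x i0 ≤ a := by linarith
    refine ⟨⟨fun i => ?_, ?_⟩, ?_⟩
    · by_cases hi : i = i0
      · subst hi
        rw [c0, abs_le]
        constructor <;> nlinarith
      · by_cases hi' : i = i1
        · subst hi'
          rw [c1, abs_neg]; exact hx _
        · have : Rf i0 i1 a i (x i) = x i := by simp [Rf, hi, hi']
          rw [this]; exact hx i
    · rw [c0, c1]
      have : x i0 < a := lt_of_le_of_ne h4' h1
      linarith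
    · rw [c0, c1]; linarith
  · rintro ⟨⟨hx, h3⟩, h4⟩
    rw [c0, c1] at h3 h4
    have hx1' := hx i1
    rw [c1, abs_neg] at hx1'
    have hx1 := abs_le.1 hx1'
    have h3' : x i0 < a := by linarith
    have h4' : a + a * x i1 ≤ x i0 := by linarith
    refine ⟨⟨fun i => ?_, ?_⟩, ?_⟩
    · by_cases hi : i = i0
      · subst hi
        rw [abs_le]
        constructor <;> nlinarith
      · by_cases hi' : i = i1
        · subst hi'
          exact hx1'
        · have : Rf i0 i1 a i (x i) = x i := by simp [Rf, hi, hi']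
          have h5 := hx i
          rwa [this] at h5
    · exact lt_of_le_of_ne h4' (Ne.symm h2)
    · linarith

/-- reflection in first coordinate -/
noncomputable def Qf (i : Fin d) : ℝ → ℝ := if i = i0 then (fun t => -t) else id

theorem Qf_mp (i : Fin d) : MeasurePreserving (Qf i0 i) volume volume := by
  unfold Qf
  split_ifs
  · exact Measure.measurePreserving_neg volume
  · exact MeasurePreserving.id _

theorem vol_N (h01 : i0 ≠ i1) (a s : ℝ) :
    volume (cube d ∩ Nc i0 i1 a s) = volume (cube d ∩ Pc i0 i1 a s) := by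
  have hcube : MeasurableSet (cube d) := (isClosed_boxE _ _).measurableSet
  have hR := coord_mp (d := d) (Qf i0) (Qf_mp i0)
  have hm : MeasurableSet (cube d ∩ Nc i0 i1 a s) := hcube.inter (meas_Nc i0 i1 a s)
  rw [← hR.measure_preimage hm.nullMeasurableSet]
  congr 1
  ext x
  simp only [mem_preimage, mem_inter_iff, mem_cube, Pc, Nc, mem_ofPred_eq]
  have c0 : Qf i0 i0 (x i0) = - x i0 := by simp [Qf]
  have c1 : Qf i0 i1 (x i1) = x i1 := by simp [Qf, h01.symm]
  rw [c0, c1]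
  have : (∀ i, |Qf i0 i (x i)| ≤ 1) ↔ ∀ i, |x i| ≤ 1 := by
    apply forall_congr'
    intro i
    by_cases hi : i = i0
    · subst hi; rw [c0, abs_neg]
    · simp [Qf, hi]
  rw [this]
  constructor
  · rintro ⟨h, h'⟩; exact ⟨h, by linarith⟩
  · rintro ⟨h, h'⟩; exact ⟨h, by linarith⟩

theorem unif_apply {A : Set (E d)} (hA : MeasurableSet A) :
    unif (cube d) A = (volume (cube d))⁻¹ * volume (cube d ∩ A) := by
  rw [unif, Measure.smul_apply, Measure.restrict_apply hA, smul_eq_mul, inter_comm]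

theorem map_Tm (a s : ℝ) (ρ : Measure (E d)) :
    ρ.map (Tm i0 i1 a s) =
      ρ (Pc i0 i1 a s) • Measure.dirac (bv i0) +
      (ρ ((Pc i0 i1 a s)ᶜ ∩ Nc i0 i1 a s) • Measure.dirac (-bv i0) +
      ρ ((Pc i0 i1 a s)ᶜ ∩ (Nc i0 i1 a s)ᶜ) • Measure.dirac (s • bv i1)) := by
  have hP := meas_Pc i0 i1 a s
  have hN := meas_Nc i0 i1 a s
  have hT := meas_Tm i0 i1 a s
  ext A hA
  rw [Measure.map_apply hT hA]
  simp only [Measure.add_apply, Measure.smul_apply, smul_eq_mul, Measure.dirac_apply' _ hA]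
  rw [← measure_inter_add_sdiff (Tm i0 i1 a s ⁻¹' A) hP,
    ← measure_inter_add_sdiff (Tm i0 i1 a s ⁻¹' A \ Pc i0 i1 a s) hN]
  have key : ∀ (B : Set (E d)) (v : E d), (∀ x ∈ B, Tm i0 i1 a s x = v) →
      ρ (Tm i0 i1 a s ⁻¹' A ∩ B) = ρ B * A.indicator 1 v := by
    intro B v h
    by_cases hv : v ∈ A
    · rw [indicator_of_mem hv, Pi.one_apply, mul_one]
      congr 1
      ext x
      simp only [mem_inter_iff, mem_preimage, and_iff_right_iff_imp]
      intro hx; rw [h x hx]; exact hv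
    · rw [indicator_of_notMem hv, mul_zero]
      convert measure_empty (μ := ρ)
      ext x
      simp only [mem_inter_iff, mem_preimage, mem_empty_iff_false, iff_false, not_and]
      intro h1 hx; rw [h x hx] at h1; exact hv h1
  have k1 := key (Pc i0 i1 a s) (bv i0) (fun x hx => by
    have : a + s * x i1 < x i0 := hx
    simp [Tm, this])
  have k2 := key ((Pc i0 i1 a s)ᶜ ∩ Nc i0 i1 a s) (-bv i0) (fun x hx => by
    have h1 : ¬ a + s * x i1 < x i0 := hx.1
    have h2 : x i0 < -(a + s * x i1) := hx.2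
    unfold Tm
    rw [if_neg h1, if_pos h2])
  have k3 := key ((Pc i0 i1 a s)ᶜ ∩ (Nc i0 i1 a s)ᶜ) (s • bv i1) (fun x hx => by
    have h1 : ¬ a + s * x i1 < x i0 := hx.1
    have h2 : ¬ x i0 < -(a + s * x i1) := hx.2
    unfold Tm
    rw [if_neg h1, if_neg h2])
  rw [k1, sdiff_eq, sdiff_eq, inter_assoc, k2, inter_assoc, k3]

theorem measure_eq_cells {a : ℝ} (h01 : i0 ≠ i1) (ha : 0 < a) (ha2 : a ≤ 1 / 2) :
    unif (cube d) (Pc i0 i1 a a) = unif (cube d) (Pc i0 i1 a 0) ∧
    unif (cube d) ((Pc i0 i1 a a)ᶜ ∩ Nc i0 i1 a a) =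
      unif (cube d) ((Pc i0 i1 a 0)ᶜ ∩ Nc i0 i1 a 0) ∧
    unif (cube d) ((Pc i0 i1 a a)ᶜ ∩ (Nc i0 i1 a a)ᶜ) =
      unif (cube d) ((Pc i0 i1 a 0)ᶜ ∩ (Nc i0 i1 a 0)ᶜ) := by
  have h1 : unif (cube d) (Pc i0 i1 a a) = unif (cube d) (Pc i0 i1 a 0) := by
    rw [unif_apply (meas_Pc i0 i1 a a), unif_apply (meas_Pc i0 i1 a 0), vol_P i0 i1 h01 ha ha2]
  have hN : ∀ s : ℝ, 0 ≤ s → s ≤ a → unif (cube d) ((Pc i0 i1 a s)ᶜ ∩ Nc i0 i1 a s) =
      unif (cube d) (Pc i0 i1 a s) := by
    intro s hs0 hs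
    rw [unif_apply ((meas_Pc i0 i1 a s).compl.inter (meas_Nc i0 i1 a s)),
      unif_apply (meas_Pc i0 i1 a s), ← vol_N i0 i1 h01]
    congr 2
    ext x
    simp only [mem_inter_iff, mem_compl_iff]
    constructor
    · rintro ⟨h, _, h'⟩; exact ⟨h, h'⟩
    · rintro ⟨h, h'⟩
      refine ⟨h, ?_, h'⟩
      intro h3
      have h4 : a + s * x i1 < x i0 := h3
      have h5 : x i0 < -(a + s * x i1) := h'
      have h6 := abs_le.1 (mem_cube.1 h i1)
      nlinarith
  have h2 : unif (cube d) ((Pc i0 i1 a a)ᶜ ∩ Nc i0 i1 a a) =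
      unif (cube d) ((Pc i0 i1 a 0)ᶜ ∩ Nc i0 i1 a 0) := by
    rw [hN a ha.le le_rfl, hN 0 le_rfl ha.le, h1]
  refine ⟨h1, h2, ?_⟩
  have tot : ∀ s : ℝ, unif (cube d) (Pc i0 i1 a s) + unif (cube d) ((Pc i0 i1 a s)ᶜ ∩ Nc i0 i1 a s)
      + unif (cube d) ((Pc i0 i1 a s)ᶜ ∩ (Nc i0 i1 a s)ᶜ) = 1 := by
    intro s
    rw [add_assoc, ← sdiff_eq, measure_inter_add_sdiff _ (meas_Nc i0 i1 a s),
      measure_add_measure_compl (meas_Pc i0 i1 a s), measure_univ]
  have t1 := tot a
  have t2 := tot 0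
  rw [h1, h2, ← t2] at t1
  refine (ENNReal.add_right_inj ?_).1 t1
  exact ENNReal.add_ne_top.2 ⟨measure_ne_top _ _, measure_ne_top _ _⟩

theorem isOpt_Tm {a s : ℝ} (h01 : i0 ≠ i1) (ha : 0 < a) (hs0 : 0 ≤ s) (hs : s ≤ a) :
    IsOptMap (unif (cube d)) ((unif (cube d)).map (Tm i0 i1 a s)) (Tm i0 i1 a s) := by
  have hT := meas_Tm i0 i1 a s
  let Y : Set (E d) := {bv i0, -bv i0, s • bv i1}
  have hY : IsCompact Y := by
    apply Set.Finite.isCompact
    simp [Y]
  have hYT : ∀ x, Tm i0 i1 a s x ∈ Y := by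
    intro x
    unfold Tm
    split_ifs <;> simp [Y]
  have hμ : ((unif (cube d)).map (Tm i0 i1 a s)) Yᶜ = 0 := by
    rw [Measure.map_apply hT hY.isClosed.measurableSet.compl]
    convert measure_empty (μ := unif (cube d))
    ext x
    simp only [mem_preimage, mem_compl_iff, mem_empty_iff_false, iff_false, not_not]
    exact hYT x
  have hin : ∀ (i : Fin d) (x : E d), inner ℝ x (bv i) = x i := by
    intro i x
    simp [bv, EuclideanSpace.inner_single_right]
  refine isOptMap_of_potentials (isCompact_cube d) hY (unif_compl d) hμ hT rfl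
    (u := fun x => max |x i0| (a + s * x i1)) (ψ := fun y => a * ((y i0) ^ 2 - 1)) ?_ ?_ ?_ ?_
  · fun_prop
  · fun_prop
  · intro x hx y hy
    have hx1 := abs_le.1 (mem_cube.1 hx i1)
    simp only [Y, mem_insert_iff, mem_singleton_iff] at hy
    rcases hy with rfl | rfl | rfl
    · rw [hin]
      have : (bv i0 : E d) i0 = 1 := by simp [bv]
      rw [this]
      have := le_max_left |x i0| (a + s * x i1)
      have := le_abs_self (x i0)
      linarith
    · rw [inner_neg_right, hin]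
      have : (-bv i0 : E d) i0 = -1 := by simp [bv]
      rw [this]
      have := le_max_left |x i0| (a + s * x i1)
      have := neg_abs_le (x i0)
      linarith
    · rw [inner_smul_right, hin]
      have : (s • bv i1 : E d) i0 = 0 := by simp [bv, h01]
      rw [this]
      have := le_max_right |x i0| (a + s * x i1)
      linarith
  · have hae : ∀ᵐ x ∂(unif (cube d)), x ∈ cube d := by
      rw [ae_iff]; exact unif_compl d
    filter_upwards [hae] with x hx
    have hx1 := abs_le.1 (mem_cube.1 hx i1)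
    have hpos : 0 ≤ a + s * x i1 := by nlinarith
    unfold Tm
    split_ifs with h1 h2
    · rw [hin]
      have : (bv i0 : E d) i0 = 1 := by simp [bv]
      rw [this, abs_of_pos (lt_of_le_of_lt hpos h1), max_eq_left h1.le]
      ring
    · rw [inner_neg_right, hin]
      have : (-bv i0 : E d) i0 = -1 := by simp [bv]
      rw [this, abs_of_neg (by linarith), max_eq_left (by linarith)]
      ring
    · rw [inner_smul_right, hin]
      have : (s • bv i1 : E d) i0 = 0 := by simp [bv, h01]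
      rw [this, max_eq_right]
      · ring
      · rw [abs_le]; constructor <;> linarith

theorem norm_bv (i : Fin d) : ‖bv i‖ = 1 := by
  simp [bv]

theorem W2_le {a : ℝ} (h01 : i0 ≠ i1) (ha : 0 < a) (ha2 : a ≤ 1 / 2) :
    W2 ((unif (cube d)).map (Tm i0 i1 a 0)) ((unif (cube d)).map (Tm i0 i1 a a)) ≤
      (unif (cube d) ((Pc i0 i1 a 0)ᶜ ∩ (Nc i0 i1 a 0)ᶜ) * ENNReal.ofReal a ^ 2) ^ (1 / 2 : ℝ) := by
  obtain ⟨e1, e2, e3⟩ := measure_eq_cells i0 i1 h01 ha ha2
  let p := unif (cube d) (Pc i0 i1 a 0)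
  let q := unif (cube d) ((Pc i0 i1 a 0)ᶜ ∩ Nc i0 i1 a 0)
  let m := unif (cube d) ((Pc i0 i1 a 0)ᶜ ∩ (Nc i0 i1 a 0)ᶜ)
  let π : Measure (E d × E d) := p • Measure.dirac (bv i0, bv i0) +
    (q • Measure.dirac (-bv i0, -bv i0) + m • Measure.dirac (0, a • bv i1))
  have hπ : IsCoupling π ((unif (cube d)).map (Tm i0 i1 a 0))
      ((unif (cube d)).map (Tm i0 i1 a a)) := by
    constructor
    · rw [map_Tm]
      simp only [π, Measure.map_add _ _ measurable_fst, Measure.map_smul,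
        Measure.map_dirac' measurable_fst, zero_smul, p, q, m]
    · rw [map_Tm, e1, e2, e3]
      simp only [π, Measure.map_add _ _ measurable_snd, Measure.map_smul,
        Measure.map_dirac' measurable_snd, p, q, m]
  refine (iInf₂_le π hπ).trans ?_
  gcongr
  have hmeas : Measurable (fun z : E d × E d => ‖z.1 - z.2‖ₑ ^ 2) := by fun_prop
  simp only [π, lintegral_add_measure, lintegral_smul_measure, lintegral_dirac' _ hmeas]
  simp only [sub_self, enorm_zero, zero_sub, enorm_neg, smul_eq_mul]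
  have : ‖a • (bv i1 : E d)‖ₑ = ENNReal.ofReal a := by
    rw [← ofReal_norm, norm_smul, norm_bv, Real.norm_eq_abs, abs_of_pos ha, mul_one]
  rw [this]
  simp [m]

theorem prod_two (f : Fin d → ℝ≥0∞) (h01 : i0 ≠ i1) (hf : ∀ i, i ≠ i0 → i ≠ i1 → f i = 2) :
    ∏ i, f i = f i0 * f i1 * 2 ^ (d - 2) := by
  rw [← Finset.mul_prod_erase Finset.univ f (Finset.mem_univ i0),
    ← Finset.mul_prod_erase (Finset.univ.erase i0) f (Finset.mem_erase.2 ⟨h01.symm, Finset.mem_univ i1⟩)]
  rw [Finset.prod_congr rfl (g := fun _ => (2 : ℝ≥0∞)), Finset.prod_const]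
  · rw [Finset.card_erase_of_mem (Finset.mem_erase.2 ⟨h01.symm, Finset.mem_univ i1⟩),
      Finset.card_erase_of_mem (Finset.mem_univ i0), Finset.card_univ, Fintype.card_fin,
      Nat.sub_sub, mul_assoc]
  · intro i hi
    simp only [Finset.mem_erase, Finset.mem_univ, and_true] at hi
    exact hf i hi.2 hi.1

theorem two_le_d (h01 : i0 ≠ i1) : 2 ≤ d := by
  have h1 := i0.2
  have h2 := i1.2
  have h3 : (i0 : ℕ) ≠ i1 := fun h => h01 (Fin.ext h)
  omega

theorem arith_aux (x y z : ℝ≥0∞) (hz : z ≠ 0) (hz' : z ≠ ∞) :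
    4⁻¹ * z⁻¹ * (x * y * z) = x * y * 4⁻¹ := by
  calc 4⁻¹ * z⁻¹ * (x * y * z) = x * y * 4⁻¹ * (z⁻¹ * z) := by ring
    _ = x * y * 4⁻¹ := by rw [ENNReal.inv_mul_cancel hz hz', mul_one]

theorem unif_box_le {B : Set (E d)} {lo hi : Fin d → ℝ} (hB : cube d ∩ B ⊆ boxE lo hi)
    (hBm : MeasurableSet B) (h01 : i0 ≠ i1) (hf : ∀ i, i ≠ i0 → i ≠ i1 → hi i - lo i = 2) :
    unif (cube d) B ≤ ENNReal.ofReal (hi i0 - lo i0) * ENNReal.ofReal (hi i1 - lo i1) / 4 := by
  rw [unif_apply hBm]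
  have h1 : volume (cube d ∩ B) ≤ ENNReal.ofReal (hi i0 - lo i0) * ENNReal.ofReal (hi i1 - lo i1)
      * 2 ^ (d - 2) := by
    refine (measure_mono hB).trans ?_
    rw [volume_boxE, prod_two i0 i1 _ h01]
    intro i h0 h1
    rw [hf i h0 h1]; norm_num
  calc (volume (cube d))⁻¹ * volume (cube d ∩ B) ≤
      (volume (cube d))⁻¹ * (ENNReal.ofReal (hi i0 - lo i0) * ENNReal.ofReal (hi i1 - lo i1)
      * 2 ^ (d - 2)) := by gcongr
    _ = ENNReal.ofReal (hi i0 - lo i0) * ENNReal.ofReal (hi i1 - lo i1) / 4 := by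
      rw [volume_cube]
      have hd : (2 : ℝ≥0∞) ^ d = 4 * 2 ^ (d - 2) := by
        have : d = 2 + (d - 2) := by
          have := two_le_d i0 i1 h01
          omega
        conv_lhs => rw [this, pow_add]
        norm_num
      rw [hd, ENNReal.mul_inv (Or.inl (by norm_num)) (Or.inl (by norm_num)), div_eq_mul_inv]
      exact arith_aux _ _ _ (by positivity) (ENNReal.pow_ne_top (by norm_num))

theorem le_unif_box {B : Set (E d)} {lo hi : Fin d → ℝ} (hB : boxE lo hi ⊆ cube d ∩ B)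
    (hBm : MeasurableSet B) (h01 : i0 ≠ i1) (hf : ∀ i, i ≠ i0 → i ≠ i1 → hi i - lo i = 2) :
    ENNReal.ofReal (hi i0 - lo i0) * ENNReal.ofReal (hi i1 - lo i1) / 4 ≤ unif (cube d) B := by
  rw [unif_apply hBm]
  have h1 : ENNReal.ofReal (hi i0 - lo i0) * ENNReal.ofReal (hi i1 - lo i1)
      * 2 ^ (d - 2) ≤ volume (cube d ∩ B) := by
    refine le_trans ?_ (measure_mono hB)
    rw [volume_boxE, prod_two i0 i1 _ h01]
    intro i h0 h1
    rw [hf i h0 h1]; norm_num
  calc ENNReal.ofReal (hi i0 - lo i0) * ENNReal.ofReal (hi i1 - lo i1) / 4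
      = (volume (cube d))⁻¹ * (ENNReal.ofReal (hi i0 - lo i0) * ENNReal.ofReal (hi i1 - lo i1)
      * 2 ^ (d - 2)) := by
          rw [volume_cube]
          have hd : (2 : ℝ≥0∞) ^ d = 4 * 2 ^ (d - 2) := by
            have : d = 2 + (d - 2) := by
              have := two_le_d i0 i1 h01
              omega
            conv_lhs => rw [this, pow_add]
            norm_num
          rw [hd, ENNReal.mul_inv (Or.inl (by norm_num)) (Or.inl (by norm_num)), div_eq_mul_inv]
          exact (arith_aux _ _ _ (by positivity) (ENNReal.pow_ne_top (by norm_num))).symm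
    _ ≤ (volume (cube d))⁻¹ * volume (cube d ∩ B) := by gcongr

theorem mass_mid {a : ℝ} (h01 : i0 ≠ i1) (ha : 0 < a) :
    unif (cube d) ((Pc i0 i1 a 0)ᶜ ∩ (Nc i0 i1 a 0)ᶜ) ≤ ENNReal.ofReal a := by
  have h := unif_box_le i0 i1 (B := (Pc i0 i1 a 0)ᶜ ∩ (Nc i0 i1 a 0)ᶜ)
    (lo := fun i => if i = i0 then -a else -1) (hi := fun i => if i = i0 then a else 1) ?_
    ((meas_Pc i0 i1 a 0).compl.inter (meas_Nc i0 i1 a 0).compl) h01 ?_
  · refine h.trans (le_of_eq ?_)
    simp only [if_true, if_neg h01.symm]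
    rw [show a - -a = 2 * a by ring, show (1 : ℝ) - -1 = 2 by norm_num,
      ENNReal.ofReal_mul (by norm_num), ENNReal.ofReal_ofNat]
    rw [show (2 : ℝ≥0∞) * ENNReal.ofReal a * 2 = ENNReal.ofReal a * 4 by ring]
    rw [ENNReal.mul_div_cancel_right (by norm_num) (by norm_num)]
  · rintro x ⟨hx, hx1, hx2⟩ i
    have h1 : ¬ (a + 0 * x i1 < x i0) := hx1
    have h2 : ¬ (x i0 < -(a + 0 * x i1)) := hx2
    by_cases hi : i = i0
    · subst hi
      simp only [if_true]
      constructor <;> linarith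
    · simp only [if_neg hi]
      exact abs_le.1 (mem_cube.1 hx i)
  · intro i h0 h1
    simp only [if_neg h0]; norm_num

theorem mass_B {a : ℝ} (h01 : i0 ≠ i1) (ha : 0 < a) (ha2 : a ≤ 1 / 2) :
    ENNReal.ofReal (a / 32) ≤
      unif (cube d) {x : E d | 5 * a / 4 ≤ x i0 ∧ x i0 ≤ 3 * a / 2 ∧ 1 / 2 ≤ x i1} := by
  have hm : MeasurableSet {x : E d | 5 * a / 4 ≤ x i0 ∧ x i0 ≤ 3 * a / 2 ∧ 1 / 2 ≤ x i1} := by
    apply MeasurableSet.inter
    · exact measurableSet_le measurable_const (meas_coord i0)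
    · apply MeasurableSet.inter
      · exact measurableSet_le (meas_coord i0) measurable_const
      · exact measurableSet_le measurable_const (meas_coord i1)
  have h := le_unif_box i0 i1
    (B := {x : E d | 5 * a / 4 ≤ x i0 ∧ x i0 ≤ 3 * a / 2 ∧ 1 / 2 ≤ x i1})
    (lo := fun i => if i = i0 then 5 * a / 4 else if i = i1 then 1 / 2 else -1)
    (hi := fun i => if i = i0 then 3 * a / 2 else 1) ?_ hm h01 ?_
  · refine le_trans (le_of_eq ?_) h
    simp only [if_true, if_neg h01.symm]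
    rw [← ENNReal.ofReal_mul (by linarith), ← ENNReal.ofReal_ofNat 4,
      ← ENNReal.ofReal_div_of_pos (by norm_num)]
    congr 1; ring
  · intro x hx
    have hx0 := hx i0
    have hx1 := hx i1
    simp only [if_true, if_neg h01.symm] at hx0 hx1
    refine ⟨mem_cube.2 fun i => ?_, hx0.1, hx0.2, hx1.1⟩
    have hxi := hx i
    by_cases hi : i = i0
    · subst hi
      rw [abs_le]; constructor <;> linarith
    · by_cases hi' : i = i1
      · subst hi'
        rw [abs_le]; constructor <;> linarith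
      · simp only [if_neg hi, if_neg hi'] at hxi
        exact abs_le.2 hxi
  · intro i h0 h1
    simp only [if_neg h0, if_neg h1]; norm_num

theorem lower_L2 {a : ℝ} (h01 : i0 ≠ i1) (ha : 0 < a) (ha2 : a ≤ 1 / 2) :
    ENNReal.ofReal (a / 32) ^ (1 / 2 : ℝ) ≤
      eLpNorm (fun x => Tm i0 i1 a 0 x - Tm i0 i1 a a x) 2 (unif (cube d)) := by
  have hmeas : Measurable (fun x => Tm i0 i1 a 0 x - Tm i0 i1 a a x) :=
    (meas_Tm i0 i1 a 0).sub (meas_Tm i0 i1 a a)
  have h := pow_mul_meas_ge_le_eLpNorm (unif (cube d)) (p := 2) (by norm_num) (by norm_num)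
    hmeas.aestronglyMeasurable 1
  refine le_trans ?_ h
  simp only [one_mul, ENNReal.toReal_ofNat]
  gcongr
  refine (mass_B i0 i1 h01 ha ha2).trans (measure_mono ?_)
  rintro x ⟨h1, h2, h3⟩
  have t0 : Tm i0 i1 a 0 x = bv i0 := by
    unfold Tm; rw [if_pos (by linarith)]
  have t1 : Tm i0 i1 a a x = a • bv i1 := by
    unfold Tm; rw [if_neg (by nlinarith), if_neg (by nlinarith)]
  have h4 : (1 : ℝ) ≤ ‖(bv i0 : E d) - a • bv i1‖ := by
    have h5 := PiLp.norm_apply_le ((bv i0 : E d) - a • bv i1) i0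
    have h6 : ((bv i0 : E d) - a • bv i1) i0 = 1 := by simp [bv, h01]
    rw [h6] at h5
    simpa using h5
  show (1 : ℝ≥0∞) ≤ _
  rw [t0, t1]
  have h7 : (1 : ℝ≥0∞) ≤ ‖(bv i0 : E d) - a • bv i1‖ₑ := by
    rw [← ofReal_norm, ← ENNReal.ofReal_one]
    exact ENNReal.ofReal_le_ofReal h4
  exact ENNReal.one_le_rpow h7 (by norm_num)

theorem upper_W2 {a : ℝ} (h01 : i0 ≠ i1) (ha : 0 < a) (ha2 : a ≤ 1 / 2) :
    W2 ((unif (cube d)).map (Tm i0 i1 a 0)) ((unif (cube d)).map (Tm i0 i1 a a)) ≤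
      ENNReal.ofReal (a ^ (3 / 2 : ℝ)) := by
  refine (W2_le i0 i1 h01 ha ha2).trans ?_
  have h1 : unif (cube d) ((Pc i0 i1 a 0)ᶜ ∩ (Nc i0 i1 a 0)ᶜ) * ENNReal.ofReal a ^ 2 ≤
      ENNReal.ofReal (a ^ 3) := by
    calc _ ≤ ENNReal.ofReal a * ENNReal.ofReal a ^ 2 := by
          gcongr; exact mass_mid i0 i1 h01 ha
      _ = ENNReal.ofReal (a ^ 3) := by
          rw [ENNReal.ofReal_pow ha.le]; ring
  calc _ ≤ (ENNReal.ofReal (a ^ 3)) ^ (1 / 2 : ℝ) := by gcongr
    _ = ENNReal.ofReal (a ^ (3 / 2 : ℝ)) := by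
      rw [ENNReal.ofReal_rpow_of_nonneg (by positivity) (by norm_num)]
      congr 1
      rw [← Real.rpow_natCast a 3, ← Real.rpow_mul ha.le]
      norm_num

end

/-- No exponent above `1/3` is admissible. -/
theorem Admissible.le_third (hd : 2 ≤ d) {α : ℝ} (h : Admissible d α) : α ≤ 1 / 3 := by
  by_contra hα
  push Not at hα
  obtain ⟨hα0, -, hadm⟩ := h
  obtain ⟨C, hC⟩ := hadm (cube d) (isCompact_cube d) (convex_cube d) (interior_cube_nonempty d)
    (Metric.closedBall 0 1) (isCompact_closedBall _ _) ⟨0, by simp⟩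
  let i0 : Fin d := ⟨0, by omega⟩
  let i1 : Fin d := ⟨1, by omega⟩
  have h01 : i0 ≠ i1 := by
    intro h
    have := congrArg Fin.val h
    simp [i0, i1] at this
  have hprob : ∀ a s : ℝ, 0 ≤ s → s ≤ 1 → ProbOn (Metric.closedBall 0 1)
      ((unif (cube d)).map (Tm i0 i1 a s)) := by
    intro a s hs0 hs1
    have hT := meas_Tm i0 i1 a s
    refine ⟨Measure.isProbabilityMeasure_map hT.aemeasurable, ?_⟩
    rw [Measure.map_apply hT Metric.isClosed_closedBall.measurableSet.compl]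
    convert measure_empty (μ := unif (cube d))
    ext x
    simp only [mem_preimage, mem_compl_iff, mem_empty_iff_false, iff_false, not_not,
      mem_closedBall_zero_iff]
    unfold Tm
    split_ifs
    · rw [norm_bv]
    · rw [norm_neg, norm_bv]
    · rw [norm_smul, norm_bv, Real.norm_eq_abs, abs_of_nonneg hs0, mul_one]; exact hs1
  have key : ∀ a : ℝ, 0 < a → a ≤ 1 / 2 →
      (a / 32) ^ (1 / 2 : ℝ) ≤ C * a ^ (3 / 2 * α) := by
    intro a ha ha2
    have h1 := hC _ _ (hprob a 0 le_rfl (by norm_num)) (hprob a a ha.le (by linarith)) _ _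
      (isOpt_Tm i0 i1 h01 ha le_rfl ha.le) (isOpt_Tm i0 i1 h01 ha ha.le le_rfl)
    have h2 := (lower_L2 i0 i1 h01 ha ha2).trans h1
    have h3 : (C : ℝ≥0∞) * W2 ((unif (cube d)).map (Tm i0 i1 a 0))
        ((unif (cube d)).map (Tm i0 i1 a a)) ^ α ≤ C * ENNReal.ofReal (a ^ (3 / 2 : ℝ)) ^ α := by
      gcongr
      exact upper_W2 i0 i1 h01 ha ha2
    have h4 := h2.trans h3
    rw [ENNReal.ofReal_rpow_of_nonneg (by positivity) hα0.le,
      ENNReal.ofReal_rpow_of_nonneg (by positivity) (by norm_num), ← Real.rpow_mul ha.le,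
      ← ENNReal.ofReal_coe_nnreal, ← ENNReal.ofReal_mul (by positivity)] at h4
    rwa [ENNReal.ofReal_le_ofReal_iff (by positivity)] at h4
  have hβ : 0 < 3 / 2 * α - 1 / 2 := by linarith
  have htend : Filter.Tendsto (fun a : ℝ => (32 : ℝ) ^ (1 / 2 : ℝ) * C * a ^ (3 / 2 * α - 1 / 2))
      (nhds 0) (nhds 0) := by
    have h1 := (Real.continuousAt_rpow_const 0 (3 / 2 * α - 1 / 2) (Or.inr hβ.le)).tendsto
    have h2 := h1.const_mul ((32 : ℝ) ^ (1 / 2 : ℝ) * C)
    rwa [Real.zero_rpow hβ.ne', mul_zero] at h2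
  have hev := htend.eventually (gt_mem_nhds (show (0 : ℝ) < 1 by norm_num))
  obtain ⟨ε, hε, hball⟩ := Metric.eventually_nhds_iff.1 hev
  let a : ℝ := min (ε / 2) (1 / 2)
  have ha : 0 < a := by simp only [a]; positivity
  have ha2 : a ≤ 1 / 2 := min_le_right _ _
  have h1 := hball (y := a) (by
    rw [Real.dist_eq, sub_zero, abs_of_pos ha]
    exact lt_of_le_of_lt (min_le_left _ _) (by linarith))
  have h2 := key a ha ha2
  rw [Real.div_rpow ha.le (by norm_num), div_le_iff₀ (by positivity)] at h2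
  have h3 : a ^ (3 / 2 * α) = a ^ (3 / 2 * α - 1 / 2) * a ^ (1 / 2 : ℝ) := by
    rw [← Real.rpow_add ha]; congr 1; ring
  rw [h3] at h2
  have h4 : 0 < a ^ (1 / 2 : ℝ) := by positivity
  have h5 : a ^ (1 / 2 : ℝ) * 1 ≤ a ^ (1 / 2 : ℝ) *
      ((32 : ℝ) ^ (1 / 2 : ℝ) * C * a ^ (3 / 2 * α - 1 / 2)) := by
    calc _ = a ^ (1 / 2 : ℝ) := mul_one _
      _ ≤ _ := h2
      _ = _ := by ring
  have h6 := le_of_mul_le_mul_left h5 h4
  linarith

end Vale.Agent.P074
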