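import Mathlib
import Vale.Agent.P074.Defs
import Vale.Agent.P074.Opt
import Vale.Agent.P074.Upper
import Vale.Agent.P074.Final

open MeasureTheory Set Filter Topology
open scoped ENNReal NNReal

namespace Vale.Agent.P074

variable {d : ℕ}

/-- every function on a finite set extends to a continuous function -/
theorem exists_cont_ext {Ω : Type} [Finite Ω] {P : Ω → E d} (hP : Function.Injective P)
    (ψ : Ω → ℝ) : ∃ g : E d → ℝ, Continuous g ∧ ∀ ω, g (P ω) = ψ ω := by
  have hfin : (range P).Finite := finite_range P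
  have hcl : IsClosed (range P) := hfin.isClosed
  have : Finite (range P) := hfin
  have hdisc : DiscreteTopology (range P) := inferInstance
  let e := Equiv.ofInjective P hP
  let f : C(range P, ℝ) := ⟨fun y => ψ (e.symm y), continuous_of_discreteTopology⟩
  obtain ⟨g, hg⟩ := ContinuousMap.exists_restrict_eq hcl f
  refine ⟨g, g.continuous, fun ω => ?_⟩
  have h1 := congrArg (fun h => h ⟨P ω, mem_range_self ω⟩) hg
  simp only [ContinuousMap.restrict_apply, ContinuousMap.coe_mk, f] at h1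
  rw [h1]
  congr 1
  exact e.symm_apply_apply ω

/-- optimal maps to finitely supported targets exist -/
theorem exists_opt_fin {K : Set (E d)} (hK : IsCompact K)
    (hi : (interior K).Nonempty) {ν : Measure (E d)} (hν : IsProbabilityMeasure ν)
    {s : Set (E d)} (hs : s.Finite) (hνs : ν sᶜ = 0) :
    ∃ T, IsOptMap (unif K) ν T := by
  classical
  have hKm : MeasurableSet K := hK.isClosed.measurableSet
  have hV0 : volume K ≠ 0 := by
    have : 0 < volume (interior K) := isOpen_interior.measure_pos _ hi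
    exact (this.trans_le (measure_mono interior_subset)).ne'
  have hp := unif_prob hV0 hK.measure_lt_top.ne
  obtain ⟨a', ha'⟩ := hK.isBounded.exists_norm_le
  obtain ⟨a, ha, ha1⟩ : ∃ a, a' ≤ a ∧ 0 ≤ a := ⟨max a' 0, le_max_left _ _, le_max_right _ _⟩
  have hKa : K ⊆ Metric.closedBall 0 a := fun x hx => by
    rw [mem_closedBall_zero_iff]; exact (ha' x hx).trans ha
  set s' : Set (E d) := {y | y ∈ s ∧ ν {y} ≠ 0} with hs'
  have hs'f : s'.Finite := hs.subset fun y hy => hy.1
  have hνs' : ν s'ᶜ = 0 := by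
    refine measure_mono_null (t := sᶜ ∪ ⋃ y ∈ (s \ s'), {y}) ?_ ?_
    · intro y hy
      by_cases hys : y ∈ s
      · right
        exact mem_iUnion₂.2 ⟨y, ⟨hys, hy⟩, rfl⟩
      · exact Or.inl hys
    · refine measure_union_null hνs ?_
      rw [measure_biUnion_null_iff (hs.subset sdiff_subset).countable]
      intro y hy
      by_contra hc
      exact hy.2 ⟨hy.1, hc⟩
  have : Finite s' := hs'f
  obtain ⟨hft⟩ := nonempty_fintype s'
  have hne : Nonempty s' := by
    by_contra hc
    rw [not_nonempty_iff, isEmpty_coe_sort] at hc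
    rw [hc, compl_empty, measure_univ] at hνs'
    exact one_ne_zero hνs'
  let P : s' → E d := Subtype.val
  have hP : Function.Injective P := Subtype.val_injective
  let m : s' → ℝ := fun ω => ν.real {P ω}
  have hm : ∀ ω, 0 < m ω := by
    intro ω
    exact ENNReal.toReal_pos ω.2.2 (measure_ne_top _ _)
  have hlaw : ∀ t, MeasurableSet t → ν t = ∑ ω : s', ν ({P ω} ∩ t) := by
    intro t ht
    have h1 : ν t = ν (⋃ ω : s', ({P ω} ∩ t)) := by
      apply measure_congr
      have h2 : ∀ᵐ y ∂ν, y ∈ s' := by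
        rw [ae_iff]; exact hνs'
      filter_upwards [h2] with y hy
      apply propext
      constructor
      · intro hyt
        exact mem_iUnion.2 ⟨⟨y, hy⟩, rfl, hyt⟩
      · intro h
        obtain ⟨ω, _, h3⟩ := mem_iUnion.1 h
        exact h3
    rw [h1, measure_iUnion, tsum_fintype]
    · intro i j hij
      refine Disjoint.mono inter_subset_left inter_subset_left ?_
      rw [disjoint_singleton]
      exact hP.ne hij
    · exact fun ω => (measurableSet_singleton _).inter ht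
  have hm1 : ∑ ω, m ω = 1 := by
    have h1 := hlaw univ MeasurableSet.univ
    simp only [inter_univ, measure_univ] at h1
    have h2 := congrArg ENNReal.toReal h1
    rw [ENNReal.toReal_one, ENNReal.toReal_sum fun ω _ => measure_ne_top _ _] at h2
    exact h2.symm
  obtain ⟨A⟩ := exists_alloc ha1 hKm hKa hV0 hP hm hm1
  have hTm : Measurable (fun x => P (A.q x)) := meas_comp A.meas P
  have hmass : ∀ ω, unif K (A.q ⁻¹' {ω}) = ν {P ω} := by
    intro ω
    have h1 := A.mass ω
    rw [← ofReal_measureReal, h1]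
    exact ofReal_measureReal
  have hTl : (unif K).map (fun x => P (A.q x)) = ν := by
    ext t ht
    rw [Measure.map_apply hTm ht, measure_partition A.meas (hTm ht), hlaw t ht]
    refine Finset.sum_congr rfl fun ω _ => ?_
    by_cases hω : P ω ∈ t
    · have e1 : A.q ⁻¹' {ω} ∩ (fun x => P (A.q x)) ⁻¹' t = A.q ⁻¹' {ω} := by
        apply inter_eq_left.2
        intro x hx
        have hx' : A.q x = ω := hx
        show P (A.q x) ∈ t
        rw [hx']; exact hω
      have e2 : {P ω} ∩ t = {P ω} := inter_eq_left.2 (singleton_subset_iff.2 hω)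
      rw [e1, e2, hmass]
    · have e1 : A.q ⁻¹' {ω} ∩ (fun x => P (A.q x)) ⁻¹' t = ∅ := by
        rw [eq_empty_iff_forall_notMem]
        rintro x ⟨hx, hx2⟩
        have hx' : A.q x = ω := hx
        have hx2' : P (A.q x) ∈ t := hx2
        rw [hx'] at hx2'
        exact hω hx2'
      have e2 : {P ω} ∩ t = ∅ := by
        rw [eq_empty_iff_forall_notMem]
        rintro y ⟨hy, hy2⟩
        have hy' : y = P ω := hy
        rw [hy'] at hy2
        exact hω hy2
      rw [e1, e2, measure_empty, measure_empty]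
  obtain ⟨g, hg, hgP⟩ := exists_cont_ext hP A.ψ
  refine ⟨fun x => P (A.q x), isOptMap_of_potentials hK hs'f.isCompact (unif_compl' hKm) hνs'
    hTm hTl (continuous_phi P A.ψ) hg ?_ ?_⟩
  · intro x _ y hy
    have h1 := le_phi P A.ψ x ⟨y, hy⟩
    have h2 := hgP ⟨y, hy⟩
    have h3 : P ⟨y, hy⟩ = y := rfl
    rw [h3] at h1 h2
    rw [h2]
    linarith
  · refine Eventually.of_forall fun x => ?_
    rw [hgP, phi_eq_of_mem (A.mem x)]
    ring

/-- nearest point projection to a finite net -/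
theorem exists_round {Y : Set (E d)} (hY : IsCompact Y) (hYne : Y.Nonempty) {ε : ℝ}
    (hε : 0 < ε) : ∃ (P : E d → E d) (s : Set (E d)), Measurable P ∧ s.Finite ∧ s ⊆ Y ∧
      (∀ x, P x ∈ s) ∧ ∀ x ∈ Y, ‖P x - x‖ ≤ ε := by
  classical
  obtain ⟨t, htY, htf, hcov⟩ := hY.finite_cover_balls hε
  have : Finite t := htf
  obtain ⟨hft⟩ := nonempty_fintype t
  have htne : Nonempty t := by
    obtain ⟨y, hy⟩ := hYne
    obtain ⟨x, hx, _⟩ := mem_iUnion₂.1 (hcov hy)
    exact ⟨⟨x, hx⟩⟩
  obtain ⟨q, hq1, hq2⟩ := exists_select (Ω := t)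
    (fun ω => {x : E d | ∀ η : t, ‖x - ω‖ ≤ ‖x - η‖})
    (fun ω => by
      have : {x : E d | ∀ η : t, ‖x - ω‖ ≤ ‖x - η‖} = ⋂ η : t, {x : E d | ‖x - ω‖ ≤ ‖x - η‖} := by
        ext x; simp
      rw [this]
      exact MeasurableSet.iInter fun η => (isClosed_le (by fun_prop) (by fun_prop)).measurableSet)
    (fun x => by
      obtain ⟨ω, hω⟩ := Finite.exists_min (fun η : t => ‖x - η‖)
      exact ⟨ω, hω⟩)
  refine ⟨fun x => (q x : E d), t, meas_comp hq1 (fun ω : t => (ω : E d)), htf, htY,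
    fun x => (q x).2, ?_⟩
  intro x hx
  obtain ⟨y, hy, hxy⟩ := mem_iUnion₂.1 (hcov hx)
  have h1 := hq2 x ⟨y, hy⟩
  rw [norm_sub_rev]
  refine h1.trans ?_
  rw [← dist_eq_norm]
  exact hxy.le

theorem W2_map_le {Y : Set (E d)} {μ : Measure (E d)} (hμ : ProbOn Y μ) {P Q : E d → E d}
    (hP : Measurable P) (hQ : Measurable Q) {δ : ℝ} (h : ∀ y ∈ Y, ‖P y - Q y‖ ≤ δ) :
    W2 (μ.map P) (μ.map Q) ≤ ENNReal.ofReal δ := by
  have := hμ.1
  have hPQ : Measurable (fun y => (P y, Q y)) := hP.prodMk hQ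
  have hπ : IsCoupling (μ.map (fun y => (P y, Q y))) (μ.map P) (μ.map Q) := by
    constructor
    · rw [Measure.map_map measurable_fst hPQ]; rfl
    · rw [Measure.map_map measurable_snd hPQ]; rfl
  refine (iInf₂_le (μ.map (fun y => (P y, Q y))) hπ).trans ?_
  rw [lintegral_map (by fun_prop) hPQ]
  have hY : ∀ᵐ y ∂μ, y ∈ Y := by
    rw [ae_iff]; exact hμ.2
  have h1 : ∫⁻ y, ‖P y - Q y‖ₑ ^ 2 ∂μ ≤ ENNReal.ofReal δ ^ 2 := by
    calc _ ≤ ∫⁻ _y, ENNReal.ofReal δ ^ 2 ∂μ := by
          apply lintegral_mono_ae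
          filter_upwards [hY] with y hy
          have h2 : ‖P y - Q y‖ₑ ≤ ENNReal.ofReal δ := by
            rw [← ofReal_norm]
            exact ENNReal.ofReal_le_ofReal (h y hy)
          gcongr
      _ = _ := by simp
  calc _ ≤ (ENNReal.ofReal δ ^ 2) ^ (1 / 2 : ℝ) := by gcongr
    _ = ENNReal.ofReal δ := by
      rw [← ENNReal.rpow_natCast, ← ENNReal.rpow_mul]; norm_num

theorem map_mem {Y : Set (E d)} (hY : MeasurableSet Y) {ρ μ : Measure (E d)} (hμ : μ Yᶜ = 0)
    {T : E d → E d} (hT : Measurable T) (hl : ρ.map T = μ) : ∀ᵐ x ∂ρ, T x ∈ Y := by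
  rw [ae_iff]
  have : {a | T a ∉ Y} = T ⁻¹' Yᶜ := rfl
  rw [this, ← Measure.map_apply hT hY.compl, hl, hμ]

/-- optimal maps to compactly supported targets exist -/
theorem exists_optMap (hd : 0 < d) {K : Set (E d)} (hK : IsCompact K) (hc : Convex ℝ K)
    (hi : (interior K).Nonempty) {Y : Set (E d)} (hY : IsCompact Y) {μ : Measure (E d)}
    (hμ : ProbOn Y μ) : ∃ T, IsOptMap (unif K) μ T := by
  have hμp := hμ.1
  have hKm : MeasurableSet K := hK.isClosed.measurableSet
  have hYm : MeasurableSet Y := hY.isClosed.measurableSet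
  have hV0 : volume K ≠ 0 := by
    have : 0 < volume (interior K) := isOpen_interior.measure_pos _ hi
    exact (this.trans_le (measure_mono interior_subset)).ne'
  have hp := unif_prob hV0 hK.measure_lt_top.ne
  have hYne : Y.Nonempty := by
    by_contra hcc
    rw [not_nonempty_iff_eq_empty] at hcc
    have h1 := hμ.2
    rw [hcc, compl_empty, measure_univ] at h1
    exact one_ne_zero h1
  obtain ⟨C, hC⟩ := (admissible_third hd).2.2 K hK hc hi Y hY hYne
  -- the scales
  let ε : ℕ → ℝ := fun n => ((1 / 2) ^ (n + 1) / (C + 1)) ^ 3 / 2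
  have hC0 : (0 : ℝ) ≤ C := C.2
  have hε : ∀ n, 0 < ε n := by
    intro n; simp only [ε]; positivity
  have hεanti : ∀ N n, N ≤ n → ε n ≤ ε N := by
    intro N n hn
    simp only [ε]
    have : ((1 : ℝ) / 2) ^ (n + 1) ≤ (1 / 2) ^ (N + 1) :=
      pow_le_pow_of_le_one (by norm_num) (by norm_num) (by omega)
    gcongr
  have hε0 : Tendsto ε atTop (𝓝 0) := by
    have h1 : Tendsto (fun n : ℕ => ((1 : ℝ) / 2) ^ (n + 1)) atTop (𝓝 0) :=
      (tendsto_pow_atTop_nhds_zero_of_lt_one (by norm_num) (by norm_num)).comp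
        (tendsto_add_atTop_nat 1)
    have h2 := ((h1.div_const (C + 1 : ℝ)).pow 3).div_const 2
    simpa [ε] using h2
  have hround := fun n => exists_round hY hYne (hε n)
  choose P s hPm hsf hsY hPs hPε using hround
  have hνp : ∀ n, IsProbabilityMeasure (μ.map (P n)) := fun n =>
    Measure.isProbabilityMeasure_map (hPm n).aemeasurable
  have hνs : ∀ n, (μ.map (P n)) (s n)ᶜ = 0 := by
    intro n
    rw [Measure.map_apply (hPm n) (hsf n).measurableSet.compl]
    convert measure_empty (μ := μ)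
    ext x
    simp [hPs n x]
  have hνY : ∀ n, ProbOn Y (μ.map (P n)) := fun n =>
    ⟨hνp n, measure_mono_null (compl_subset_compl.2 (hsY n)) (hνs n)⟩
  have hT' := fun n => exists_opt_fin hK hi (hνp n) (hsf n) (hνs n)
  choose T hT using hT'
  have hcauchy : ∀ N n m : ℕ, N ≤ n → N ≤ m →
      eLpNorm (T n - T m) 2 (unif K) < ENNReal.ofReal ((1 / 2) ^ N) := by
    intro N n m hn hm
    have h1 := hC _ _ (hνY n) (hνY m) _ _ (hT n) (hT m)
    have h2 : W2 (μ.map (P n)) (μ.map (P m)) ≤ ENNReal.ofReal (2 * ε N) := by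
      apply W2_map_le hμ (hPm n) (hPm m)
      intro y hy
      have e1 := hPε n y hy
      have e2 := hPε m y hy
      have e3 : P n y - P m y = (P n y - y) - (P m y - y) := by abel
      rw [e3]
      have := norm_sub_le (P n y - y) (P m y - y)
      linarith [hεanti N n hn, hεanti N m hm]
    have h3 : (C : ℝ≥0∞) * W2 (μ.map (P n)) (μ.map (P m)) ^ (1 / 3 : ℝ) ≤
        C * ENNReal.ofReal (2 * ε N) ^ (1 / 3 : ℝ) := by gcongr
    have h4 : (2 * ε N) ^ (1 / 3 : ℝ) = (1 / 2) ^ (N + 1) / (C + 1) := by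
      have : 2 * ε N = ((1 / 2) ^ (N + 1) / (C + 1)) ^ 3 := by simp only [ε]; ring
      rw [this, ← Real.rpow_natCast, ← Real.rpow_mul (by positivity)]
      norm_num
    refine (h1.trans h3).trans_lt ?_
    rw [ENNReal.ofReal_rpow_of_nonneg (by have := hε N; positivity) (by norm_num), h4,
      ← ENNReal.ofReal_coe_nnreal, ← ENNReal.ofReal_mul hC0]
    rw [ENNReal.ofReal_lt_ofReal_iff (by positivity)]
    have h5 : (0 : ℝ) < (1 / 2) ^ N := by positivity
    rw [pow_succ, ← mul_div_assoc, div_lt_iff₀ (by positivity)]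
    nlinarith
  have hsum : ∑' i : ℕ, ENNReal.ofReal ((1 / 2) ^ i) ≠ ∞ :=
    (summable_geometric_of_lt_one (by norm_num) (by norm_num)).tsum_ofReal_ne_top
  obtain ⟨G, hGs, haeG⟩ := exists_stronglyMeasurable_limit_of_tendsto_ae
    (fun n => (hT n).1.aestronglyMeasurable)
    (Lp.ae_tendsto_of_cauchy_eLpNorm (μ := unif K) (p := 2) (f := T)
      (fun n => (hT n).1.aestronglyMeasurable) (by norm_num) hsum hcauchy)
  have hGm : Measurable G := hGs.measurable
  have hPlim : ∀ y ∈ Y, Tendsto (fun i => P i y) atTop (𝓝 y) := by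
    intro y hy
    rw [tendsto_iff_norm_sub_tendsto_zero]
    exact squeeze_zero (fun _ => norm_nonneg _) (fun i => hPε i y hy) hε0
  have hμY : ∀ᵐ y ∂μ, y ∈ Y := by
    rw [ae_iff]; exact hμ.2
  have hGl : (unif K).map G = μ := by
    have : IsProbabilityMeasure ((unif K).map G) :=
      Measure.isProbabilityMeasure_map hGm.aemeasurable
    apply ext_of_forall_integral_eq_of_IsFiniteMeasure
    intro f
    rw [integral_map hGm.aemeasurable f.continuous.aestronglyMeasurable]
    have e1 : Tendsto (fun i => ∫ x, f (T i x) ∂(unif K)) atTop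
        (𝓝 (∫ x, f (G x) ∂(unif K))) := by
      apply tendsto_integral_of_dominated_convergence (fun _ => ‖f‖)
      · intro i
        exact (f.continuous.measurable.comp (hT i).1).aestronglyMeasurable
      · exact integrable_const _
      · intro i
        exact Eventually.of_forall fun x => f.norm_coe_le_norm _
      · filter_upwards [haeG] with x hx
        exact (f.continuous.tendsto _).comp hx
    have e2 : Tendsto (fun i => ∫ y, f (P i y) ∂μ) atTop (𝓝 (∫ y, f y ∂μ)) := by
      apply tendsto_integral_of_dominated_convergence (fun _ => ‖f‖)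
      · intro i
        exact (f.continuous.measurable.comp (hPm i)).aestronglyMeasurable
      · exact integrable_const _
      · intro i
        exact Eventually.of_forall fun x => f.norm_coe_le_norm _
      · filter_upwards [hμY] with y hy
        exact (f.continuous.tendsto _).comp (hPlim y hy)
    have e3 : ∀ i, ∫ x, f (T i x) ∂(unif K) = ∫ y, f (P i y) ∂μ := by
      intro i
      rw [← integral_map (hT i).1.aemeasurable f.continuous.aestronglyMeasurable,
        (hT i).2.1, integral_map (hPm i).aemeasurable f.continuous.aestronglyMeasurable]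
    simp only [e3] at e1
    exact tendsto_nhds_unique e1 e2
  refine ⟨G, hGm, hGl, ?_⟩
  intro S hS hSl
  obtain ⟨a, ha⟩ := hK.isBounded.exists_norm_le
  obtain ⟨R, hR⟩ := hY.isBounded.exists_norm_le
  have hKae : ∀ᵐ x ∂(unif K), x ∈ K := by
    rw [ae_iff]; exact unif_compl' hKm
  have hbd : ∀ x ∈ K, ∀ y ∈ Y, ‖x - y‖ₑ ^ 2 ≤ ENNReal.ofReal (a + R) ^ 2 := by
    intro x hx y hy
    have h1 : ‖x - y‖ₑ ≤ ENNReal.ofReal (a + R) := by
      rw [← ofReal_norm]
      exact ENNReal.ofReal_le_ofReal ((norm_sub_le _ _).trans (add_le_add (ha x hx) (hR y hy)))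
    gcongr
  have hfin : ∫⁻ _x, ENNReal.ofReal (a + R) ^ 2 ∂(unif K) ≠ ∞ := by
    rw [lintegral_const, measure_univ, mul_one]
    exact ENNReal.pow_ne_top ENNReal.ofReal_ne_top
  have hcts : Continuous (fun v : E d => ‖v‖ₑ ^ 2) := by fun_prop
  have c1 : Tendsto (fun i => ∫⁻ x, ‖x - T i x‖ₑ ^ 2 ∂(unif K)) atTop
      (𝓝 (∫⁻ x, ‖x - G x‖ₑ ^ 2 ∂(unif K))) := by
    apply tendsto_lintegral_of_dominated_convergence (fun _ => ENNReal.ofReal (a + R) ^ 2)
    · intro i
      exact hcts.measurable.comp (measurable_id.sub (hT i).1)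
    · intro i
      filter_upwards [hKae, map_mem hYm (hνY i).2 (hT i).1 (hT i).2.1]
        with x hx hx2
      exact hbd x hx _ hx2
    · exact hfin
    · filter_upwards [haeG] with x hx
      exact (hcts.tendsto _).comp (tendsto_const_nhds.sub hx)
  have c2 : Tendsto (fun i => ∫⁻ x, ‖x - P i (S x)‖ₑ ^ 2 ∂(unif K)) atTop
      (𝓝 (∫⁻ x, ‖x - S x‖ₑ ^ 2 ∂(unif K))) := by
    apply tendsto_lintegral_of_dominated_convergence (fun _ => ENNReal.ofReal (a + R) ^ 2)
    · intro i
      exact hcts.measurable.comp (measurable_id.sub ((hPm i).comp hS))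
    · intro i
      filter_upwards [hKae] with x hx
      exact hbd x hx _ (hsY _ (hPs i _))
    · exact hfin
    · filter_upwards [map_mem hYm hμ.2 hS hSl] with x hx
      exact (hcts.tendsto _).comp (tendsto_const_nhds.sub (hPlim _ hx))
  refine le_of_tendsto_of_tendsto' c1 c2 fun i => ?_
  refine (hT i).2.2 (fun x => P i (S x)) ((hPm i).comp hS) ?_
  rw [← hSl, Measure.map_map (hPm i) hS]
  rfl

/-- optimal maps are unique up to null sets -/
theorem optMap_unique (hd : 0 < d) {K : Set (E d)} (hK : IsCompact K) (hc : Convex ℝ K)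
    (hi : (interior K).Nonempty) {Y : Set (E d)} (hY : IsCompact Y) {μ : Measure (E d)}
    (hμ : ProbOn Y μ) {T S : E d → E d} (hT : IsOptMap (unif K) μ T)
    (hS : IsOptMap (unif K) μ S) : T =ᵐ[unif K] S := by
  have hμp := hμ.1
  have hYne : Y.Nonempty := by
    by_contra hcc
    rw [not_nonempty_iff_eq_empty] at hcc
    have h1 := hμ.2
    rw [hcc, compl_empty, measure_univ] at h1
    exact one_ne_zero h1
  obtain ⟨C, hC⟩ := (admissible_third hd).2.2 K hK hc hi Y hY hYne
  have h1 := hC μ μ hμ hμ T S hT hS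
  have h2 : W2 μ μ ≤ ENNReal.ofReal 0 := by
    have h3 := W2_map_le hμ (P := id) (Q := id) measurable_id measurable_id (δ := 0)
      (fun y _ => by simp)
    rwa [Measure.map_id] at h3
  have h3 : W2 μ μ = 0 := by
    rw [ENNReal.ofReal_zero] at h2
    exact le_antisymm h2 bot_le
  rw [h3, ENNReal.zero_rpow_of_pos (by norm_num), mul_zero] at h1
  have h4 := (eLpNorm_eq_zero_iff (hT.1.sub hS.1).aestronglyMeasurable (by norm_num)).1
    (le_antisymm h1 bot_le)
  filter_upwards [h4] with x hx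
  exact sub_eq_zero.1 hx

/-- For the cube and the unit ball no exponent above `1/3` works. -/
theorem fixed_pair (hd : 2 ≤ d) {α : ℝ} (hα : 1 / 3 < α) :
    ¬ ∃ C : ℝ≥0, ∀ μ ν : Measure (E d), ProbOn (Metric.closedBall 0 1) μ →
      ProbOn (Metric.closedBall 0 1) ν → ∀ T S : E d → E d, IsOptMap (unif (cube d)) μ T →
      IsOptMap (unif (cube d)) ν S →
        eLpNorm (fun x => T x - S x) 2 (unif (cube d)) ≤ C * W2 μ ν ^ α := by
  rintro ⟨C, hC⟩
  have hα0 : 0 < α := by linarith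
  let i0 : Fin d := ⟨0, by omega⟩
  let i1 : Fin d := ⟨1, by omega⟩
  have h01 : i0 ≠ i1 := by
    intro h
    have := congrArg Fin.val h
    simp [i0, i1] at this
  have hprob : ∀ a s : ℝ, 0 ≤ s → s ≤ 1 → ProbOn (Metric.closedBall 0 1)
      ((unif (cube d)).map (Tm i0 i1 a s)) := by
    intro a s hs0 hs1
    have hT := meas_Tm i0 i1 a s
    refine ⟨Measure.isProbabilityMeasure_map hT.aemeasurable, ?_⟩
    rw [Measure.map_apply hT Metric.isClosed_closedBall.measurableSet.compl]
    convert measure_empty (μ := unif (cube d))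
    ext x
    simp only [mem_preimage, mem_compl_iff, mem_empty_iff_false, iff_false, not_not,
      mem_closedBall_zero_iff]
    unfold Tm
    split_ifs
    · rw [norm_bv]
    · rw [norm_neg, norm_bv]
    · rw [norm_smul, norm_bv, Real.norm_eq_abs, abs_of_nonneg hs0, mul_one]; exact hs1
  have key : ∀ a : ℝ, 0 < a → a ≤ 1 / 2 →
      (a / 32) ^ (1 / 2 : ℝ) ≤ C * a ^ (3 / 2 * α) := by
    intro a ha ha2
    have h1 := hC _ _ (hprob a 0 le_rfl (by norm_num)) (hprob a a ha.le (by linarith)) _ _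
      (isOpt_Tm i0 i1 h01 ha le_rfl ha.le) (isOpt_Tm i0 i1 h01 ha ha.le le_rfl)
    have h2 := (lower_L2 i0 i1 h01 ha ha2).trans h1
    have h3 : (C : ℝ≥0∞) * W2 ((unif (cube d)).map (Tm i0 i1 a 0))
        ((unif (cube d)).map (Tm i0 i1 a a)) ^ α ≤ C * ENNReal.ofReal (a ^ (3 / 2 : ℝ)) ^ α := by
      gcongr
      exact upper_W2 i0 i1 h01 ha ha2
    have h4 := h2.trans h3
    rw [ENNReal.ofReal_rpow_of_nonneg (by positivity) hα0.le,
      ENNReal.ofReal_rpow_of_nonneg (by positivity) (by norm_num), ← Real.rpow_mul ha.le,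
      ← ENNReal.ofReal_coe_nnreal, ← ENNReal.ofReal_mul (by positivity)] at h4
    rwa [ENNReal.ofReal_le_ofReal_iff (by positivity)] at h4
  have hβ : 0 < 3 / 2 * α - 1 / 2 := by linarith
  have htend : Filter.Tendsto (fun a : ℝ => (32 : ℝ) ^ (1 / 2 : ℝ) * C * a ^ (3 / 2 * α - 1 / 2))
      (nhds 0) (nhds 0) := by
    have h1 := (Real.continuousAt_rpow_const 0 (3 / 2 * α - 1 / 2) (Or.inr hβ.le)).tendsto
    have h2 := h1.const_mul ((32 : ℝ) ^ (1 / 2 : ℝ) * C)
    rwa [Real.zero_rpow hβ.ne', mul_zero] at h2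
  have hev := htend.eventually (gt_mem_nhds (show (0 : ℝ) < 1 by norm_num))
  obtain ⟨ε, hε, hball⟩ := Metric.eventually_nhds_iff.1 hev
  let a : ℝ := min (ε / 2) (1 / 2)
  have ha : 0 < a := by simp only [a]; positivity
  have ha2 : a ≤ 1 / 2 := min_le_right _ _
  have h1 := hball (y := a) (by
    rw [Real.dist_eq, sub_zero, abs_of_pos ha]
    exact lt_of_le_of_lt (min_le_left _ _) (by linarith))
  have h2 := key a ha ha2
  rw [Real.div_rpow ha.le (by norm_num), div_le_iff₀ (by positivity)] at h2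
  have h3 : a ^ (3 / 2 * α) = a ^ (3 / 2 * α - 1 / 2) * a ^ (1 / 2 : ℝ) := by
    rw [← Real.rpow_add ha]; congr 1; ring
  rw [h3] at h2
  have h4 : 0 < a ^ (1 / 2 : ℝ) := by positivity
  have h5 : a ^ (1 / 2 : ℝ) * 1 ≤ a ^ (1 / 2 : ℝ) *
      ((32 : ℝ) ^ (1 / 2 : ℝ) * C * a ^ (3 / 2 * α - 1 / 2)) := by
    calc _ = a ^ (1 / 2 : ℝ) := mul_one _
      _ ≤ _ := h2
      _ = _ := by ring
  have h6 := le_of_mul_le_mul_left h5 h4
  linarith

theorem W2_le_bdd {Y : Set (E d)} {R : ℝ} (hR : ∀ y ∈ Y, ‖y‖ ≤ R) {μ ν : Measure (E d)}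
    (hμ : ProbOn Y μ) (hν : ProbOn Y ν) : W2 μ ν ≤ ENNReal.ofReal (2 * R) := by
  have := hμ.1
  have := hν.1
  have hπ : IsCoupling (μ.prod ν) μ ν := by
    constructor
    · rw [← Measure.fst, Measure.fst_prod]
    · rw [← Measure.snd, Measure.snd_prod]
  refine (iInf₂_le (μ.prod ν) hπ).trans ?_
  have h1 : ∀ᵐ y ∂μ, y ∈ Y := by rw [ae_iff]; exact hμ.2
  have h2 : ∀ᵐ y ∂ν, y ∈ Y := by rw [ae_iff]; exact hν.2
  have h1' : ∀ᵐ p ∂(μ.prod ν), p.1 ∈ Y := Measure.quasiMeasurePreserving_fst.ae h1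
  have h2' : ∀ᵐ p ∂(μ.prod ν), p.2 ∈ Y := Measure.quasiMeasurePreserving_snd.ae h2
  have h3 : ∫⁻ p, ‖p.1 - p.2‖ₑ ^ 2 ∂(μ.prod ν) ≤ ENNReal.ofReal (2 * R) ^ 2 := by
    calc _ ≤ ∫⁻ _p, ENNReal.ofReal (2 * R) ^ 2 ∂(μ.prod ν) := by
          apply lintegral_mono_ae
          filter_upwards [h1', h2'] with p hp1 hp2
          have h4 : ‖p.1 - p.2‖ₑ ≤ ENNReal.ofReal (2 * R) := by
            rw [← ofReal_norm]
            refine ENNReal.ofReal_le_ofReal ((norm_sub_le _ _).trans ?_)
            linarith [hR _ hp1, hR _ hp2]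
          gcongr
      _ = _ := by simp
  calc _ ≤ (ENNReal.ofReal (2 * R) ^ 2) ^ (1 / 2 : ℝ) := by gcongr
    _ = ENNReal.ofReal (2 * R) := by
      rw [← ENNReal.rpow_natCast, ← ENNReal.rpow_mul]; norm_num

/-- exponents below an admissible one are admissible -/
theorem Admissible.mono {α β : ℝ} (h : Admissible d β) (hα : 0 < α) (hαβ : α ≤ β) :
    Admissible d α := by
  refine ⟨hα, hαβ.trans h.2.1, ?_⟩
  intro K hK hc hi Y hY hYne
  obtain ⟨C, hC⟩ := h.2.2 K hK hc hi Y hY hYne
  obtain ⟨R, hR⟩ := hY.isBounded.exists_norm_le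
  refine ⟨C * (ENNReal.ofReal (2 * R) ^ (β - α)).toNNReal, ?_⟩
  intro μ ν hμ hν T S hT hS
  refine (hC μ ν hμ hν T S hT hS).trans ?_
  have hW := W2_le_bdd hR hμ hν
  have hne : ENNReal.ofReal (2 * R) ^ (β - α) ≠ ∞ :=
    ENNReal.rpow_ne_top_of_nonneg (by linarith) ENNReal.ofReal_ne_top
  rw [ENNReal.coe_mul, ENNReal.coe_toNNReal hne, mul_assoc]
  gcongr
  have e : W2 μ ν ^ β = W2 μ ν ^ (β - α) * W2 μ ν ^ α := by
    rw [← ENNReal.rpow_add_of_nonneg _ _ (by linarith) hα.le]; congr 1; ring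
  rw [e]
  gcongr

theorem admissible_iff (hd : 2 ≤ d) {α : ℝ} : Admissible d α ↔ 0 < α ∧ α ≤ 1 / 3 :=
  ⟨fun h => ⟨h.1, h.le_third hd⟩, fun h => (admissible_third (by omega)).mono h.1 h.2⟩

end Vale.Agent.P074
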